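import Vale.Agent.P231.M.SchurA

/-!
# Trace versus determinant, with a projector  (TASK)

`trace_ge`: eigenvalues `λ_i > 0` of `X` (`PosDef.eigenvalues_pos`, `IsHermitian.trace_eq_sum_eigenvalues`, `det_eq_prod_eigenvalues`) and
`log x ≤ x - 1` applied to `λ_i / β` (`Real.log_le_sub_one_of_pos`, strict unless `x = 1`: `Real.log_lt_sub_one_of_pos`); equality gives all
`λ_i = β`, so `X = β • 1` by the spectral theorem.  State and prove these two for a general finite index type (needed for the blocks).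
`trace_mul_ge`: `Y = Bᵀ B` with `B` invertible (`Matrix.posDef_iff_eq_conjTranspose_mul_self` or the square root), `tr (X Y) = tr (B X Bᵀ)`.
`pr_blocks`-type reduction for `schur_*`: the symmetric idempotent `Q` has eigenvalues in `{0, 1}`; conjugate by the eigenvector unitary `U` and reindex along
`Equiv.sumCompl (fun i => eigenvalue i = 1)`, so that `Q = fromBlocks 1 0 0 0` with `k` = card of the first block (trace), `G = fromBlocks A B Bᵀ D`.
With the Schur complement `T = D - Bᵀ A⁻¹ B` (positive definite; `det_fromBlocks₁₁`, `PosDef.fromBlocks₁₁` or directly) one has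
`det G = det A det T`, the lower right block of `G⁻¹` is `T⁻¹` (`inv_fromBlocks`-type formula, or check the product), so `det (cmp Q G⁻¹) = (det T)⁻¹`;
`tr G = tr A + tr T + tr (Bᵀ A⁻¹ B)`, `tr (Q G) = tr A`.  Apply `trace_ge` to `A` with `α` and to `T` with `β`.  Equality forces `A = α`, `T = β`,
`tr (Bᵀ B) = 0`, so `B = 0`.  A basis-free proof is also fine.  This file holds one portion of the plan above.  Prefix helper names by `schur_hb_`.
-/

namespace Vale.Agent.P231

open Matrix Real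

variable {m : ℕ}

theorem schur_hb_log {P : Mat m} (hs : Pᵀ = P) (hi : P * P = P) {a : ℝ} (ha : 0 < a) :
    (a • P + (1 - P)).det ≠ 0 ∧ Real.log (a • P + (1 - P)).det = P.trace * Real.log a := by
  obtain ⟨d, hd, ht, e⟩ := schur_ha_spec hs hi
  have e1 := e a 1
  rw [one_smul] at e1
  have hne : ∀ i, a * d i + 1 * (1 - d i) ≠ 0 := fun i => by
    rcases hd i with h | h <;> simp [h, ha.ne']
  rw [e1, ht, Real.log_prod fun i _ => hne i, Finset.sum_mul]
  refine ⟨Finset.prod_ne_zero_iff.2 fun i _ => hne i, Finset.sum_congr rfl fun i _ => ?_⟩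
  rcases hd i with h | h <;> simp [h]

theorem schur_hb_c {P : Mat m} (hs : Pᵀ = P) (hi : P * P = P) :
    (1 - P)ᵀ = 1 - P ∧ (1 - P) * (1 - P) = 1 - P ∧ P * (1 - P) = 0 ∧ (1 - P) * P = 0 := by
  refine ⟨by rw [transpose_sub, transpose_one, hs], ?_, ?_, ?_⟩ <;>
    simp [Matrix.mul_sub, Matrix.sub_mul, hi]

theorem schur_hb_pd {P G : Mat m} (hs : Pᵀ = P) (hi : P * P = P) (hG : G.PosDef) :
    (cmp P G).PosDef := by
  simpa [cmp] using schur_ha_cmp hs hi hG one_pos

theorem schur_hb_bd {P G : Mat m} (hs : Pᵀ = P) (hi : P * P = P) (hG : G.PosDef) {α : ℝ}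
    (hα : 0 < α) : (m - P.trace) * α + α * (Real.log (cmp P G).det -
      (m - P.trace) * Real.log α) ≤ ((1 - P) * G).trace ∧
    (((1 - P) * G).trace ≤ (m - P.trace) * α + α * (Real.log (cmp P G).det -
      (m - P.trace) * Real.log α) → (1 - P) * G * (1 - P) = α • (1 - P)) := by
  obtain ⟨-, c2, c3, c4⟩ := schur_hb_c hs hi
  obtain ⟨l1, l2⟩ := schur_hb_log hs hi hα
  have hX := schur_ha_cmp hs hi hG hα
  have e1 : α • P + (1 - P) * G * (1 - P) = (α • P + (1 - P)) * cmp P G := by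
    simp only [cmp, Matrix.add_mul, Matrix.mul_add, Matrix.smul_mul, ← Matrix.mul_assoc, hi, c2,
      c3, c4, smul_zero, add_zero, zero_add]
  have e2 : Real.log (α • P + (1 - P) * G * (1 - P)).det =
      P.trace * Real.log α + Real.log (cmp P G).det := by
    rw [e1, det_mul, Real.log_mul l1 (schur_hb_pd hs hi hG).det_pos.ne', l2]
  have e3 : (α • P + (1 - P) * G * (1 - P)).trace = α * P.trace + ((1 - P) * G).trace := by
    rw [trace_add, trace_smul, trace_mul_cycle, c2, smul_eq_mul]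
  have h1 := trace_ge hX hα
  have h2 := trace_eq hX hα
  rw [e2, e3, Fintype.card_fin] at h1 h2
  refine ⟨by linarith, fun h => ?_⟩
  rw [smul_sub, ← h2 (by linarith), add_sub_cancel_left]

theorem schur_hb_tri {P : Mat m} (hs : Pᵀ = P) (hi : P * P = P) (X : Mat m) :
    (P + X * (1 - P)).det = (cmp P X).det := by
  obtain ⟨-, -, -, c4⟩ := schur_hb_c hs hi
  have e : P + X * (1 - P) = cmp P X * (1 + P * (X * (1 - P))) := by
    rw [cmp, Matrix.mul_add, Matrix.mul_one, Matrix.add_mul, ← Matrix.mul_assoc P P, hi,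
      ← Matrix.mul_assoc _ P, Matrix.mul_assoc _ (1 - P) P, c4, Matrix.mul_zero, Matrix.zero_mul,
      add_zero, Matrix.mul_assoc, add_assoc, ← Matrix.add_mul, sub_add_cancel, Matrix.one_mul]
  rw [e, det_mul, det_one_add_mul_comm, Matrix.mul_assoc, c4, Matrix.mul_zero, add_zero, det_one,
    mul_one]

theorem schur_hb_jac {Q G : Mat m} (hs : Qᵀ = Q) (hi : Q * Q = Q) (hG : G.PosDef) :
    Real.log G.det + Real.log (cmp Q G⁻¹).det = Real.log (cmp (1 - Q) G).det := by
  obtain ⟨c1, c2, -, -⟩ := schur_hb_c hs hi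
  rw [← Real.log_mul hG.det_pos.ne' (schur_hb_pd hs hi hG.inv).det_pos.ne', ← schur_hb_tri hs hi,
    ← schur_hb_tri c1 c2, ← det_mul, Matrix.mul_add, ← Matrix.mul_assoc,
    mul_nonsing_inv _ (isUnit_iff_ne_zero.2 hG.det_pos.ne'), Matrix.one_mul, sub_sub_cancel,
    add_comm]

theorem schur_hb_fi {Q G : Mat m} (hs : Qᵀ = Q) (hi : Q * Q = Q) (hG : G.PosDef) :
    Real.log G.det ≤ Real.log (cmp Q G).det + Real.log (cmp (1 - Q) G).det ∧
    (Real.log (cmp Q G).det + Real.log (cmp (1 - Q) G).det ≤ Real.log G.det →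
      G = Q * G * Q + (1 - Q) * G * (1 - Q)) := by
  obtain ⟨c1, c2, c3, c4⟩ := schur_hb_c hs hi
  set D := Q * G * Q + (1 - Q) * G * (1 - Q) with hD
  have e1 : cmp Q G * cmp (1 - Q) G = D := by
    simp only [cmp, sub_sub_cancel, Matrix.add_mul, Matrix.mul_add, ← Matrix.mul_assoc, hi, c3,
      zero_add]
    rw [Matrix.mul_assoc _ (1 - Q) (1 - Q), c2, Matrix.mul_assoc _ (1 - Q) Q, c4]
    simp [hD, add_comm]
  have hJ : (Q - (1 - Q)) * (Q - (1 - Q)) = 1 := by
    rw [Matrix.sub_mul, Matrix.mul_sub, Matrix.mul_sub (1 - Q), hi, c2, c3, c4]; abel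
  have hJd : (Q - (1 - Q)).det ≠ 0 := fun h0 => by
    have := congrArg det hJ
    rw [det_mul, h0, zero_mul, det_one] at this
    exact zero_ne_one this
  have hDp : D.PosDef := by
    have h1 := (hG.add (schur_ha_conj hG hJd)).smul (show (0 : ℝ) < 1 / 2 by norm_num)
    have e : (1 / 2 : ℝ) • (G + (Q - (1 - Q)) * G * (Q - (1 - Q))ᵀ) = D := by
      rw [transpose_sub, hs, c1, hD]
      simp only [Matrix.mul_sub, Matrix.sub_mul, Matrix.mul_one, Matrix.one_mul]
      module
    rwa [e] at h1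
  have hu := isUnit_iff_ne_zero.2 hDp.det_pos.ne'
  have cm : ∀ P : Mat m, P * D = D * P → P * D⁻¹ = D⁻¹ * P := fun P h => by
    calc P * D⁻¹ = D⁻¹ * (D * P) * D⁻¹ := by
          rw [← Matrix.mul_assoc, nonsing_inv_mul _ hu, Matrix.one_mul]
      _ = D⁻¹ * P := by
          rw [← h, Matrix.mul_assoc, Matrix.mul_assoc, mul_nonsing_inv _ hu, Matrix.mul_one]
  have q1 : Q * D = D * Q := by
    rw [hD, Matrix.mul_add, Matrix.add_mul, Matrix.mul_assoc _ Q Q, Matrix.mul_assoc _ (1 - Q) Q]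
    simp only [← Matrix.mul_assoc, hi, c3, c4, Matrix.zero_mul, Matrix.mul_zero]
  have q2 : (1 - Q) * D = D * (1 - Q) := by
    rw [Matrix.sub_mul, Matrix.mul_sub, q1, Matrix.one_mul, Matrix.mul_one]
  have t1 : ∀ P : Mat m, P * P = P → P * D = D * P →
      (P * G * P * D⁻¹).trace = (P * (G * D⁻¹)).trace := fun P h1 h2 => by
    rw [Matrix.mul_assoc, cm P h2, ← Matrix.mul_assoc, trace_mul_comm]
    simp only [← Matrix.mul_assoc, h1]
  have e2 : (G * D⁻¹).trace = m := by
    have := congrArg trace (mul_nonsing_inv D hu)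
    rw [trace_one, Fintype.card_fin] at this
    rw [← this]
    nth_rewrite 2 [hD]
    rw [Matrix.add_mul, trace_add, t1 Q hi q1, t1 _ c2 q2, ← trace_add, ← Matrix.add_mul,
      add_sub_cancel, Matrix.one_mul]
  have e3 : Real.log D⁻¹.det = -(Real.log (cmp Q G).det + Real.log (cmp (1 - Q) G).det) := by
    rw [det_nonsing_inv, Ring.inverse_eq_inv', Real.log_inv, ← e1, det_mul,
      Real.log_mul (schur_hb_pd hs hi hG).det_pos.ne' (schur_hb_pd c1 c2 hG).det_pos.ne']
  have h1 := trace_mul_ge hG hDp.inv one_pos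
  have h2 := schur_ha_mul_eq hG hDp.inv one_pos
  rw [e2, e3, Real.log_one] at h1 h2
  refine ⟨by linarith, fun h => ?_⟩
  have h3 := congrArg (· * D) (h2 (by linarith))
  simpa only [Matrix.mul_assoc, nonsing_inv_mul _ hu, Matrix.mul_one, one_smul,
    Matrix.one_mul] using h3

theorem schur_hb_all {Q G : Mat m} {k : ℕ} (hQ : IsPr Q k) (hG : G.PosDef) {α : ℝ} (hα : 0 < α) :
    k * α + α * (Real.log (cmp (1 - Q) G).det - k * Real.log α) ≤ (Q * G).trace ∧
    ((Q * G).trace ≤ k * α + α * (Real.log (cmp (1 - Q) G).det - k * Real.log α) →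
      Q * G * Q = α • Q) := by
  obtain ⟨c1, c2, -, -⟩ := schur_hb_c hQ.symm hQ.idem
  have := schur_hb_bd c1 c2 hG hα
  rwa [trace_sub, trace_one, Fintype.card_fin, hQ.tr, sub_sub_cancel, sub_sub_cancel] at this

theorem schur_hb_tr (Q G : Mat m) : G.trace = (Q * G).trace + ((1 - Q) * G).trace := by
  rw [← trace_add, ← Matrix.add_mul, add_sub_cancel, Matrix.one_mul]

theorem schur_le {Q G : Mat m} {k : ℕ} (hQ : IsPr Q k) (hG : G.PosDef) {α β : ℝ} (hα : 0 < α)
    (hβ : 0 < β) : k * α + (m - k) * β +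
      α * (Real.log G.det - k * Real.log α - (m - k) * Real.log β) +
      (α - β) * (Real.log (cmp Q G⁻¹).det + (m - k) * Real.log β) ≤ G.trace := by
  have h1 := (schur_hb_all hQ hG hα).1
  have h2 := (schur_hb_bd hQ.symm hQ.idem hG hβ).1
  have h3 := mul_le_mul_of_nonneg_left (schur_hb_fi hQ.symm hQ.idem hG).1 hβ.le
  rw [hQ.tr] at h2
  rw [← schur_hb_jac hQ.symm hQ.idem hG] at h1 h3
  rw [schur_hb_tr Q G]
  linarith

theorem schur_eq {Q G : Mat m} {k : ℕ} (hQ : IsPr Q k) (hG : G.PosDef) {α β : ℝ} (hα : 0 < α)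
    (hβ : 0 < β) (h : G.trace ≤ k * α + (m - k) * β +
      α * (Real.log G.det - k * Real.log α - (m - k) * Real.log β) +
      (α - β) * (Real.log (cmp Q G⁻¹).det + (m - k) * Real.log β)) :
    G = α • Q + β • (1 - Q) := by
  obtain ⟨h1, g1⟩ := schur_hb_all hQ hG hα
  obtain ⟨h2, g2⟩ := schur_hb_bd hQ.symm hQ.idem hG hβ
  obtain ⟨h3, g3⟩ := schur_hb_fi hQ.symm hQ.idem hG
  have h4 := mul_le_mul_of_nonneg_left h3 hβ.le
  rw [hQ.tr] at h2 g2
  rw [← schur_hb_jac hQ.symm hQ.idem hG] at h1 h4 g1 g3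
  rw [schur_hb_tr Q G] at h
  rw [← g1 (by linarith), ← g2 (by linarith)]
  exact g3 (le_of_mul_le_mul_left (by linarith) hβ)

theorem schur_bd {Q G : Mat m} {k : ℕ} (hQ : IsPr Q k) (hG : G.PosDef) {α : ℝ} (hα : 0 < α) :
    Real.log G.det + Real.log (cmp Q G⁻¹).det ≤ (Q * G).trace / α - k + k * Real.log α := by
  have h1 := (schur_hb_all hQ hG hα).1
  rw [← schur_hb_jac hQ.symm hQ.idem hG] at h1
  rw [← sub_le_iff_le_add, le_sub_iff_add_le, le_div_iff₀ hα]
  linarith

end Vale.Agent.P231
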