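import Vale.Agent.P231.M.Second
import Vale.Agent.P231.M.Schur

/-!
# The logarithmic Berger-Kazdan inequality for transverse loops  (TASK)

`hT := h.tv h0`.  Let `Γ = ∫ log det g` and `w τ = avL τ - π m log (sin τ) - Γ` on `Ioo 0 π`; `w1 = I1 - π m cos / sin`,
`w2 = -∫ mix + π m / sin²` (`Loop.second`).  With `β = 1 / sin² τ`, `trace_mul_ge` for `X = A⁻¹ g(t) A⁻¹ᵀ` (positive definite:
`PosDef.mul_mul_conjTranspose_same` or `conjTranspose_mul_mul_same`), `Y = g(t - τ)` gives
`mix ≥ m β + β (log det g(t) + log det g(t-τ) - 2 log det A + 2 m log sin τ)`; integrate (`intervalIntegral.integral_mono_on`; `perg`, `per_shift` with `-τ`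
give `∫ log det g(t - τ) = Γ`): `w2 ≤ 2 β w`.  Ends: `Loop.zero` and `log (sin τ) - log τ → 0` give `w → 0` at `0+`; `w (π - τ) = w τ` because
`|det A(t, t - π + τ)| = |det A(t + π, t + τ)| = |det A(t, t + τ)| = |det A(t + τ, t)|` (`abs_det_shift`, `abs_det_left`, `abs_det_swap`) and `per_shift`.
Conclude by `max_principle`.  Prefix helper names by `bk_`.
-/

namespace Vale.Agent.P231

open Matrix Real Filter Topology Set

variable {m : ℕ} {C S C1 S1 : ℝ → Mat m}

theorem log_sin_sub_log : Tendsto (fun τ => Real.log (sin τ) - Real.log τ) (𝓝[>] 0) (𝓝 0) := by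
  have h1 := (Real.hasDerivAt_sin 0).tendsto_slope_zero_right
  simp only [zero_add, sin_zero, sub_zero, cos_zero, smul_eq_mul] at h1
  have h2 := h1.log one_ne_zero
  rw [Real.log_one] at h2
  refine h2.congr' ?_
  filter_upwards [Ioo_mem_nhdsGT pi_pos] with τ hτ
  rw [Real.log_mul (inv_ne_zero hτ.1.ne') (sin_pos_of_mem_Ioo hτ).ne', Real.log_inv]
  ring

theorem bk_symm (h : Loop C S C1 S1) (τ : ℝ) : avL C S (π - τ) = avL C S τ := by
  unfold avL
  rw [← per_shift (f := fun t => Real.log (pr C S t (t - τ)).det) (fun t => ?_) τ]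
  · refine intervalIntegral.integral_congr fun t _ => ?_
    have e1 : t - (π - τ) + π = t + τ := by ring
    have e2 : t + τ - τ = t := by ring
    beta_reduce
    rw [← Real.log_abs, ← h.abs_det_shift, e1, h.abs_det_left, abs_det_swap, Real.log_abs, e2]
  · have e : t + π - τ = t - τ + π := by ring
    rw [← Real.log_abs, e, h.abs_det_shift, Real.log_abs]

theorem bk_mix (h : Loop C S C1 S1) (hT : Tv C S π) {τ : ℝ} (hτ : τ ∈ Ioo 0 π) (t : ℝ) :
    m * (1 / sin τ ^ 2) + 1 / sin τ ^ 2 * (Real.log (gm C S C1 S1 t).det +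
      Real.log (gm C S C1 S1 (t + -τ)).det - 2 * Real.log (pr C S t (t - τ)).det +
      2 * (m * Real.log (sin τ))) ≤ mix C S C1 S1 τ t := by
  have hs := sin_pos_of_mem_Ioo hτ
  have hA : (pr C S t (t - τ)).det ≠ 0 := hT t (t - τ) (by linarith [hτ.1]) (by linarith [hτ.2])
  have hu : IsUnit (pr C S t (t - τ))⁻¹ :=
    isUnit_nonsing_inv_iff.2 ((isUnit_iff_isUnit_det _).2 hA.isUnit)
  have hX := (h.pos t).mul_mul_conjTranspose_same (vecMul_injective_of_isUnit hu)
  rw [conjTranspose_eq_transpose_of_trivial] at hX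
  have h1 := trace_mul_ge hX (h.pos (t - τ)) (β := 1 / sin τ ^ 2) (by positivity)
  have hg := (h.pos t).det_pos.ne'
  rw [det_mul, det_mul, det_transpose, det_nonsing_inv, Ring.inverse_eq_inv',
    Real.log_mul (mul_ne_zero (inv_ne_zero hA) hg) (inv_ne_zero hA),
    Real.log_mul (inv_ne_zero hA) hg, Real.log_inv,
    Real.log_div one_ne_zero (by positivity), Real.log_one, Real.log_pow] at h1
  rw [← sub_eq_add_neg]
  unfold mix
  refine le_of_eq_of_le ?_ h1
  push_cast
  ring

theorem Loop.bk (h : Loop C S C1 S1) (h0 : ∀ t, 0 < t → t < π → (pr C S t 0).det ≠ 0) {τ : ℝ}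
    (hτ : τ ∈ Ioo 0 π) : π * (m * Real.log (sin τ)) +
      ∫ t in (0 : ℝ)..π, Real.log (gm C S C1 S1 t).det ≤ avL C S τ := by
  have hT := h.tv h0
  obtain ⟨I1, hI⟩ := h.second hT
  have hz := h.zero hT pi_pos
  have hgc : Continuous fun t => Real.log (gm C S C1 S1 t).det :=
    continuous_iff_continuousAt.2 fun t =>
      continuousAt_logdet h.continuous_gm.continuousAt (h.pos t).det_pos.ne'
  have hsh : ∀ σ, ∫ t in (0 : ℝ)..π, Real.log (gm C S C1 S1 (t + σ)).det =
      ∫ t in (0 : ℝ)..π, Real.log (gm C S C1 S1 t).det :=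
    per_shift (f := fun t => Real.log (gm C S C1 S1 t).det) fun t => by rw [h.perg]
  have hint : ∀ σ ∈ Ioo 0 π, π * (m * (1 / sin σ ^ 2)) + 1 / sin σ ^ 2 *
      (2 * (∫ t in (0 : ℝ)..π, Real.log (gm C S C1 S1 t).det) - 2 * avL C S σ +
        2 * (π * (m * Real.log (sin σ)))) ≤ ∫ t in (0 : ℝ)..π, mix C S C1 S1 σ t := by
    intro σ hσ
    have c1 : Continuous fun t => Real.log (gm C S C1 S1 (t + -σ)).det :=
      hgc.comp (continuous_id.add continuous_const)
    have c2 := h.continuous_log hT hσ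
    have i0 := hgc.intervalIntegrable (μ := MeasureTheory.volume) 0 π
    have i1 := c1.intervalIntegrable (μ := MeasureTheory.volume) 0 π
    have i2 := (c2.intervalIntegrable (μ := MeasureTheory.volume) 0 π).const_mul 2
    have i3 := ((i0.add i1).sub i2).add
      (intervalIntegrable_const (c := 2 * (m * Real.log (sin σ))))
    have h1 := intervalIntegral.integral_mono_on pi_pos.le
      (intervalIntegrable_const.add (i3.const_mul _))
      ((h.continuous_mix hT hσ).intervalIntegrable 0 π) fun t _ => bk_mix h hT hσ t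
    rw [intervalIntegral.integral_add intervalIntegrable_const (i3.const_mul _),
      intervalIntegral.integral_const, intervalIntegral.integral_const_mul,
      intervalIntegral.integral_add ((i0.add i1).sub i2) intervalIntegrable_const,
      intervalIntegral.integral_const,
      intervalIntegral.integral_sub (i0.add i1) i2, intervalIntegral.integral_add i0 i1,
      intervalIntegral.integral_const_mul, hsh] at h1
    refine le_of_eq_of_le ?_ h1
    unfold avL
    simp only [sub_zero, smul_eq_mul]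
    ring
  generalize (∫ t in (0 : ℝ)..π, Real.log (gm C S C1 S1 t).det) = Γ at hz hint ⊢
  have hl : Tendsto (fun σ => avL C S σ - π * (m * Real.log (sin σ)) - Γ) (𝓝[>] 0) (𝓝 0) := by
    have h1 := (hz.sub ((log_sin_sub_log.const_mul (m : ℝ)).const_mul π)).sub_const Γ
    rw [mul_zero, mul_zero, sub_zero, sub_self] at h1
    refine h1.congr fun σ => ?_
    ring
  have hr : Tendsto (fun σ => avL C S σ - π * (m * Real.log (sin σ)) - Γ) (𝓝[<] π) (𝓝 0) := by
    have h1 : Tendsto (fun σ => π - σ) (𝓝[<] π) (𝓝[>] 0) := by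
      refine tendsto_nhdsWithin_iff.2 ⟨?_, ?_⟩
      · have h2 : Continuous fun σ : ℝ => π - σ := continuous_const.sub continuous_id
        have h3 := h2.tendsto π
        rw [sub_self] at h3
        exact h3.mono_left nhdsWithin_le_nhds
      · filter_upwards [self_mem_nhdsWithin] with σ hσ
        exact sub_pos.2 (mem_Iio.1 hσ)
    refine (hl.comp h1).congr fun σ => ?_
    simp only [Function.comp, bk_symm h, sin_pi_sub]
  have key := max_principle (w := fun σ => avL C S σ - π * (m * Real.log (sin σ)) - Γ)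
    (w1 := fun σ => I1 σ - π * (m * (cos σ / sin σ)))
    (w2 := fun σ => (-∫ t in (0 : ℝ)..π, mix C S C1 S1 σ t) -
      π * (m * ((-sin σ * sin σ - cos σ * cos σ) / sin σ ^ 2)))
    (c := fun σ => 2 * (1 / sin σ ^ 2)) (a := 0) (b := π)
    (fun σ hσ => ((hI σ hσ).1.sub ((((hasDerivAt_sin σ).log
      (sin_pos_of_mem_Ioo hσ).ne').const_mul (m : ℝ)).const_mul π)).sub_const Γ)
    (fun σ hσ => (hI σ hσ).2.sub ((((hasDerivAt_cos σ).div (hasDerivAt_sin σ)
      (sin_pos_of_mem_Ioo hσ).ne').const_mul (m : ℝ)).const_mul π))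
    (fun σ hσ => by
      have := sin_pos_of_mem_Ioo hσ
      positivity)
    (fun σ hσ => by
      have h1 := hint σ hσ
      have h2 : (-sin σ * sin σ - cos σ * cos σ) / sin σ ^ 2 = -(1 / sin σ ^ 2) := by
        rw [← sin_sq_add_cos_sq σ]
        ring
      rw [h2]
      linarith)
    (fun ε hε => (hl.eventually (lt_mem_nhds (neg_lt_zero.2 hε))).frequently)
    (fun ε hε => (hr.eventually (lt_mem_nhds (neg_lt_zero.2 hε))).frequently) τ hτ
  linarith

end Vale.Agent.P231
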