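import Vale.Agent.P231.M.Defs

/-!
# Entrywise matrix calculus  (TASK)

All by unfolding `MD`, `Matrix.mul_apply`, `HasDerivAt.fun_sum`, `HasDerivAt.mul`.
`MD.inv`, `MD.logdet`: `P227.hasDerivWithinAt_inv`, `P227.hasDerivWithinAt_det` with `S = univ` (`hasDerivWithinAt_univ`);
for `logdet` use `HasDerivAt.log` (only `det ≠ 0` is needed) and `Matrix.inv_def` as in `P227.hasDerivWithinAt_logdet`.
Continuity: the topology on matrices is the product topology (`continuous_pi`, `Continuous.matrix_mul`, `Continuous.matrix_det`,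
`continuousAt_matrix_inv`).  `MD.const_of`: entrywise `is_const_of_deriv_eq_zero`.
Prefix helper names by `calc_`.
-/

namespace Vale.Agent.P231

open Matrix Real Filter Topology

variable {m : ℕ} {A B : ℝ → Mat m} {A' B' : Mat m} {t : ℝ}

theorem MD.const (X : Mat m) (t : ℝ) : MD (fun _ => X) 0 t := fun i j => hasDerivAt_const t (X i j)

theorem MD.congr (h : MD A A' t) (e : A' = B') : MD A B' t := e ▸ h

theorem MD.congr_ev (h : MD A A' t) (e : B =ᶠ[𝓝 t] A) : MD B A' t := fun i j =>
  (h i j).congr_of_eventuallyEq (e.mono fun _ hs => by simp only [hs])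

theorem MD.unique (h : MD A A' t) (h' : MD A B' t) : A' = B' :=
  Matrix.ext fun i j => (h i j).unique (h' i j)

theorem MD.add (hA : MD A A' t) (hB : MD B B' t) : MD (fun s => A s + B s) (A' + B') t :=
  fun i j => (hA i j).fun_add (hB i j)

theorem MD.sub (hA : MD A A' t) (hB : MD B B' t) : MD (fun s => A s - B s) (A' - B') t :=
  fun i j => (hA i j).fun_sub (hB i j)

theorem MD.neg (hA : MD A A' t) : MD (fun s => -A s) (-A') t := fun i j => (hA i j).fun_neg

theorem MD.mul (hA : MD A A' t) (hB : MD B B' t) :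
    MD (fun s => A s * B s) (A' * B t + A t * B') t := fun i j => by
  simp only [Matrix.mul_apply, Matrix.add_apply, ← Finset.sum_add_distrib]
  exact HasDerivAt.fun_sum fun k _ => (hA i k).fun_mul (hB k j)

theorem MD.transpose (hA : MD A A' t) : MD (fun s => (A s)ᵀ) A'ᵀ t := fun i j => hA j i

theorem MD.smul {c : ℝ → ℝ} {c' : ℝ} (hc : HasDerivAt c c' t) (hA : MD A A' t) :
    MD (fun s => c s • A s) (c' • A t + c t • A') t := fun i j => hc.fun_mul (hA i j)

theorem MD.comp {φ : ℝ → ℝ} {φ' : ℝ} (hA : MD A A' (φ t)) (hφ : HasDerivAt φ φ' t) :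
    MD (fun s => A (φ s)) (φ' • A') t := fun i j =>
  ((hA i j).comp t hφ).congr_deriv (mul_comm _ _)

theorem MD.om {C S C' S' : ℝ → Mat m} {c s c' s' : Mat m} (h1 : MD C c t) (h2 : MD S s t)
    (h3 : MD C' c' t) (h4 : MD S' s' t) : MD (fun r => om (C r) (S r) (C' r) (S' r))
      (om c s (C' t) (S' t) + om (C t) (S t) c' s') t :=
  ((h2.mul h3.transpose).sub (h1.mul h4.transpose)).congr (by
    simp only [P231.om]
    abel)

theorem MD.continuousAt (hA : MD A A' t) : ContinuousAt A t :=
  continuousAt_pi.2 fun i => continuousAt_pi.2 fun j => (hA i j).continuousAt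

theorem MD.inv (hA : MD A A' t) (hd : (A t).det ≠ 0) :
    MD (fun s => (A s)⁻¹) (-((A t)⁻¹ * A' * (A t)⁻¹)) t := fun i j =>
  hasDerivWithinAt_univ.1
    (P227.hasDerivWithinAt_inv (S := Set.univ) (fun i j => (hA i j).hasDerivWithinAt) hd i j)

theorem MD.logdet (hA : MD A A' t) (hd : (A t).det ≠ 0) :
    HasDerivAt (fun s => Real.log (A s).det) (((A t)⁻¹ * A').trace) t := by
  have h1 := (hasDerivWithinAt_univ.1 (P227.hasDerivWithinAt_det (S := Set.univ)
    fun i j => (hA i j).hasDerivWithinAt)).log hd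
  rwa [inv_def, Ring.inverse_eq_inv', Matrix.smul_mul, trace_smul, smul_eq_mul, mul_comm,
    ← div_eq_mul_inv]

theorem MD.trace (hA : MD A A' t) : HasDerivAt (fun s => (A s).trace) A'.trace t :=
  HasDerivAt.fun_sum fun i _ => hA i i

theorem MD.mulVec {y : ℝ → Fin m → ℝ} {y' : Fin m → ℝ} (hA : MD A A' t) (hy : VD y y' t) :
    VD (fun s => A s *ᵥ y s) (A' *ᵥ y t + A t *ᵥ y') t := fun i => by
  simp only [Matrix.mulVec, dotProduct, Pi.add_apply, ← Finset.sum_add_distrib]
  exact HasDerivAt.fun_sum fun k _ => (hA i k).fun_mul (hy k)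

theorem VD.const (x : Fin m → ℝ) (t : ℝ) : VD (fun _ => x) 0 t := fun i => hasDerivAt_const t (x i)

theorem VD.dot {x y : ℝ → Fin m → ℝ} {x' y' : Fin m → ℝ} (hx : VD x x' t) (hy : VD y y' t) :
    HasDerivAt (fun s => x s ⬝ᵥ y s) (x' ⬝ᵥ y t + x t ⬝ᵥ y') t := by
  simp only [dotProduct, ← Finset.sum_add_distrib]
  exact HasDerivAt.fun_sum fun k _ => (hx k).fun_mul (hy k)

theorem MD.const_of (h : ∀ t, MD A 0 t) (s t : ℝ) : A s = A t :=
  Matrix.ext fun i j => is_const_of_deriv_eq_zero (f := fun r => A r i j)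
    (fun r => (h r i j).differentiableAt) (fun r => (h r i j).deriv) s t

theorem VD.const_of {y : ℝ → Fin m → ℝ} (h : ∀ t, VD y 0 t) (s t : ℝ) : y s = y t :=
  funext fun i => is_const_of_deriv_eq_zero (f := fun r => y r i)
    (fun r => (h r i).differentiableAt) (fun r => (h r i).deriv) s t

theorem continuousAt_inv_mat {X : Type*} [TopologicalSpace X] {F : X → Mat m} {x : X}
    (hF : ContinuousAt F x) (hd : (F x).det ≠ 0) : ContinuousAt (fun y => (F y)⁻¹) x :=
  (continuousAt_matrix_inv (F x) (by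
    rw [Ring.inverse_eq_inv']; exact continuousAt_inv₀ hd)).comp hF

theorem continuousAt_logdet {X : Type*} [TopologicalSpace X] {F : X → Mat m} {x : X}
    (hF : ContinuousAt F x) (hd : (F x).det ≠ 0) :
    ContinuousAt (fun y => Real.log (F y).det) x :=
  (continuous_id.matrix_det.continuousAt.comp hF).log hd

theorem continuous_om {X : Type*} [TopologicalSpace X] {C S C' S' : X → Mat m}
    (h1 : Continuous C) (h2 : Continuous S) (h3 : Continuous C') (h4 : Continuous S') :
    Continuous fun x => om (C x) (S x) (C' x) (S' x) :=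
  (h2.matrix_mul h3.matrix_transpose).sub (h1.matrix_mul h4.matrix_transpose)

theorem om_transpose (C S C' S' : Mat m) : (om C S C' S')ᵀ = -om C' S' C S := by
  simp only [om, transpose_sub, transpose_mul, transpose_transpose, neg_sub]

theorem om_mul (W W' C S C' S' : Mat m) :
    om (W * C) (W * S) (W' * C') (W' * S') = W * om C S C' S' * W'ᵀ := by
  simp only [om, transpose_mul, Matrix.mul_sub, Matrix.sub_mul, Matrix.mul_assoc]

theorem det_sq_of_orth {W : Mat m} (h : W * Wᵀ = 1) : |W.det| = 1 := by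
  have h1 := congrArg Matrix.det h
  rw [det_mul, det_transpose, det_one] at h1
  rcases mul_self_eq_one_iff.1 h1 with h2 | h2 <;> simp [h2]

end Vale.Agent.P231
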