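import Vale.Agent.P231.M.ClaimA

/-!
# The moving projector and the two averaged estimates  (TASK)

`exists_mp`: `exists_J`, `Q t = mv (J t) Q0` (`Adm.isPr`, continuity from `exists_mv_deriv`, `mv_smul` for `Q 0`).  `img`: `Q S Q0 = S Q0` by `eq`, `mv_mul`;
`(1 - Q0)`-part: for `sin 2t ≠ 0`, `Q(t) = S(t) Q0 X` with `X = (sin 2t)⁻¹ • N⁻¹ Jᵀ`.  `claimB`: `Loop.bk` for the reduced loop (`red_loop`, `red_tv`; `Loop.tv` for invertibility),
`red_pr`, `red_det` with `c = sin τ` pointwise, integrate; `∫ log det ĝ(t - τ) = ∫ log det ĝ(t)` (`perg`, `per_shift`); integrability from continuity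
(`Loop.continuous_log`, `continuousAt_logdet`, `cmp_posDef`).
`MP.edge`: `H τ = ∫ t in 0..π, tr (Q t * sig t (t - τ))` has derivative `-h τ`, `h τ = ∫ tr (Q t * G)`, `G = A⁻¹ᵀ A⁻¹` (`par_deriv`, `sig_deriv`, `MD.comp`);
`tr (Q Σ) = ∑ i, x_i ⬝ Σ x_i` with `x_i` the columns of `Q` (`Q = Qᵀ Q`), `∑ |x_i|² = k`; `Sys.ric` with `ρ` from `exists_bound 0 (2π)` gives
`H (π/2 - ε) ≥ -π k (1/ε + ρ ε)`; `blow_freq` with `K = π k`.  This file holds one portion of the plan above.  Prefix helper names by `claim_hb_`.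
-/

namespace Vale.Agent.P231

open Matrix Real Filter Topology Set

variable {m k : ℕ} {R C S C1 S1 Q : ℝ → Mat m} {P : Mat m}

theorem claim_hb_tr {Q X : Mat m} (hQ : IsPr Q k) {c : ℝ}
    (hX : ∀ x : Fin m → ℝ, -(c * (x ⬝ᵥ x)) ≤ x ⬝ᵥ X *ᵥ x) : -(c * k) ≤ (Q * X).trace := by
  have key : ∀ Y : Mat m, (Q * Y).trace = ∑ i, (fun j => Q j i) ⬝ᵥ Y *ᵥ fun j => Q j i := by
    intro Y
    have : (Q * Y).trace = (Qᵀ * (Y * Q)).trace := by
      rw [hQ.symm, ← Matrix.mul_assoc, trace_mul_cycle, hQ.idem]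
    rw [this]
    simp only [trace, diag, mul_apply, transpose_apply, dotProduct, mulVec]
  have h1 := key 1
  rw [Matrix.mul_one, hQ.tr] at h1
  rw [key X, h1, Finset.mul_sum, ← Finset.sum_neg_distrib]
  refine Finset.sum_le_sum fun i _ => ?_
  rw [one_mulVec]
  exact hX _

theorem MP.edge (hQ : MP C S Q k) (h : Sys R C S C1 S1) (hT : Tv C S (π / 2)) {δ : ℝ}
    (hδ : 0 < δ) : ∃ᶠ τ in 𝓝[<] (π / 2), cos τ ^ 2 * ∫ t in (0 : ℝ)..π,
      (Q t * (((pr C S t (t - τ))⁻¹)ᵀ * (pr C S t (t - τ))⁻¹)).trace < π * k + δ := by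
  obtain ⟨ρ, hρ, hR⟩ := h.exists_bound 0 (2 * π)
  have n1 : ∀ x ∈ Ioo 0 (π / 2), ∀ t, (pr C S t (t - x)).det ≠ 0 := fun x hx t =>
    hT t (t - x) (by linarith [hx.1]) (by linarith [hx.2])
  have c1 : Continuous fun p : ℝ × ℝ => (p.2, p.2 - p.1) := by fun_prop
  have cQ : Continuous fun p : ℝ × ℝ => Q p.2 := hQ.cont.comp continuous_snd
  have htr : Continuous fun X : Mat m => X.trace := continuous_id.matrix_trace
  have cC : Continuous C := continuous_iff_continuousAt.2 fun t => (h.dC t).continuousAt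
  have cS : Continuous S := continuous_iff_continuousAt.2 fun t => (h.dS t).continuousAt
  have cpr : Continuous fun p : ℝ × ℝ => pr C S p.2 (p.2 - p.1) :=
    continuous_om (cC.comp continuous_snd) (cS.comp continuous_snd) (cC.comp (by fun_prop))
      (cS.comp (by fun_prop))
  have cf : ∀ p : ℝ × ℝ, p.1 ∈ Ioo 0 (π / 2) →
      ContinuousAt (fun p : ℝ × ℝ => (Q p.2 * sig C S C1 S1 p.2 (p.2 - p.1)).trace) p :=
    fun p hp => htr.continuousAt.comp (cQ.continuousAt.mul
      (ContinuousAt.comp (f := fun p : ℝ × ℝ => (p.2, p.2 - p.1))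
        (h.continuousAt_sig (n1 p.1 hp p.2)) c1.continuousAt))
  refine blow_freq (H := fun τ => ∫ t in (0 : ℝ)..π, (Q t * sig C S C1 S1 t (t - τ)).trace)
    (h := fun τ => ∫ t in (0 : ℝ)..π,
      (Q t * (((pr C S t (t - τ))⁻¹)ᵀ * (pr C S t (t - τ))⁻¹)).trace) (ρ := ρ)
    (fun τ hτ => ?_) (fun ε hε => ?_) hδ (by positivity)
  · rw [← intervalIntegral.integral_neg]
    refine par_deriv (f := fun x t => (Q t * sig C S C1 S1 t (t - x)).trace)
      (f' := fun x t => -(Q t * (((pr C S t (t - x))⁻¹)ᵀ * (pr C S t (t - x))⁻¹)).trace) hτ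
      (fun p hp => (cf p hp.1).continuousWithinAt) (fun p hp => ?_) (fun x hx t => ?_)
    · have hi := continuousAt_inv_mat cpr.continuousAt (n1 p.1 hp.1 p.2)
      have hit : ContinuousAt (fun q : ℝ × ℝ => ((pr C S q.2 (q.2 - q.1))⁻¹)ᵀ) p :=
        (continuous_id.matrix_transpose (A := fun X : Mat m => X)).continuousAt.comp hi
      exact (htr.continuousAt.comp (cQ.continuousAt.mul (hit.mul hi))).neg.continuousWithinAt
    · have h1 := (((MD.const (Q t) (t - x)).mul (h.sig_deriv (n1 x hx t))).trace).comp_const_sub t x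
      simpa using h1
  · have hτ : π / 2 - ε ∈ Ioo 0 (π / 2) := ⟨by linarith [hε.2], by linarith [hε.1]⟩
    have hc : Continuous fun t => (Q t * sig C S C1 S1 t (t - (π / 2 - ε))).trace :=
      continuous_iff_continuousAt.2 fun t => ContinuousAt.comp
        (f := fun t : ℝ => (π / 2 - ε, t)) (cf (π / 2 - ε, t) hτ) (by fun_prop)
    have hb := intervalIntegral.integral_mono_on (μ := MeasureTheory.volume) pi_pos.le
      (intervalIntegrable_const (c := -((1 / ε + ρ * ε) * k))) (hc.intervalIntegrable 0 π)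
      (fun t ht => claim_hb_tr (hQ.isPr t) (h.ric hε.1 hρ
        (fun r hr => hT r _ (by linarith [hr.1, hτ.1]) (by linarith [hr.2]))
        (fun r hr => hR r ⟨by linarith [hr.1, ht.1], by linarith [hr.2, ht.2, hε.2, pi_pos]⟩)))
    simp only [intervalIntegral.integral_const, sub_zero, smul_eq_mul] at hb
    linarith

end Vale.Agent.P231
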