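import Vale.Agent.P231.M.Red
import Vale.Agent.P231.M.BK

/-!
# The moving projector and the two averaged estimates  (TASK)

`exists_mp`: `exists_J`, `Q t = mv (J t) Q0` (`Adm.isPr`, continuity from `exists_mv_deriv`, `mv_smul` for `Q 0`).  `img`: `Q S Q0 = S Q0` by `eq`, `mv_mul`;
`(1 - Q0)`-part: for `sin 2t ≠ 0`, `Q(t) = S(t) Q0 X` with `X = (sin 2t)⁻¹ • N⁻¹ Jᵀ`.  `claimB`: `Loop.bk` for the reduced loop (`red_loop`, `red_tv`; `Loop.tv` for invertibility),
`red_pr`, `red_det` with `c = sin τ` pointwise, integrate; `∫ log det ĝ(t - τ) = ∫ log det ĝ(t)` (`perg`, `per_shift`); integrability from continuity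
(`Loop.continuous_log`, `continuousAt_logdet`, `cmp_posDef`).
`MP.edge`: `H τ = ∫ t in 0..π, tr (Q t * sig t (t - τ))` has derivative `-h τ`, `h τ = ∫ tr (Q t * G)`, `G = A⁻¹ᵀ A⁻¹` (`par_deriv`, `sig_deriv`, `MD.comp`);
`tr (Q Σ) = ∑ i, x_i ⬝ Σ x_i` with `x_i` the columns of `Q` (`Q = Qᵀ Q`), `∑ |x_i|² = k`; `Sys.ric` with `ρ` from `exists_bound 0 (2π)` gives
`H (π/2 - ε) ≥ -π k (1/ε + ρ ε)`; `blow_freq` with `K = π k`.  This file holds one portion of the plan above.  Prefix helper names by `claim_ha_`.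
-/

namespace Vale.Agent.P231

open Matrix Real Filter Topology Set

variable {m k : ℕ} {R C S C1 S1 Q : ℝ → Mat m} {P : Mat m}

/-- The projector onto the values of the Jacobi fields vanishing at `0` and `π / 2`. -/
structure MP (C S Q : ℝ → Mat m) (k : ℕ) : Prop where
  isPr : ∀ t, IsPr (Q t) k
  cont : Continuous Q
  img : ∀ t, Q t * S t * Q 0 = S t * Q 0
  onto : ∀ t, sin (2 * t) ≠ 0 → ∃ X, Q t = S t * Q 0 * X
  claimB : ∀ τ ∈ Ioo 0 (π / 2), π * (2 * ((m - k) * Real.log (sin τ))) ≤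
    ∫ t in (0 : ℝ)..π, Real.log (cmp (Q t) (pr C S t (t - τ) * (pr C S t (t - τ))ᵀ)).det

theorem claim_ha_pos {A : Mat m} (hA : A.det ≠ 0) : (A * Aᵀ).PosDef := by
  have h := PosDef.mul_conjTranspose_self A
    (vecMul_injective_iff_isUnit.2 ((isUnit_iff_isUnit_det A).2 (isUnit_iff_ne_zero.2 hA)))
  rwa [conjTranspose_eq_transpose_of_trivial] at h

theorem claim_ha_int {f g g' u : ℝ → ℝ} {c : ℝ} (hf : Continuous f) (hg : Continuous g)
    (hg' : Continuous g') (hu : Continuous u) (h : ∀ t, 2 * f t - g t - g' t ≤ c + u t) :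
    2 * (∫ t in (0 : ℝ)..π, f t) - (∫ t in (0 : ℝ)..π, g t) - (∫ t in (0 : ℝ)..π, g' t) ≤
      π * c + ∫ t in (0 : ℝ)..π, u t := by
  have c1 : Continuous fun t => 2 * f t := continuous_const.mul hf
  have c2 : Continuous fun t => 2 * f t - g t := c1.sub hg
  have c3 : Continuous fun t => 2 * f t - g t - g' t := c2.sub hg'
  have c4 : Continuous fun t => c + u t := continuous_const.add hu
  have im := intervalIntegral.integral_mono_on (μ := MeasureTheory.volume) pi_pos.le
    (c3.intervalIntegrable 0 π) (c4.intervalIntegrable 0 π) (fun t _ => h t)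
  rwa [intervalIntegral.integral_sub (c2.intervalIntegrable 0 π) (hg'.intervalIntegrable 0 π),
    intervalIntegral.integral_sub (c1.intervalIntegrable 0 π) (hg.intervalIntegrable 0 π),
    intervalIntegral.integral_add (continuous_const.intervalIntegrable 0 π)
      (hu.intervalIntegrable 0 π),
    intervalIntegral.integral_const_mul, intervalIntegral.integral_const, sub_zero,
    smul_eq_mul] at im

theorem claim_ha_B {J J1 : ℝ → Mat m} {Q0 : Mat m} (h : Sys R C S C1 S1) (hP : SPer C S P)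
    (hT : Tv C S (π / 2)) (hK : KD S J J1 P Q0 k) (hc : Continuous fun t => mv (J t) Q0)
    {τ : ℝ} (hτ : τ ∈ Ioo 0 (π / 2)) : π * (2 * ((m - k) * Real.log (sin τ))) ≤
      ∫ t in (0 : ℝ)..π,
        Real.log (cmp (mv (J t) Q0) (pr C S t (t - τ) * (pr C S t (t - τ))ᵀ)).det := by
  obtain ⟨D1, T1, L, hg⟩ := red_loop h hP hK
  have h0 := red_tv h hP hT hK
  have hτ' : τ ∈ Ioo 0 π := ⟨hτ.1, by linarith [hτ.2, pi_pos]⟩
  have hs : 0 < sin τ := sin_pos_of_pos_of_lt_pi hτ'.1 hτ'.2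
  have bk := L.bk h0 hτ'
  have tv := L.tv h0
  have hA : ∀ t, (pr C S t (t - τ)).det ≠ 0 := fun t =>
    hT t (t - τ) (by linarith [hτ.1]) (by linarith [hτ.2])
  have c1 := L.continuous_log tv hτ'
  have c2 : Continuous fun t => Real.log (gm (redC C J Q0) (redS S J Q0) D1 T1 t).det :=
    continuous_iff_continuousAt.2 fun t =>
      continuousAt_logdet L.continuous_gm.continuousAt (L.pos t).det_pos.ne'
  have c3 : Continuous fun t => Real.log (gm (redC C J Q0) (redS S J Q0) D1 T1 (t + -τ)).det :=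
    c2.comp (continuous_id.add continuous_const)
  have cA : Continuous fun t => pr C S t (t - τ) :=
    (h.loop hP).continuous_pr.comp (continuous_id.prodMk (continuous_id.sub continuous_const))
  have cc : Continuous fun t => cmp (mv (J t) Q0) (pr C S t (t - τ) * (pr C S t (t - τ))ᵀ) :=
    hc.add (((continuous_const.sub hc).matrix_mul (cA.matrix_mul cA.matrix_transpose)).matrix_mul
      (continuous_const.sub hc))
  have c4 : Continuous fun t =>
      Real.log (cmp (mv (J t) Q0) (pr C S t (t - τ) * (pr C S t (t - τ))ᵀ)).det :=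
    continuous_iff_continuousAt.2 fun t => continuousAt_logdet cc.continuousAt
      (cmp_posDef ((hK.adm t).isPr hK.pr0) (claim_ha_pos (hA t))).det_pos.ne'
  have pt : ∀ t, 2 * Real.log (pr (redC C J Q0) (redS S J Q0) t (t - τ)).det -
      Real.log (gm (redC C J Q0) (redS S J Q0) D1 T1 t).det -
      Real.log (gm (redC C J Q0) (redS S J Q0) D1 T1 (t + -τ)).det ≤ 2 * (k * Real.log (sin τ)) +
      Real.log (cmp (mv (J t) Q0) (pr C S t (t - τ) * (pr C S t (t - τ))ᵀ)).det := fun t => by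
    have hd := tv t (t - τ) (by linarith [hτ.1]) (by linarith [hτ'.2])
    rw [red_pr hK, sub_sub_cancel] at hd
    rw [red_pr hK, sub_sub_cancel, hg, hg, ← sub_eq_add_neg]
    exact red_det (hK.adm t) (hK.adm (t - τ)) hK.pr0 (hA t) hs.ne' hd
  have sh := per_shift (f := fun t => Real.log (gm (redC C J Q0) (redS S J Q0) D1 T1 t).det)
    (fun t => by rw [L.perg]) (-τ)
  have im := claim_ha_int c1 c2 c3 c4 pt
  rw [sh] at im
  rw [avL] at bk
  linarith

theorem exists_mp (h : Sys R C S C1 S1) (hP : SPer C S P) (hT : Tv C S (π / 2)) :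
    ∃ Q, MP C S Q (nul (S (π / 2))) := by
  obtain ⟨J, J1, Q0, hK⟩ := exists_J h hP hT
  obtain ⟨Q1, hd, -⟩ := exists_mv_deriv hK.pr0 hK.adm hK.dJ hK.cJ1
  have hc : Continuous fun t => mv (J t) Q0 :=
    continuous_iff_continuousAt.2 fun t => (hd t).continuousAt
  have h0 : mv (J 0) Q0 = Q0 := by
    rw [hK.zero]
    exact mv_smul hK.pr0 (by norm_num)
  refine ⟨fun t => mv (J t) Q0, fun t => (hK.adm t).isPr hK.pr0, hc, fun t => ?_, fun t ht => ?_,
    fun τ hτ => claim_ha_B h hP hT hK hc hτ⟩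
  · rw [h0, Matrix.mul_assoc, hK.eq, Matrix.mul_smul, (hK.adm t).mv_mul hK.pr0]
  · refine ⟨(sin (2 * t))⁻¹ • (((J t)ᵀ * J t + (1 - Q0))⁻¹ * (J t)ᵀ), ?_⟩
    rw [h0, hK.eq, Matrix.smul_mul, Matrix.mul_smul, smul_smul, mul_inv_cancel₀ ht, one_smul,
      ← Matrix.mul_assoc]
    rfl

end Vale.Agent.P231
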