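import Vale.Agent.P227.MatDiff

/-!
Matrix curves: entrywise derivatives, the symplectic pairing of two frames, positive loops of
Lagrangian frames and Jacobi systems.  (No task here.)
-/

namespace Vale.Agent.P231

open Matrix Real

/-- Real square matrices. -/
abbrev Mat (m : ℕ) : Type := Matrix (Fin m) (Fin m) ℝ

variable {m : ℕ}

/-- Entrywise derivative of a matrix curve. -/
def MD (A : ℝ → Mat m) (A' : Mat m) (t : ℝ) : Prop :=
  ∀ i j, HasDerivAt (fun s => A s i j) (A' i j) t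

/-- Entrywise derivative of a vector curve. -/
def VD (y : ℝ → Fin m → ℝ) (y' : Fin m → ℝ) (t : ℝ) : Prop :=
  ∀ i, HasDerivAt (fun s => y s i) (y' i) t

/-- The symplectic pairing of the frames `(C, S)` and `(C', S')`. -/
def om (C S C' S' : Mat m) : Mat m := S * C'ᵀ - C * S'ᵀ

/-- The propagator `A(t, s)`. -/
def pr (C S : ℝ → Mat m) (t s : ℝ) : Mat m := om (C t) (S t) (C s) (S s)

/-- The metric `g(t)` of a path of frames. -/
def gm (C S C1 S1 : ℝ → Mat m) (t : ℝ) : Mat m := om (C1 t) (S1 t) (C t) (S t)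

/-- A positive `C¹` loop (period `π`) of Lagrangian frames. -/
structure Loop (C S C1 S1 : ℝ → Mat m) : Prop where
  dC : ∀ t, MD C (C1 t) t
  dS : ∀ t, MD S (S1 t) t
  cC1 : Continuous C1
  cS1 : Continuous S1
  lag : ∀ t, pr C S t t = 0
  pos : ∀ t, (gm C S C1 S1 t).PosDef
  per : ∀ t, ∃ W : Mat m, W * Wᵀ = 1 ∧ C (t + π) = W * C t ∧ S (t + π) = W * S t
  perg : ∀ t, (gm C S C1 S1 (t + π)).det = (gm C S C1 S1 t).det

/-- The fundamental solutions of the Jacobi equation `y'' + R y = 0`. -/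
structure Sys (R C S C1 S1 : ℝ → Mat m) : Prop where
  cR : Continuous R
  symm : ∀ t, (R t)ᵀ = R t
  dC : ∀ t, MD C (C1 t) t
  dS : ∀ t, MD S (S1 t) t
  dC1 : ∀ t, MD C1 (-(R t * C t)) t
  dS1 : ∀ t, MD S1 (-(R t * S t)) t
  C0 : C 0 = 1
  S0 : S 0 = 0
  C10 : C1 0 = 0
  S10 : S1 0 = 1

/-- All solutions are periodic up to the holonomy `P`. -/
def SPer (C S : ℝ → Mat m) (P : Mat m) : Prop :=
  P * Pᵀ = 1 ∧ ∀ t, C (t + π) = P * C t ∧ S (t + π) = P * S t

/-- No conjugate pair at distance less than `T`. -/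
def Tv (C S : ℝ → Mat m) (T : ℝ) : Prop := ∀ t s, s < t → t < s + T → (pr C S t s).det ≠ 0

/-- An orthogonal projector of rank `k`. -/
structure IsPr (Q : Mat m) (k : ℕ) : Prop where
  symm : Qᵀ = Q
  idem : Q * Q = Q
  tr : Q.trace = k

/-- The integral over a period of `log |det A(t, t - τ)|`. -/
noncomputable def avL (C S : ℝ → Mat m) (τ : ℝ) : ℝ :=
  ∫ t in (0 : ℝ)..π, Real.log (pr C S t (t - τ)).det

/-- The matrix `Q + (1 - Q) X (1 - Q)`. -/
def cmp (Q X : Mat m) : Mat m := Q + (1 - Q) * X * (1 - Q)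

/-- The nullity of a matrix. -/
noncomputable def nul (B : Mat m) : ℕ := Module.finrank ℝ (LinearMap.ker B.mulVecLin)

end Vale.Agent.P231
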