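import Vale.Agent.P231.M.IdentA

/-!
# The completeness relation and transversality of positive loops  (TASK)

`om_complete`.  Two Lagrangian frames `F = (C, S)`, `F' = (C', S')` with `A = om F F'` invertible.  Let `Ψ = fromBlocks C S C' S'`,
`Ω = fromBlocks 0 (-1) 1 0`; then `Ψ Ω Ψᵀ = fromBlocks 0 A (-Aᵀ) 0 =: N` (`fromBlocks_multiply`, `om_transpose`), whose inverse is
`N' = fromBlocks 0 (-A⁻¹ᵀ) A⁻¹ 0`.  So `Ψ` is invertible and `Ω = Ω Ψᵀ N' Ψ Ω` (from `N' Ψ Ω Ψᵀ = 1` get `Ω Ψᵀ N' Ψ = 1` by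
`Matrix.mul_eq_one_comm`).  Read the four blocks of this identity (they are relations such as `0 = Sᵀ A⁻¹ᵀ S' - S'ᵀ A⁻¹ S` ...), multiply by the
blocks of `X`, `Y` and add; or work with `fromCols X1 X2 * Ω * (fromCols Y1 Y2)ᵀ = om X Y`.

`lag_perp`: a pair `(a, b)` (a vector of the symplectic space) that is `ω`-orthogonal to the frame `F` and another such pair are
`ω`-orthogonal: apply `om_complete` (to matrices with constant rows, `Matrix.of fun _ j => a j`, or redo the argument with vectors).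

`Loop.abs_det_*`: `per`, `om_mul`, `det_sq_of_orth`, `om_transpose`, `det_neg`; `Loop.tv`: reduce `s` to `[0, π)` with `abs_det_shift`
(`toIcoMod`, induction on integers); for `s = 0` use `h0`; if `t ≥ π` use `|det A(t,s)| = |det A(t-π,s)| = |det A(s,t-π)|` with
`0 ≤ t - π < s < π`.  Core case `0 < s < t < π`: if `det A(t,s) = 0` pick `y ≠ 0` with `A(t,s) y = 0` (`exists_mulVec_eq_zero_iff`), put
`(a, b) = (C(s)ᵀ y, S(s)ᵀ y)`, `f(r) = S(r) a - C(r) b = A(r,s) y`, so `f(s) = 0 = f(t)`.  For `r ∈ [s, t]` put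
`z(r) = A(0,r)⁻¹ (S(0) a - C(0) b)` and `h(r) = z(r) ⬝ f(r)`; `h(s) = h(t) = 0`.  The pair `u(r) = (C(r)ᵀ z(r), S(r)ᵀ z(r))` has
`S(0) u₁ - C(0) u₂ = S(0) a - C(0) b` constant, so `u'` and `u - (a, b)` are orthogonal to `F(0)`, hence to each other (`lag_perp` with
`F(0)`, `F(r)`), and `h = u₂ ⬝ a - u₁ ⬝ b`, `h' = u₂' ⬝ a - u₁' ⬝ b = u₂' ⬝ u₁ - u₁' ⬝ u₂ = z ⬝ g(r) z > 0` (use `lag r`; `z(r) ≠ 0` since otherwise
`A(0,s) y = 0`).  Rolle (`exists_hasDerivAt_eq_zero`) gives the contradiction.  This file holds one portion of the plan above.  Prefix helper names by `ident_b_`.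
-/

namespace Vale.Agent.P231

open Matrix Real Filter Topology

variable {m : ℕ}

variable {C S C1 S1 : ℝ → Mat m}

theorem abs_det_swap (C S : ℝ → Mat m) (t s : ℝ) : |(pr C S t s).det| = |(pr C S s t).det| := by
  have : pr C S s t = -(pr C S t s)ᵀ := by
    rw [pr, pr, om_transpose, neg_neg]
  rw [this, Matrix.det_neg, Matrix.det_transpose, abs_mul, abs_pow, abs_neg, abs_one, one_pow,
    one_mul]

theorem Loop.abs_det_left (h : Loop C S C1 S1) (t s : ℝ) :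
    |(pr C S (t + π) s).det| = |(pr C S t s).det| := by
  obtain ⟨W, hW, hC, hS⟩ := h.per t
  have : pr C S (t + π) s = W * pr C S t s := by
    simp only [pr, om, hC, hS, Matrix.mul_sub, Matrix.mul_assoc]
  rw [this, Matrix.det_mul, abs_mul, det_sq_of_orth hW, one_mul]

theorem Loop.abs_det_shift (h : Loop C S C1 S1) (t s : ℝ) :
    |(pr C S (t + π) (s + π)).det| = |(pr C S t s).det| := by
  rw [h.abs_det_left, abs_det_swap, h.abs_det_left, abs_det_swap]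

theorem ident_b_int (h : Loop C S C1 S1) (n : ℤ) (t s : ℝ) :
    |(pr C S (t + n * π) (s + n * π)).det| = |(pr C S t s).det| := by
  induction n using Int.induction_on with
  | zero => simp
  | succ n ih =>
    rw [← ih, ← h.abs_det_shift (t + (n : ℤ) * π)]
    congr 3 <;> push_cast <;> ring
  | pred n ih =>
    rw [← ih, ← h.abs_det_shift (t + ((-(n : ℤ) - 1 : ℤ) : ℝ) * π)]
    congr 3 <;> push_cast <;> ring

theorem ident_b_dot (X Y : Mat m) (p q : Fin m → ℝ) :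
    (Xᵀ *ᵥ p) ⬝ᵥ (Yᵀ *ᵥ q) = p ⬝ᵥ ((X * Yᵀ) *ᵥ q) := by
  rw [← Matrix.mulVec_mulVec, Matrix.dotProduct_mulVec p X, Matrix.mulVec_transpose]

theorem ident_b_der (h : Loop C S C1 S1) {r : ℝ} (hr : (pr C S 0 r).det ≠ 0)
    (a b : Fin m → ℝ) (hw : S 0 *ᵥ a - C 0 *ᵥ b ≠ 0) :
    ∃ d : ℝ, 0 < d ∧ HasDerivAt (fun x =>
      ((S x)ᵀ *ᵥ ((pr C S 0 x)⁻¹ *ᵥ (S 0 *ᵥ a - C 0 *ᵥ b))) ⬝ᵥ a -
      ((C x)ᵀ *ᵥ ((pr C S 0 x)⁻¹ *ᵥ (S 0 *ᵥ a - C 0 *ᵥ b))) ⬝ᵥ b) d r := by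
  set w := S 0 *ᵥ a - C 0 *ᵥ b with hwd
  set A' : Mat m := om (C 0) (S 0) (C1 r) (S1 r) with hA'
  have hA : MD (fun x => pr C S 0 x) A' r :=
    (MD.om (MD.const (C 0) r) (MD.const (S 0) r) (h.dC r) (h.dS r)).congr (by simp [om, hA'])
  have hz := (hA.inv hr).mulVec (VD.const w r)
  set z := (pr C S 0 r)⁻¹ *ᵥ w with hzd
  set z' := -((pr C S 0 r)⁻¹ * A' * (pr C S 0 r)⁻¹) *ᵥ w + (pr C S 0 r)⁻¹ *ᵥ 0 with hz'
  have hAB : pr C S 0 r * (pr C S 0 r)⁻¹ = 1 :=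
    Matrix.mul_nonsing_inv _ (isUnit_iff_ne_zero.2 hr)
  have hAz : pr C S 0 r *ᵥ z = w := by
    rw [hzd, Matrix.mulVec_mulVec, hAB, Matrix.one_mulVec]
  have hAz' : pr C S 0 r *ᵥ z' = -(A' *ᵥ z) := by
    rw [hz', Matrix.mulVec_zero, add_zero, Matrix.mulVec_mulVec, Matrix.mul_neg,
      ← Matrix.mul_assoc, ← Matrix.mul_assoc, hAB, Matrix.one_mul, Matrix.neg_mulVec, hzd,
      Matrix.mulVec_mulVec]
  have hz0 : z ≠ 0 := fun e => hw (by rw [← hAz, e, Matrix.mulVec_zero])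
  have hu1 := (h.dC r).transpose.mulVec hz
  have hu2 := (h.dS r).transpose.mulVec hz
  have hd := (hu2.dot (VD.const a r)).sub (hu1.dot (VD.const b r))
  refine ⟨z ⬝ᵥ (gm C S C1 S1 r *ᵥ z), by simpa using (h.pos r).dotProduct_mulVec_pos hz0,
    hd.congr_deriv ?_⟩
  have hp1 : S 0 *ᵥ ((C1 r)ᵀ *ᵥ z + (C r)ᵀ *ᵥ z') - C 0 *ᵥ ((S1 r)ᵀ *ᵥ z + (S r)ᵀ *ᵥ z') = 0 := by
    have : S 0 *ᵥ ((C1 r)ᵀ *ᵥ z + (C r)ᵀ *ᵥ z') - C 0 *ᵥ ((S1 r)ᵀ *ᵥ z + (S r)ᵀ *ᵥ z') =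
        A' *ᵥ z + pr C S 0 r *ᵥ z' := by
      simp only [hA', pr, om, Matrix.mulVec_add, Matrix.sub_mulVec, Matrix.mulVec_mulVec]; abel
    rw [this, hAz', add_neg_cancel]
  have hp2 : S 0 *ᵥ ((C r)ᵀ *ᵥ z - a) - C 0 *ᵥ ((S r)ᵀ *ᵥ z - b) = 0 := by
    have : S 0 *ᵥ ((C r)ᵀ *ᵥ z - a) - C 0 *ᵥ ((S r)ᵀ *ᵥ z - b) = pr C S 0 r *ᵥ z - w := by
      simp only [hwd, pr, om, Matrix.mulVec_sub, Matrix.sub_mulVec, Matrix.mulVec_mulVec]; abel
    rw [this, hAz, sub_self]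
  have hperp := lag_perp (h.lag 0) (h.lag r) hr hp1 hp2
  have hl : z' ⬝ᵥ ((S r * (C r)ᵀ) *ᵥ z) - z' ⬝ᵥ ((C r * (S r)ᵀ) *ᵥ z) = 0 := by
    have := h.lag r
    rw [pr, om] at this
    rw [← dotProduct_sub, ← Matrix.sub_mulVec, this, Matrix.zero_mulVec, dotProduct_zero]
  have hg : z ⬝ᵥ (gm C S C1 S1 r *ᵥ z) =
      z ⬝ᵥ ((S1 r * (C r)ᵀ) *ᵥ z) - z ⬝ᵥ ((C1 r * (S r)ᵀ) *ᵥ z) := by
    rw [gm, om, Matrix.sub_mulVec, dotProduct_sub]
  rw [dotProduct_sub, dotProduct_sub, add_dotProduct _ _ ((C r)ᵀ *ᵥ z),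
    add_dotProduct _ _ ((S r)ᵀ *ᵥ z), ident_b_dot, ident_b_dot, ident_b_dot, ident_b_dot] at hperp
  rw [hg, dotProduct_zero, dotProduct_zero]
  linarith

theorem ident_b_core (h : Loop C S C1 S1) (h0 : ∀ t, 0 < t → t < π → (pr C S t 0).det ≠ 0)
    {t s : ℝ} (hs : 0 < s) (hst : s < t) (ht : t < π) : (pr C S t s).det ≠ 0 := by
  intro hdet
  have h0' : ∀ r, 0 < r → r < π → (pr C S 0 r).det ≠ 0 := fun r h1 h2 e =>
    h0 r h1 h2 (abs_eq_zero.1 (by rw [abs_det_swap, e, abs_zero]))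
  obtain ⟨y, hy, hy0⟩ := Matrix.exists_mulVec_eq_zero_iff.2 hdet
  set a := (C s)ᵀ *ᵥ y with ha
  set b := (S s)ᵀ *ᵥ y with hb
  have hf : ∀ r, S r *ᵥ a - C r *ᵥ b = pr C S r s *ᵥ y := fun r => by
    simp only [ha, hb, pr, om, Matrix.sub_mulVec, Matrix.mulVec_mulVec]
  have hw : S 0 *ᵥ a - C 0 *ᵥ b ≠ 0 := by
    rw [hf]
    intro e
    exact h0' s hs (hst.trans ht) (Matrix.exists_mulVec_eq_zero_iff.1 ⟨y, hy, e⟩)
  set F : ℝ → ℝ := fun x =>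
      ((S x)ᵀ *ᵥ ((pr C S 0 x)⁻¹ *ᵥ (S 0 *ᵥ a - C 0 *ᵥ b))) ⬝ᵥ a -
      ((C x)ᵀ *ᵥ ((pr C S 0 x)⁻¹ *ᵥ (S 0 *ᵥ a - C 0 *ᵥ b))) ⬝ᵥ b with hF
  have hFz : ∀ x, pr C S x s *ᵥ y = 0 → F x = 0 := fun x e => by
    simp only [hF]
    rw [Matrix.mulVec_transpose, Matrix.mulVec_transpose, ← Matrix.dotProduct_mulVec,
      ← Matrix.dotProduct_mulVec, ← dotProduct_sub, hf x, e, dotProduct_zero]
  have hD : ∀ x ∈ Set.Icc s t, ∃ d : ℝ, 0 < d ∧ HasDerivAt F d x := fun x hx =>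
    ident_b_der h (h0' x (hs.trans_le hx.1) (hx.2.trans_lt ht)) a b hw
  have hc : ContinuousOn F (Set.Icc s t) := fun x hx =>
    (hD x hx).choose_spec.2.continuousAt.continuousWithinAt
  have hm : StrictMonoOn F (Set.Icc s t) := by
    refine strictMonoOn_of_deriv_pos (convex_Icc s t) hc fun x hx => ?_
    obtain ⟨d, hd, hd'⟩ := hD x (interior_subset hx)
    rw [hd'.deriv]; exact hd
  have := hm ⟨le_rfl, hst.le⟩ ⟨hst.le, le_rfl⟩ hst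
  rw [hFz s (by rw [h.lag s, Matrix.zero_mulVec]), hFz t hy0] at this
  exact lt_irrefl _ this

theorem Loop.tv (h : Loop C S C1 S1) (h0 : ∀ t, 0 < t → t < π → (pr C S t 0).det ≠ 0) :
    Tv C S π := by
  have base : ∀ t s, 0 ≤ s → s < t → t < π → (pr C S t s).det ≠ 0 := by
    intro t s hs hst ht
    rcases hs.eq_or_lt with e | hs
    · rw [← e] at hst ⊢; exact h0 t hst ht
    · exact ident_b_core h h0 hs hst ht
  have step : ∀ t s, 0 ≤ s → s < π → s < t → t < s + π → (pr C S t s).det ≠ 0 := by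
    intro t s hs hsp hst hts
    rcases lt_or_ge t π with ht | ht
    · exact base t s hs hst ht
    · intro e
      have e1 := h.abs_det_left (t - π) s
      rw [sub_add_cancel, e, abs_zero, abs_det_swap] at e1
      exact base s (t - π) (by linarith) (by linarith) hsp (abs_eq_zero.1 e1.symm)
  intro t s hst hts e
  have e1 := ident_b_int h (-⌊s / π⌋) t s
  rw [e, abs_zero, abs_eq_zero] at e1
  have f1 := Int.floor_le (s / π)
  have f2 := Int.lt_floor_add_one (s / π)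
  rw [le_div_iff₀ pi_pos] at f1
  rw [div_lt_iff₀ pi_pos] at f2
  refine step _ _ ?_ ?_ ?_ ?_ e1 <;> push_cast <;> linarith

end Vale.Agent.P231
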