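import Vale.Agent.P231.M.Calc

/-!
# The completeness relation and transversality of positive loops  (TASK)

`om_complete`.  Two Lagrangian frames `F = (C, S)`, `F' = (C', S')` with `A = om F F'` invertible.  Let `Ψ = fromBlocks C S C' S'`,
`Ω = fromBlocks 0 (-1) 1 0`; then `Ψ Ω Ψᵀ = fromBlocks 0 A (-Aᵀ) 0 =: N` (`fromBlocks_multiply`, `om_transpose`), whose inverse is
`N' = fromBlocks 0 (-A⁻¹ᵀ) A⁻¹ 0`.  So `Ψ` is invertible and `Ω = Ω Ψᵀ N' Ψ Ω` (from `N' Ψ Ω Ψᵀ = 1` get `Ω Ψᵀ N' Ψ = 1` by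
`Matrix.mul_eq_one_comm`).  Read the four blocks of this identity (they are relations such as `0 = Sᵀ A⁻¹ᵀ S' - S'ᵀ A⁻¹ S` ...), multiply by the
blocks of `X`, `Y` and add; or work with `fromCols X1 X2 * Ω * (fromCols Y1 Y2)ᵀ = om X Y`.

`lag_perp`: a pair `(a, b)` (a vector of the symplectic space) that is `ω`-orthogonal to the frame `F` and another such pair are
`ω`-orthogonal: apply `om_complete` (to matrices with constant rows, `Matrix.of fun _ j => a j`, or redo the argument with vectors).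

`Loop.abs_det_*`: `per`, `om_mul`, `det_sq_of_orth`, `om_transpose`, `det_neg`; `Loop.tv`: reduce `s` to `[0, π)` with `abs_det_shift`
(`toIcoMod`, induction on integers); for `s = 0` use `h0`; if `t ≥ π` use `|det A(t,s)| = |det A(t-π,s)| = |det A(s,t-π)|` with
`0 ≤ t - π < s < π`.  Core case `0 < s < t < π`: if `det A(t,s) = 0` pick `y ≠ 0` with `A(t,s) y = 0` (`exists_mulVec_eq_zero_iff`), put
`(a, b) = (C(s)ᵀ y, S(s)ᵀ y)`, `f(r) = S(r) a - C(r) b = A(r,s) y`, so `f(s) = 0 = f(t)`.  For `r ∈ [s, t]` put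
`z(r) = A(0,r)⁻¹ (S(0) a - C(0) b)` and `h(r) = z(r) ⬝ f(r)`; `h(s) = h(t) = 0`.  The pair `u(r) = (C(r)ᵀ z(r), S(r)ᵀ z(r))` has
`S(0) u₁ - C(0) u₂ = S(0) a - C(0) b` constant, so `u'` and `u - (a, b)` are orthogonal to `F(0)`, hence to each other (`lag_perp` with
`F(0)`, `F(r)`), and `h = u₂ ⬝ a - u₁ ⬝ b`, `h' = u₂' ⬝ a - u₁' ⬝ b = u₂' ⬝ u₁ - u₁' ⬝ u₂ = z ⬝ g(r) z > 0` (use `lag r`; `z(r) ≠ 0` since otherwise
`A(0,s) y = 0`).  Rolle (`exists_hasDerivAt_eq_zero`) gives the contradiction.  This file holds one portion of the plan above.  Prefix helper names by `ident_a_`.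
-/

namespace Vale.Agent.P231

open Matrix Real Filter Topology

variable {m : ℕ}

theorem ident_a_blocks {C S C' S' : Mat m} (h1 : om C S C S = 0) (h2 : om C' S' C' S' = 0)
    (hA : (om C S C' S').det ≠ 0) :
    Sᵀ * ((om C S C' S')⁻¹)ᵀ * C' - S'ᵀ * (om C S C' S')⁻¹ * C = 1 ∧
    Sᵀ * ((om C S C' S')⁻¹)ᵀ * S' - S'ᵀ * (om C S C' S')⁻¹ * S = 0 ∧
    C'ᵀ * (om C S C' S')⁻¹ * C - Cᵀ * ((om C S C' S')⁻¹)ᵀ * C' = 0 ∧
    C'ᵀ * (om C S C' S')⁻¹ * S - Cᵀ * ((om C S C' S')⁻¹)ᵀ * S' = 1 := by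
  set A := om C S C' S' with hAd
  set B := A⁻¹ with hB
  have hBA : B * A = 1 := Matrix.nonsing_inv_mul A (isUnit_iff_ne_zero.2 hA)
  have hAB : A * B = 1 := Matrix.mul_nonsing_inv A (isUnit_iff_ne_zero.2 hA)
  have hT : Bᵀ * Aᵀ = 1 := by rw [← Matrix.transpose_mul, hAB, Matrix.transpose_one]
  have hAt : S' * Cᵀ - C' * Sᵀ = -Aᵀ := by
    rw [hAd, om_transpose, neg_neg]; rfl
  have e1 : S * Cᵀ - C * Sᵀ = 0 := h1
  have e2 : S' * C'ᵀ - C' * S'ᵀ = 0 := h2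
  have e3 : S * C'ᵀ - C * S'ᵀ = A := rfl
  have key : fromBlocks (-(Bᵀ * C')) (-(Bᵀ * S')) (B * C) (B * S) *
      fromBlocks (-Sᵀ) (-S'ᵀ) Cᵀ C'ᵀ = 1 := by
    rw [fromBlocks_multiply, ← fromBlocks_one]
    congr 1
    · have : -(Bᵀ * C') * -Sᵀ + -(Bᵀ * S') * Cᵀ = -(Bᵀ * (S' * Cᵀ - C' * Sᵀ)) := by
        simp only [Matrix.mul_sub, Matrix.neg_mul, Matrix.mul_neg, Matrix.mul_assoc]; abel
      rw [this, hAt, Matrix.mul_neg, neg_neg, hT]
    · have : -(Bᵀ * C') * -S'ᵀ + -(Bᵀ * S') * C'ᵀ = -(Bᵀ * (S' * C'ᵀ - C' * S'ᵀ)) := by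
        simp only [Matrix.mul_sub, Matrix.neg_mul, Matrix.mul_neg, Matrix.mul_assoc]; abel
      rw [this, e2, Matrix.mul_zero, neg_zero]
    · have : B * C * -Sᵀ + B * S * Cᵀ = B * (S * Cᵀ - C * Sᵀ) := by
        simp only [Matrix.mul_sub, Matrix.mul_neg, Matrix.mul_assoc]; abel
      rw [this, e1, Matrix.mul_zero]
    · have : B * C * -S'ᵀ + B * S * C'ᵀ = B * (S * C'ᵀ - C * S'ᵀ) := by
        simp only [Matrix.mul_sub, Matrix.mul_neg, Matrix.mul_assoc]; abel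
      rw [this, e3, hBA]
  have key2 := mul_eq_one_comm.1 key
  rw [fromBlocks_multiply, ← fromBlocks_one, fromBlocks_inj] at key2
  obtain ⟨k1, k2, k3, k4⟩ := key2
  refine ⟨?_, ?_, ?_, ?_⟩
  · rw [← k1]; simp only [Matrix.neg_mul, Matrix.mul_neg, Matrix.mul_assoc]; abel
  · rw [← k2]; simp only [Matrix.neg_mul, Matrix.mul_neg, Matrix.mul_assoc]; abel
  · rw [← k3]; simp only [Matrix.mul_neg, Matrix.mul_assoc]; abel
  · rw [← k4]; simp only [Matrix.mul_neg, Matrix.mul_assoc]; abel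

theorem om_complete {C S C' S' : Mat m} (h1 : om C S C S = 0) (h2 : om C' S' C' S' = 0)
    (hA : (om C S C' S').det ≠ 0) (X1 X2 Y1 Y2 : Mat m) :
    om X1 X2 Y1 Y2 = om X1 X2 C' S' * (om C S C' S')⁻¹ * om C S Y1 Y2 -
      om X1 X2 C S * ((om C S C' S')⁻¹)ᵀ * om C' S' Y1 Y2 := by
  obtain ⟨k1, k2, k3, k4⟩ := ident_a_blocks h1 h2 hA
  generalize (om C S C' S')⁻¹ = B at *
  have : om X1 X2 C' S' * B * om C S Y1 Y2 - om X1 X2 C S * Bᵀ * om C' S' Y1 Y2 =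
      X2 * (C'ᵀ * B * S - Cᵀ * Bᵀ * S') * Y1ᵀ - X2 * (C'ᵀ * B * C - Cᵀ * Bᵀ * C') * Y2ᵀ
        + X1 * (Sᵀ * Bᵀ * S' - S'ᵀ * B * S) * Y1ᵀ
        - X1 * (Sᵀ * Bᵀ * C' - S'ᵀ * B * C) * Y2ᵀ := by
    simp only [om, Matrix.mul_sub, Matrix.sub_mul, Matrix.mul_assoc]; abel
  rw [this, k1, k2, k3, k4]
  simp [om]

theorem lag_perp {C S C' S' : Mat m} (h1 : om C S C S = 0) (h2 : om C' S' C' S' = 0)
    (hA : (om C S C' S').det ≠ 0) {a b c d : Fin m → ℝ} (hab : S *ᵥ a - C *ᵥ b = 0)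
    (hcd : S *ᵥ c - C *ᵥ d = 0) : b ⬝ᵥ c - a ⬝ᵥ d = 0 := by
  rcases isEmpty_or_nonempty (Fin m) with hm | ⟨⟨i0⟩⟩
  · simp [dotProduct]
  have hz : ∀ {p q : Fin m → ℝ}, S *ᵥ p - C *ᵥ q = 0 →
      om C S (Matrix.of fun _ j => p j) (Matrix.of fun _ j => q j) = 0 := by
    intro p q h
    ext i j
    have := congrFun h i
    simpa [om, Matrix.mul_apply, Matrix.mulVec, dotProduct] using this
  have e := om_complete h1 h2 hA (Matrix.of fun _ j => a j) (Matrix.of fun _ j => b j)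
    (Matrix.of fun _ j => c j) (Matrix.of fun _ j => d j)
  have e2 : om (Matrix.of fun _ j => a j) (Matrix.of fun _ j => b j) C S = 0 := by
    have := om_transpose C S (Matrix.of fun _ j => a j) (Matrix.of fun _ j => b j)
    rw [hz hab, Matrix.transpose_zero] at this
    exact neg_eq_zero.1 this.symm
  rw [hz hcd, e2] at e
  have := congrFun (congrFun e i0) i0
  simpa [om, Matrix.mul_apply, dotProduct] using this

end Vale.Agent.P231
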