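import Vale.Agent.P231.M.MainB

/-!
# The sharp inequality along one closed geodesic, with rigidity  (TASK)

`G = A⁻¹ᵀ A⁻¹` (`A = pr C S t (t - τ)`) is positive definite, `G⁻¹ = A Aᵀ`, `log det G = -2 log det A`, `mix = tr G` (`gm_eq`, `trace_mul_comm`).
`α = 1 / (sin² cos²) ≥ β = 1 / sin²`, `α = 1 / sin² + 1 / cos²`.  `w τ = avL τ - π m log sin τ - π k log cos τ` on `Ioo 0 (π/2)`,
`w2 = -∫ mix + π (k α + (m - k) β)`.  Integrating `schur_le` and using `claimB`: `w2 ≤ 2 α w` (`main_second` in `M/Main0` records the precise form with the defect `dfc`; use it).  End `0`: `Loop.zero`, `log_sin_sub_log`, `log cos → 0`.  End `π/2`: integrate `schur_bd` (with `α`) and use `claimB`: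
`2 w ≥ π k - sin² cos² ∫ tr (Q G) ≥ π k - cos² ∫ tr (Q G)` (`tr (Q G) ≥ 0`), then `MP.edge`.  `max_principle` gives `main_log`.
`main_eq`: `w = 0` on the interval, so `w1 = 0`, `w2 = 0` (`HasDerivAt.unique` with eventual equality); the continuous nonnegative defect
`tr G - (lhs of schur_le)` has integral `≤ 0`, so it vanishes on `[0, π]` (`intervalIntegral.integral_pos` or `Continuous.integral_pos_of_hasCompactSupport`-like lemmas);
`schur_eq` gives `G = α Q + β (1 - Q)`, so `A Aᵀ = α⁻¹ Q + β⁻¹ (1 - Q)`.  At `t = 0`: `A(0,-τ) = -S(-τ)ᵀ` (`om_transpose`, `pr_zero`).  At `t = τ`: `S Sᵀ = a Q + b (1-Q)`;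
`S Sᵀ S Q0 = a S Q0` (`img`) gives `Sᵀ S Q0 = a Q0`; `Q S (1 - Q0) = Xᵀ Q0 Sᵀ S (1 - Q0) = 0` (`onto`, symmetry), so `Sᵀ S (1 - Q0) = b (1 - Q0)`.
`ode_main`: `k₀ = nul ≤ k`, `cos ^ k ≤ cos ^ k₀`; `|det| ≥ c (1 + log |det| - log c)` with `c = sin ^ m cos ^ k₀` (`Real.log_le_sub_one_of_pos`) gives the inequality after
`per_shift`; in the equality case `π c + c w ≤ π c`, so `w ≤ 0`.  This file holds one portion of the plan above.  Prefix helper names by `main_hc_`.
-/

namespace Vale.Agent.P231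

open Matrix Real Filter Topology Set

variable {m k : ℕ} {R C S C1 S1 Q : ℝ → Mat m} {P : Mat m}

theorem main_hc_low (h : Sys R C S C1 S1) (hP : SPer C S P) (hT : Tv C S (π / 2)) (k : ℕ)
    {τ : ℝ} (hτ : τ ∈ Ioo 0 (π / 2)) : π * (sin τ ^ m * cos τ ^ k) +
      sin τ ^ m * cos τ ^ k * ww C S k τ ≤ ∫ s in (0 : ℝ)..π, |(pr C S (s + τ) s).det| := by
  obtain ⟨hs, hc⟩ := main_h0_sc hτ
  have L := h.loop hP
  have hc0 : 0 < sin τ ^ m * cos τ ^ k := by positivity
  have l1 : Real.log (sin τ ^ m * cos τ ^ k) = m * Real.log (sin τ) + k * Real.log (cos τ) := by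
    rw [Real.log_mul (by positivity) (by positivity), Real.log_pow, Real.log_pow]
  rw [ww, ← l1]
  set c := sin τ ^ m * cos τ ^ k
  have n2 : ∀ s, (pr C S (s + τ) s).det ≠ 0 := fun s =>
    hT (s + τ) s (by linarith [hτ.1]) (by linarith [hτ.2])
  have c1 : Continuous fun s => pr C S (s + τ) s :=
    L.continuous_pr.comp (f := fun s : ℝ => (s + τ, s)) (by fun_prop)
  have c2 : Continuous fun s => Real.log (pr C S (s + τ) s).det :=
    continuous_iff_continuousAt.2 fun s => continuousAt_logdet c1.continuousAt (n2 s)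
  have c3 : Continuous fun s => c * Real.log (pr C S (s + τ) s).det := continuous_const.mul c2
  have e1 : ∫ s in (0 : ℝ)..π, Real.log (pr C S (s + τ) s).det = avL C S τ := by
    rw [avL, ← per_shift (f := fun t => Real.log (pr C S t (t - τ)).det) (fun t => by
      rw [show t + π - τ = t - τ + π by ring, second_b_L L]) τ]
    simp only [add_sub_cancel_right]
  have hi := intervalIntegral.integral_mono_on (μ := MeasureTheory.volume) pi_pos.le
    (f := fun s => c * Real.log (pr C S (s + τ) s).det + (c - c * Real.log c))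
    ((c3.add continuous_const).intervalIntegrable 0 π) (c1.matrix_det.abs.intervalIntegrable 0 π)
    (fun s _ => by
      have h1 := Real.log_le_sub_one_of_pos (div_pos (abs_pos.2 (n2 s)) hc0)
      rw [Real.log_div (abs_pos.2 (n2 s)).ne' hc0.ne', Real.log_abs, le_sub_iff_add_le,
        le_div_iff₀ hc0] at h1
      linarith)
  rw [intervalIntegral.integral_add (c3.intervalIntegrable _ _) intervalIntegrable_const,
    intervalIntegral.integral_const_mul, e1] at hi
  simp only [intervalIntegral.integral_const, sub_zero, smul_eq_mul] at hi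
  linarith

theorem ode_main (h : Sys R C S C1 S1) (hP : SPer C S P) (hT : Tv C S (π / 2))
    (hk : nul (S (π / 2)) ≤ k) :
    (∀ τ ∈ Ioo 0 (π / 2),
      π * (sin τ ^ m * cos τ ^ k) ≤ ∫ s in (0 : ℝ)..π, |(pr C S (s + τ) s).det|) ∧
    ((∀ τ ∈ Ioo 0 (π / 2),
      ∫ s in (0 : ℝ)..π, |(pr C S (s + τ) s).det| ≤ π * (sin τ ^ m * cos τ ^ k)) →
      ∀ τ ∈ Ioo 0 (π / 2), (S τ)ᵀ * S τ = (S (-τ))ᵀ * S (-τ)) := by
  obtain ⟨Q, hQ⟩ := exists_mp h hP hT
  have hle : ∀ τ ∈ Ioo 0 (π / 2), π * (sin τ ^ m * cos τ ^ k) ≤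
      π * (sin τ ^ m * cos τ ^ nul (S (π / 2))) := fun τ hτ => by
    obtain ⟨hs, hc⟩ := main_h0_sc hτ
    exact mul_le_mul_of_nonneg_left (mul_le_mul_of_nonneg_left
      (pow_le_pow_of_le_one hc.le (cos_le_one τ) hk) (by positivity)) pi_pos.le
  refine ⟨fun τ hτ => ?_, fun he τ hτ => main_eq h hP hT hQ (fun x hx => ?_) hτ⟩
  · obtain ⟨hs, hc⟩ := main_h0_sc hτ
    have h1 : 0 ≤ ww C S (nul (S (π / 2))) τ := sub_nonneg.2 (main_log h hP hT hQ hτ)
    have h2 : 0 ≤ sin τ ^ m * cos τ ^ nul (S (π / 2)) * ww C S (nul (S (π / 2))) τ := by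
      positivity
    linarith [main_hc_low h hP hT (nul (S (π / 2))) hτ, hle τ hτ]
  · obtain ⟨hs, hc⟩ := main_h0_sc hx
    have h1 : sin x ^ m * cos x ^ nul (S (π / 2)) * ww C S (nul (S (π / 2))) x ≤ 0 := by
      linarith [main_hc_low h hP hT (nul (S (π / 2))) hx, hle x hx, he x hx]
    exact sub_nonpos.1 (nonpos_of_mul_nonpos_right h1 (by positivity) : ww C S _ x ≤ 0)

end Vale.Agent.P231
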