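import Vale.Agent.P231.M.Claim

/-!
# The sharp inequality along one closed geodesic, with rigidity  (TASK)

`G = A⁻¹ᵀ A⁻¹` (`A = pr C S t (t - τ)`) is positive definite, `G⁻¹ = A Aᵀ`, `log det G = -2 log det A`, `mix = tr G` (`gm_eq`, `trace_mul_comm`).
`α = 1 / (sin² cos²) ≥ β = 1 / sin²`, `α = 1 / sin² + 1 / cos²`.  `w τ = avL τ - π m log sin τ - π k log cos τ` on `Ioo 0 (π/2)`,
`w2 = -∫ mix + π (k α + (m - k) β)`.  Integrating `schur_le` and using `claimB`: `w2 ≤ 2 α w` (`main_second` records the precise form with the defect `dfc`).  End `0`: `Loop.zero`, `log_sin_sub_log`, `log cos → 0`.  End `π/2`: integrate `schur_bd` (with `α`) and use `claimB`: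
`2 w ≥ π k - sin² cos² ∫ tr (Q G) ≥ π k - cos² ∫ tr (Q G)` (`tr (Q G) ≥ 0`), then `MP.edge`.  `max_principle` gives `main_log`.
`main_eq`: `w = 0` on the interval, so `w1 = 0`, `w2 = 0` (`HasDerivAt.unique` with eventual equality); the continuous nonnegative defect
`tr G - (lhs of schur_le)` has integral `≤ 0`, so it vanishes on `[0, π]` (`intervalIntegral.integral_pos` or `Continuous.integral_pos_of_hasCompactSupport`-like lemmas);
`schur_eq` gives `G = α Q + β (1 - Q)`, so `A Aᵀ = α⁻¹ Q + β⁻¹ (1 - Q)`.  At `t = 0`: `A(0,-τ) = -S(-τ)ᵀ` (`om_transpose`, `pr_zero`).  At `t = τ`: `S Sᵀ = a Q + b (1-Q)`;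
`S Sᵀ S Q0 = a S Q0` (`img`) gives `Sᵀ S Q0 = a Q0`; `Q S (1 - Q0) = Xᵀ Q0 Sᵀ S (1 - Q0) = 0` (`onto`, symmetry), so `Sᵀ S (1 - Q0) = b (1 - Q0)`.
`ode_main`: `k₀ = nul ≤ k`, `cos ^ k ≤ cos ^ k₀`; `|det| ≥ c (1 + log |det| - log c)` with `c = sin ^ m cos ^ k₀` (`Real.log_le_sub_one_of_pos`) gives the inequality after
`per_shift`; in the equality case `π c + c w ≤ π c`, so `w ≤ 0`.  This file holds one portion of the plan above.  Prefix helper names by `main_h0_`.
-/

namespace Vale.Agent.P231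

open Matrix Real Filter Topology Set

variable {m k : ℕ} {R C S C1 S1 Q : ℝ → Mat m} {P : Mat m}

/-- The matrix `A⁻¹ᵀ A⁻¹`. -/
noncomputable def gG (C S : ℝ → Mat m) (τ t : ℝ) : Mat m :=
  ((pr C S t (t - τ))⁻¹)ᵀ * (pr C S t (t - τ))⁻¹

/-- The defect in `schur_le`. -/
noncomputable def dfc (C S Q : ℝ → Mat m) (k : ℕ) (τ t : ℝ) : ℝ :=
  (gG C S τ t).trace - (k * (1 / (sin τ * cos τ) ^ 2) + (m - k) * (1 / sin τ ^ 2) +
    (1 / (sin τ * cos τ) ^ 2) * (Real.log (gG C S τ t).det -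
      k * Real.log (1 / (sin τ * cos τ) ^ 2) - (m - k) * Real.log (1 / sin τ ^ 2)) +
    (1 / (sin τ * cos τ) ^ 2 - 1 / sin τ ^ 2) *
      (Real.log (cmp (Q t) (gG C S τ t)⁻¹).det + (m - k) * Real.log (1 / sin τ ^ 2)))

/-- The function to which the maximum principle is applied. -/
noncomputable def ww (C S : ℝ → Mat m) (k : ℕ) (τ : ℝ) : ℝ :=
  avL C S τ - π * (m * Real.log (sin τ) + k * Real.log (cos τ))

theorem gG_posDef {τ t : ℝ} (hd : (pr C S t (t - τ)).det ≠ 0) : (gG C S τ t).PosDef := by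
  have h1 : ((pr C S t (t - τ))⁻¹)ᵀ.det ≠ 0 := by
    rw [det_transpose, det_nonsing_inv, Ring.inverse_eq_inv']; exact inv_ne_zero hd
  simpa [gG] using schur_ha_conj PosDef.one h1

theorem gG_inv {τ t : ℝ} (hd : (pr C S t (t - τ)).det ≠ 0) :
    (gG C S τ t)⁻¹ = pr C S t (t - τ) * (pr C S t (t - τ))ᵀ := by
  have hu := isUnit_iff_ne_zero.2 hd
  rw [gG, Matrix.mul_inv_rev, ← transpose_nonsing_inv, nonsing_inv_nonsing_inv _ hu]

theorem gG_logdet {τ t : ℝ} (hd : (pr C S t (t - τ)).det ≠ 0) :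
    Real.log (gG C S τ t).det = -2 * Real.log (pr C S t (t - τ)).det := by
  rw [gG, det_mul, det_transpose, det_nonsing_inv, Ring.inverse_eq_inv',
    Real.log_mul (inv_ne_zero hd) (inv_ne_zero hd), Real.log_inv]
  ring

theorem main_h0_ne (hT : Tv C S (π / 2)) {τ : ℝ} (hτ : τ ∈ Ioo 0 (π / 2)) (t : ℝ) :
    (pr C S t (t - τ)).det ≠ 0 := hT t (t - τ) (by linarith [hτ.1]) (by linarith [hτ.2])

theorem continuous_gG (h : Sys R C S C1 S1) (hP : SPer C S P) (hT : Tv C S (π / 2)) {τ : ℝ}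
    (hτ : τ ∈ Ioo 0 (π / 2)) : Continuous (gG C S τ) := by
  have hi : Continuous fun t => (pr C S t (t - τ))⁻¹ :=
    continuous_iff_continuousAt.2 fun t => continuousAt_inv_mat
      ((h.loop hP).second_a_pr τ).continuousAt (main_h0_ne hT hτ t)
  exact hi.matrix_transpose.matrix_mul hi

theorem main_h0_cmp (h : Sys R C S C1 S1) (hP : SPer C S P) (hT : Tv C S (π / 2))
    (hQ : MP C S Q k) {τ : ℝ} (hτ : τ ∈ Ioo 0 (π / 2)) :
    Continuous fun t => Real.log (cmp (Q t) (gG C S τ t)⁻¹).det := by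
  have hi : Continuous fun t => (gG C S τ t)⁻¹ :=
    continuous_iff_continuousAt.2 fun t => continuousAt_inv_mat
      (continuous_gG h hP hT hτ).continuousAt (gG_posDef (main_h0_ne hT hτ t)).det_pos.ne'
  have h1 : Continuous fun t => 1 - Q t := continuous_const.sub hQ.cont
  have hc : Continuous fun t => cmp (Q t) (gG C S τ t)⁻¹ :=
    hQ.cont.add ((h1.matrix_mul hi).matrix_mul h1)
  exact continuous_iff_continuousAt.2 fun t => continuousAt_logdet hc.continuousAt
    (cmp_posDef (hQ.isPr t) (gG_posDef (main_h0_ne hT hτ t)).inv).det_pos.ne'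

theorem main_h0_log (h : Sys R C S C1 S1) (hP : SPer C S P) (hT : Tv C S (π / 2)) {τ : ℝ}
    (hτ : τ ∈ Ioo 0 (π / 2)) : Continuous fun t => Real.log (gG C S τ t).det :=
  continuous_iff_continuousAt.2 fun t => continuousAt_logdet
    (continuous_gG h hP hT hτ).continuousAt (gG_posDef (main_h0_ne hT hτ t)).det_pos.ne'

theorem continuous_dfc (h : Sys R C S C1 S1) (hP : SPer C S P) (hT : Tv C S (π / 2))
    (hQ : MP C S Q k) {τ : ℝ} (hτ : τ ∈ Ioo 0 (π / 2)) : Continuous (dfc C S Q k τ) :=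
  (continuous_gG h hP hT hτ).matrix_trace.sub ((continuous_const.add (continuous_const.mul
    (((main_h0_log h hP hT hτ).sub continuous_const).sub continuous_const))).add
    (continuous_const.mul ((main_h0_cmp h hP hT hQ hτ).add continuous_const)))

theorem main_h0_sc {τ : ℝ} (hτ : τ ∈ Ioo 0 (π / 2)) : 0 < sin τ ∧ 0 < cos τ :=
  ⟨sin_pos_of_pos_of_lt_pi hτ.1 (by linarith [hτ.2, pi_pos]),
    cos_pos_of_mem_Ioo ⟨by linarith [hτ.1, pi_pos], hτ.2⟩⟩

theorem dfc_nonneg (hT : Tv C S (π / 2)) (hQ : MP C S Q k) {τ : ℝ} (hτ : τ ∈ Ioo 0 (π / 2))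
    (t : ℝ) : 0 ≤ dfc C S Q k τ t := by
  obtain ⟨hs, hc⟩ := main_h0_sc hτ
  exact sub_nonneg.2 (schur_le (hQ.isPr t) (gG_posDef (main_h0_ne hT hτ t)) (by positivity)
    (by positivity))

theorem main_h0_B (hT : Tv C S (π / 2)) (hQ : MP C S Q k) {τ : ℝ} (hτ : τ ∈ Ioo 0 (π / 2)) :
    π * (2 * ((m - k) * Real.log (sin τ))) ≤
      ∫ t in (0 : ℝ)..π, Real.log (cmp (Q t) (gG C S τ t)⁻¹).det := by
  simpa only [gG_inv (main_h0_ne hT hτ _)] using hQ.claimB τ hτ

theorem main_h0_int (hT : Tv C S (π / 2)) {τ : ℝ} (hτ : τ ∈ Ioo 0 (π / 2)) :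
    ∫ t in (0 : ℝ)..π, Real.log (gG C S τ t).det = -2 * avL C S τ := by
  simp only [gG_logdet (main_h0_ne hT hτ _), avL, intervalIntegral.integral_const_mul]

theorem main_h0_lin {f g u : ℝ → ℝ} (hf : Continuous f) (hg : Continuous g) (hu : Continuous u)
    (a b c d e e' : ℝ) : ∫ t in (0 : ℝ)..π, (f t - (a + b * (g t - c - d) + e * (u t + e'))) =
      (∫ t in (0 : ℝ)..π, f t) - (π * a + b * ((∫ t in (0 : ℝ)..π, g t) - π * c - π * d) +
        e * ((∫ t in (0 : ℝ)..π, u t) + π * e')) := by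
  have e1 : ∀ t, f t - (a + b * (g t - c - d) + e * (u t + e')) =
      f t - b * g t - e * u t - (a - b * c - b * d + e * e') := fun t => by ring
  have c1 : Continuous fun t => b * g t := continuous_const.mul hg
  have c2 : Continuous fun t => e * u t := continuous_const.mul hu
  have c3 : Continuous fun t => f t - b * g t := hf.sub c1
  have c4 : Continuous fun t => f t - b * g t - e * u t := c3.sub c2
  simp only [e1]
  rw [intervalIntegral.integral_sub (c4.intervalIntegrable _ _) intervalIntegrable_const,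
    intervalIntegral.integral_sub (c3.intervalIntegrable _ _) (c2.intervalIntegrable _ _),
    intervalIntegral.integral_sub (hf.intervalIntegrable _ _) (c1.intervalIntegrable _ _)]
  simp only [intervalIntegral.integral_const_mul, intervalIntegral.integral_const, sub_zero,
    smul_eq_mul]
  ring

theorem main_second (h : Sys R C S C1 S1) (hP : SPer C S P) (hT : Tv C S (π / 2))
    (hQ : MP C S Q k) : ∃ w1 w2 : ℝ → ℝ, ∀ τ ∈ Ioo 0 (π / 2),
      HasDerivAt (ww C S k) (w1 τ) τ ∧ HasDerivAt w1 (w2 τ) τ ∧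
        w2 τ + ∫ t in (0 : ℝ)..π, dfc C S Q k τ t ≤ 2 / (sin τ * cos τ) ^ 2 * ww C S k τ := by
  obtain ⟨I1, hI⟩ := (h.loop hP).second hT
  refine ⟨fun τ => I1 τ - π * (m * (cos τ / sin τ) + k * (-sin τ / cos τ)),
    fun τ => -(∫ t in (0 : ℝ)..π, mix C S C1 S1 τ t) + π * (m * (1 / sin τ ^ 2) +
      k * (1 / cos τ ^ 2)), fun τ hτ => ?_⟩
  obtain ⟨hs, hc⟩ := main_h0_sc hτ
  have hsc := sin_sq_add_cos_sq τ
  refine ⟨(hI τ hτ).1.sub (((((hasDerivAt_sin τ).log hs.ne').const_mul _).add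
    (((hasDerivAt_cos τ).log hc.ne').const_mul _)).const_mul _), ?_, ?_⟩
  · refine ((hI τ hτ).2.sub ((((((hasDerivAt_cos τ).div (hasDerivAt_sin τ) hs.ne').const_mul
      (m : ℝ)).add (((hasDerivAt_sin τ).neg.div (hasDerivAt_cos τ) hc.ne').const_mul
      (k : ℝ)))).const_mul π)).congr_deriv ?_
    have e1 : -sin τ * sin τ - cos τ * cos τ = -1 := by linarith
    have e2 : -cos τ * cos τ - -sin τ * -sin τ = -1 := by linarith
    simp only [Pi.neg_apply]
    rw [e1, e2]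
    ring
  · have e1 : ∀ t, mix C S C1 S1 τ t = (gG C S τ t).trace := fun t => by
      rw [mix, h.gm_eq, h.gm_eq, Matrix.mul_one, Matrix.mul_one, trace_mul_comm, gG]
    have hB := main_h0_B hT hQ hτ
    have l1 : Real.log (1 / (sin τ * cos τ) ^ 2) = -2 * (Real.log (sin τ) + Real.log (cos τ)) := by
      rw [one_div, Real.log_inv, Real.log_pow, Real.log_mul hs.ne' hc.ne']; push_cast; ring
    have l2 : Real.log (1 / sin τ ^ 2) = -2 * Real.log (sin τ) := by
      rw [one_div, Real.log_inv, Real.log_pow]; push_cast; ring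
    have l3 : 1 / (sin τ * cos τ) ^ 2 = 1 / sin τ ^ 2 + 1 / cos τ ^ 2 := by
      field_simp; linarith
    have l4 : 2 / (sin τ * cos τ) ^ 2 = 2 * (1 / sin τ ^ 2 + 1 / cos τ ^ 2) := by
      rw [← l3]; ring
    simp only [dfc, e1]
    rw [main_h0_lin (continuous_gG h hP hT hτ).matrix_trace (main_h0_log h hP hT hτ)
      (main_h0_cmp h hP hT hQ hτ), main_h0_int hT hτ, l1, l2, l3, l4, ww]
    have := mul_le_mul_of_nonneg_left hB (show 0 ≤ 1 / cos τ ^ 2 by positivity)
    linarith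

end Vale.Agent.P231
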