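import Vale.Agent.P231.M.Main0

/-!
# The sharp inequality along one closed geodesic, with rigidity  (TASK)

`G = A⁻¹ᵀ A⁻¹` (`A = pr C S t (t - τ)`) is positive definite, `G⁻¹ = A Aᵀ`, `log det G = -2 log det A`, `mix = tr G` (`gm_eq`, `trace_mul_comm`).
`α = 1 / (sin² cos²) ≥ β = 1 / sin²`, `α = 1 / sin² + 1 / cos²`.  `w τ = avL τ - π m log sin τ - π k log cos τ` on `Ioo 0 (π/2)`,
`w2 = -∫ mix + π (k α + (m - k) β)`.  Integrating `schur_le` and using `claimB`: `w2 ≤ 2 α w` (`main_second` in `M/Main0` records the precise form with the defect `dfc`; use it).  End `0`: `Loop.zero`, `log_sin_sub_log`, `log cos → 0`.  End `π/2`: integrate `schur_bd` (with `α`) and use `claimB`: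
`2 w ≥ π k - sin² cos² ∫ tr (Q G) ≥ π k - cos² ∫ tr (Q G)` (`tr (Q G) ≥ 0`), then `MP.edge`.  `max_principle` gives `main_log`.
`main_eq`: `w = 0` on the interval, so `w1 = 0`, `w2 = 0` (`HasDerivAt.unique` with eventual equality); the continuous nonnegative defect
`tr G - (lhs of schur_le)` has integral `≤ 0`, so it vanishes on `[0, π]` (`intervalIntegral.integral_pos` or `Continuous.integral_pos_of_hasCompactSupport`-like lemmas);
`schur_eq` gives `G = α Q + β (1 - Q)`, so `A Aᵀ = α⁻¹ Q + β⁻¹ (1 - Q)`.  At `t = 0`: `A(0,-τ) = -S(-τ)ᵀ` (`om_transpose`, `pr_zero`).  At `t = τ`: `S Sᵀ = a Q + b (1-Q)`;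
`S Sᵀ S Q0 = a S Q0` (`img`) gives `Sᵀ S Q0 = a Q0`; `Q S (1 - Q0) = Xᵀ Q0 Sᵀ S (1 - Q0) = 0` (`onto`, symmetry), so `Sᵀ S (1 - Q0) = b (1 - Q0)`.
`ode_main`: `k₀ = nul ≤ k`, `cos ^ k ≤ cos ^ k₀`; `|det| ≥ c (1 + log |det| - log c)` with `c = sin ^ m cos ^ k₀` (`Real.log_le_sub_one_of_pos`) gives the inequality after
`per_shift`; in the equality case `π c + c w ≤ π c`, so `w ≤ 0`.  This file holds one portion of the plan above.  Prefix helper names by `main_ha_`.
-/

namespace Vale.Agent.P231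

open Matrix Real Filter Topology Set

variable {m k : ℕ} {R C S C1 S1 Q : ℝ → Mat m} {P : Mat m}

theorem main_ha_zero (h : Sys R C S C1 S1) (hP : SPer C S P) (hT : Tv C S (π / 2)) :
    Tendsto (ww C S k) (𝓝[>] 0) (𝓝 0) := by
  have h1 := (h.loop hP).zero hT (by positivity)
  simp only [h.gm_eq, det_one, Real.log_one, intervalIntegral.integral_zero] at h1
  have h2 : Tendsto (fun τ => Real.log (cos τ)) (𝓝[>] 0) (𝓝 0) := by
    have : ContinuousAt (fun τ => Real.log (cos τ)) 0 :=
      continuous_cos.continuousAt.log (by simp)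
    simpa using this.tendsto.mono_left nhdsWithin_le_nhds
  have h3 := (h1.sub (log_sin_sub_log.const_mul (π * m))).sub (h2.const_mul (π * k))
  simp only [mul_zero, sub_zero] at h3
  refine h3.congr fun τ => ?_
  rw [ww]; ring

theorem main_ha_edge (h : Sys R C S C1 S1) (hP : SPer C S P) (hT : Tv C S (π / 2))
    (hQ : MP C S Q k) {τ : ℝ} (hτ : τ ∈ Ioo 0 (π / 2)) :
    π * k - cos τ ^ 2 * ∫ t in (0 : ℝ)..π, (Q t * gG C S τ t).trace ≤ 2 * ww C S k τ := by
  obtain ⟨hs, hc⟩ := main_h0_sc hτ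
  have c1 : Continuous fun t => (Q t * gG C S τ t).trace :=
    (hQ.cont.matrix_mul (continuous_gG h hP hT hτ)).matrix_trace
  have c2 := main_h0_log h hP hT hτ
  have c3 := main_h0_cmp h hP hT hQ hτ
  have l1 : Real.log (1 / (sin τ * cos τ) ^ 2) = -2 * (Real.log (sin τ) + Real.log (cos τ)) := by
    rw [one_div, Real.log_inv, Real.log_pow, Real.log_mul hs.ne' hc.ne']; push_cast; ring
  have hp : ∀ t, Real.log (gG C S τ t).det + Real.log (cmp (Q t) (gG C S τ t)⁻¹).det ≤
      cos τ ^ 2 * (Q t * gG C S τ t).trace +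
        (-k + k * (-2 * (Real.log (sin τ) + Real.log (cos τ)))) := fun t => by
    have hG := gG_posDef (main_h0_ne hT hτ t)
    have h1 := schur_bd (hQ.isPr t) hG (show 0 < 1 / (sin τ * cos τ) ^ 2 by positivity)
    have h2 : 0 ≤ (Q t * gG C S τ t).trace := by
      have := (hG.posSemidef.mul_mul_conjTranspose_same (Q t)).trace_nonneg
      rwa [conjTranspose_eq_transpose_of_trivial, (hQ.isPr t).symm, trace_mul_cycle,
        (hQ.isPr t).idem] at this
    rw [l1, div_div_eq_mul_div, div_one] at h1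
    have h3 : (sin τ * cos τ) ^ 2 ≤ cos τ ^ 2 := by
      rw [mul_pow]; exact mul_le_of_le_one_left (sq_nonneg _) (sin_sq_le_one τ)
    nlinarith [mul_le_mul_of_nonneg_left h3 h2]
  have c4 : Continuous fun t => cos τ ^ 2 * (Q t * gG C S τ t).trace := continuous_const.mul c1
  have hi := intervalIntegral.integral_mono_on (μ := MeasureTheory.volume) pi_pos.le
    ((c2.add c3).intervalIntegrable 0 π) ((c4.add continuous_const).intervalIntegrable 0 π)
    (fun t _ => hp t)
  simp only [Pi.add_apply] at hi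
  rw [intervalIntegral.integral_add (c2.intervalIntegrable _ _) (c3.intervalIntegrable _ _),
    intervalIntegral.integral_add (c4.intervalIntegrable _ _) intervalIntegrable_const,
    main_h0_int hT hτ, intervalIntegral.integral_const_mul] at hi
  simp only [intervalIntegral.integral_const, sub_zero, smul_eq_mul] at hi
  have hB := main_h0_B hT hQ hτ
  rw [ww]
  linarith

theorem main_log (h : Sys R C S C1 S1) (hP : SPer C S P) (hT : Tv C S (π / 2))
    (hQ : MP C S Q k) {τ : ℝ} (hτ : τ ∈ Ioo 0 (π / 2)) :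
    π * (m * Real.log (sin τ) + k * Real.log (cos τ)) ≤ avL C S τ := by
  obtain ⟨w1, w2, hw⟩ := main_second h hP hT hQ
  refine sub_nonneg.1 (max_principle (w := ww C S k) (c := fun τ => 2 / (sin τ * cos τ) ^ 2)
    (fun τ hτ => (hw τ hτ).1) (fun τ hτ => (hw τ hτ).2.1) (fun τ hτ => ?_) (fun τ hτ => ?_)
    (fun ε hε => ?_) (fun ε hε => ?_) τ hτ)
  · obtain ⟨hs, hc⟩ := main_h0_sc hτ
    positivity
  · have := intervalIntegral.integral_nonneg (μ := MeasureTheory.volume) pi_pos.le
      (fun t _ => dfc_nonneg hT hQ hτ t)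
    linarith [(hw τ hτ).2.2]
  · exact ((main_ha_zero h hP hT).eventually (lt_mem_nhds (neg_lt_zero.2 hε))).frequently
  · refine ((hQ.edge h hT hε).and_eventually (Ioo_mem_nhdsLT (show 0 < π / 2 by positivity))).mono
      fun τ hτ => ?_
    have h1 := main_ha_edge h hP hT hQ hτ.2
    have h2 : cos τ ^ 2 * ∫ t in (0 : ℝ)..π, (Q t * gG C S τ t).trace < π * k + ε := hτ.1
    linarith

end Vale.Agent.P231
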