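import Vale.Agent.P231.M.MainA

/-!
# The sharp inequality along one closed geodesic, with rigidity  (TASK)

`G = A⁻¹ᵀ A⁻¹` (`A = pr C S t (t - τ)`) is positive definite, `G⁻¹ = A Aᵀ`, `log det G = -2 log det A`, `mix = tr G` (`gm_eq`, `trace_mul_comm`).
`α = 1 / (sin² cos²) ≥ β = 1 / sin²`, `α = 1 / sin² + 1 / cos²`.  `w τ = avL τ - π m log sin τ - π k log cos τ` on `Ioo 0 (π/2)`,
`w2 = -∫ mix + π (k α + (m - k) β)`.  Integrating `schur_le` and using `claimB`: `w2 ≤ 2 α w` (`main_second` in `M/Main0` records the precise form with the defect `dfc`; use it).  End `0`: `Loop.zero`, `log_sin_sub_log`, `log cos → 0`.  End `π/2`: integrate `schur_bd` (with `α`) and use `claimB`: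
`2 w ≥ π k - sin² cos² ∫ tr (Q G) ≥ π k - cos² ∫ tr (Q G)` (`tr (Q G) ≥ 0`), then `MP.edge`.  `max_principle` gives `main_log`.
`main_eq`: `w = 0` on the interval, so `w1 = 0`, `w2 = 0` (`HasDerivAt.unique` with eventual equality); the continuous nonnegative defect
`tr G - (lhs of schur_le)` has integral `≤ 0`, so it vanishes on `[0, π]` (`intervalIntegral.integral_pos` or `Continuous.integral_pos_of_hasCompactSupport`-like lemmas);
`schur_eq` gives `G = α Q + β (1 - Q)`, so `A Aᵀ = α⁻¹ Q + β⁻¹ (1 - Q)`.  At `t = 0`: `A(0,-τ) = -S(-τ)ᵀ` (`om_transpose`, `pr_zero`).  At `t = τ`: `S Sᵀ = a Q + b (1-Q)`;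
`S Sᵀ S Q0 = a S Q0` (`img`) gives `Sᵀ S Q0 = a Q0`; `Q S (1 - Q0) = Xᵀ Q0 Sᵀ S (1 - Q0) = 0` (`onto`, symmetry), so `Sᵀ S (1 - Q0) = b (1 - Q0)`.
`ode_main`: `k₀ = nul ≤ k`, `cos ^ k ≤ cos ^ k₀`; `|det| ≥ c (1 + log |det| - log c)` with `c = sin ^ m cos ^ k₀` (`Real.log_le_sub_one_of_pos`) gives the inequality after
`per_shift`; in the equality case `π c + c w ≤ π c`, so `w ≤ 0`.  This file holds one portion of the plan above.  Prefix helper names by `main_hb_`.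
-/

namespace Vale.Agent.P231

open Matrix Real Filter Topology Set

variable {m k : ℕ} {R C S C1 S1 Q : ℝ → Mat m} {P : Mat m}

theorem main_hb_AA (h : Sys R C S C1 S1) (hP : SPer C S P) (hT : Tv C S (π / 2))
    (hQ : MP C S Q k)
    (he : ∀ τ ∈ Ioo 0 (π / 2), avL C S τ ≤ π * (m * Real.log (sin τ) + k * Real.log (cos τ)))
    {τ : ℝ} (hτ : τ ∈ Ioo 0 (π / 2)) {t : ℝ} (ht : t ∈ Icc 0 π) :
    pr C S t (t - τ) * (pr C S t (t - τ))ᵀ =
      (sin τ * cos τ) ^ 2 • Q t + sin τ ^ 2 • (1 - Q t) := by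
  obtain ⟨w1, w2, hw⟩ := main_second h hP hT hQ
  have h0 : ∀ x ∈ Ioo 0 (π / 2), ww C S k x = 0 := fun x hx =>
    sub_eq_zero.2 (le_antisymm (he x hx) (main_log h hP hT hQ hx))
  have hz : ∀ {f : ℝ → ℝ} {f' x : ℝ}, (∀ y ∈ Ioo 0 (π / 2), f y = 0) → x ∈ Ioo 0 (π / 2) →
      HasDerivAt f f' x → f' = 0 := fun hf hx hd =>
    hd.unique ((hasDerivAt_const _ (0 : ℝ)).congr_of_eventuallyEq
      (mem_of_superset (Ioo_mem_nhds hx.1 hx.2) hf))
  have h1 : ∀ x ∈ Ioo 0 (π / 2), w1 x = 0 := fun x hx => hz h0 hx (hw x hx).1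
  have h2 := (hw τ hτ).2.2
  rw [hz h1 hτ (hw τ hτ).2.1, h0 τ hτ, zero_add, mul_zero] at h2
  have h3 : dfc C S Q k τ t ≤ 0 := by
    by_contra hc
    have := intervalIntegral.integral_lt_integral_of_continuousOn_of_le_of_exists_lt pi_pos
      (continuousOn_const (c := (0 : ℝ))) (continuous_dfc h hP hT hQ hτ).continuousOn
      (fun x _ => dfc_nonneg hT hQ hτ x) ⟨t, ht, not_le.1 hc⟩
    rw [intervalIntegral.integral_zero] at this
    linarith
  obtain ⟨hs, hc⟩ := main_h0_sc hτ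
  have h4 := schur_eq (hQ.isPr t) (gG_posDef (main_h0_ne hT hτ t)) (by positivity) (by positivity)
    (sub_nonpos.1 h3)
  obtain ⟨-, c2, c3, c4⟩ := schur_hb_c (hQ.isPr t).symm (hQ.isPr t).idem
  rw [← gG_inv (main_h0_ne hT hτ t), h4]
  refine inv_eq_right_inv ?_
  simp only [Matrix.add_mul, Matrix.mul_add, Matrix.smul_mul, Matrix.mul_smul, c2, c3, c4,
    (hQ.isPr t).idem, smul_zero, add_zero, zero_add, smul_smul]
  rw [mul_one_div_cancel (by positivity), mul_one_div_cancel (by positivity), one_smul, one_smul,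
    add_sub_cancel]

theorem main_hb_alg {A Q Q0 X : Mat m} {a b : ℝ} (hA : A.det ≠ 0) (hQ : IsPr Q k)
    (hQ0 : IsPr Q0 k) (h1 : A * Aᵀ = a • Q + b • (1 - Q)) (h2 : Q * A * Q0 = A * Q0)
    (h3 : Q = A * Q0 * X) : Aᵀ * A = a • Q0 + b • (1 - Q0) := by
  obtain ⟨-, -, c3, -⟩ := schur_hb_c hQ0.symm hQ0.idem
  have hc : ∀ Y Z : Mat m, A * Y = A * Z → Y = Z := fun Y Z e => by
    have := congrArg (A⁻¹ * ·) e
    simpa only [← Matrix.mul_assoc, nonsing_inv_mul _ (isUnit_iff_ne_zero.2 hA),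
      Matrix.one_mul] using this
  have key : ∀ Y : Mat m, A * (Aᵀ * A * Y) = a • (Q * A * Y) + b • (A * Y - Q * A * Y) := by
    intro Y
    rw [← Matrix.mul_assoc, ← Matrix.mul_assoc, h1]
    simp only [Matrix.add_mul, Matrix.smul_mul, Matrix.sub_mul, Matrix.one_mul]
  have e1 : Aᵀ * A * Q0 = a • Q0 := hc _ _ (by
    rw [key, h2, sub_self, smul_zero, add_zero, Matrix.mul_smul])
  have e2 : Q * A * (1 - Q0) = 0 := by
    have e3 := congrArg transpose e1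
    rw [transpose_mul, transpose_mul, transpose_transpose, transpose_smul, hQ0.symm] at e3
    rw [← hQ.symm, h3, transpose_mul, transpose_mul, hQ0.symm, Matrix.mul_assoc Xᵀ,
      Matrix.mul_assoc Q0, e3, Matrix.mul_assoc, Matrix.smul_mul, c3, smul_zero, Matrix.mul_zero]
  have e4 : Aᵀ * A * (1 - Q0) = b • (1 - Q0) := hc _ _ (by
    rw [key, e2, sub_zero, smul_zero, zero_add, Matrix.mul_smul])
  rw [← e1, ← e4, ← Matrix.mul_add, add_sub_cancel, Matrix.mul_one]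

theorem main_eq (h : Sys R C S C1 S1) (hP : SPer C S P) (hT : Tv C S (π / 2))
    (hQ : MP C S Q k)
    (he : ∀ τ ∈ Ioo 0 (π / 2), avL C S τ ≤ π * (m * Real.log (sin τ) + k * Real.log (cos τ)))
    {τ : ℝ} (hτ : τ ∈ Ioo 0 (π / 2)) : (S τ)ᵀ * S τ = (S (-τ))ᵀ * S (-τ) := by
  have h1 := main_hb_AA h hP hT hQ he hτ (t := 0) ⟨le_rfl, pi_pos.le⟩
  have h2 := main_hb_AA h hP hT hQ he hτ (t := τ) ⟨hτ.1.le, by linarith [hτ.2, pi_pos]⟩
  have h3 := main_h0_ne hT hτ τ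
  rw [sub_self, h.pr_zero] at h2 h3
  have e : pr C S 0 (0 - τ) = -(S (-τ))ᵀ := by
    rw [zero_sub, ← h.pr_zero (-τ), pr, pr, om_transpose, neg_neg]
  rw [e, transpose_neg, transpose_transpose, neg_mul_neg] at h1
  obtain ⟨hs, hc⟩ := main_h0_sc hτ
  obtain ⟨X, hX⟩ := hQ.onto τ (by rw [sin_two_mul]; positivity)
  rw [h1]
  exact main_hb_alg h3 (hQ.isPr τ) (hQ.isPr 0) h2 (hQ.img τ) hX

end Vale.Agent.P231
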