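import Vale.Agent.P231.M.ProjB

/-!
# Projectors: onto a kernel, onto a moving range; a determinant inequality  (TASK)

`exists_pr`: take an orthonormal basis `b : Fin k → EuclideanSpace ℝ (Fin m)` of the kernel (`stdOrthonormalBasis` of the kernel of `toEuclideanLin B`, or
`Submodule.starProjection` and `LinearMap.toMatrix`, `LinearMap.IsProj.trace`), `Q = ∑ i, vecMulVec (b i) (b i)`.
`mv J Q0 = J N⁻¹ Jᵀ` with `N = Jᵀ J + (1 - Q0)`; `N` is positive definite (`x ⬝ N x = |J x|² + |(1 - Q0) x|²`), commutes with `Q0` (`J Q0 = J`), `Jᵀ J = N Q0`,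
so `N⁻¹ Jᵀ J = Q0`; this gives idempotence, `mv J = J`, trace `tr (N⁻¹ Jᵀ J) = k`.
`det_scale`: `det (c Q + (1 - Q)) = c ^ k` (eigenvalues of `Q` are `0, 1`; or `Matrix.det_one_add_mul_comm` with a rank factorisation; or induction-free via the
spectral theorem `IsHermitian.spectral_theorem`).  `det_mono`: `0 < X ≤ Y` gives `det X ≤ det Y` (write `X = Bᵀ B`, eigenvalues of `B⁻¹ᵀ Y B⁻¹` are `≥ 1`).
`red_det`: `Q, Q'` the moving projectors of `J, J'`, `g = (1 - Q) + J Jᵀ`, `g' = (1 - Q') + J' J'ᵀ`, `Â = (1-Q) A (1-Q') + c J J'ᵀ`.  `g'⁻¹ (1 - Q') = 1 - Q'` and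
`J'ᵀ g'⁻¹ J' = Q0` (since `g' (J' N'⁻¹) = J'`, i.e. `g'⁻¹ J' = J' N'⁻¹`), so `Â g'⁻¹ Âᵀ = (1-Q) A (1-Q') Aᵀ (1-Q) + c² J Jᵀ ≤ (1-Q) A Aᵀ (1-Q) + c² J Jᵀ
= cmp Q (A Aᵀ) * g * (c² Q + (1 - Q))`; take determinants (`det_mono`, `det_scale`, `cmp_posDef`) and logarithms.  This file holds one portion of the plan above.  Prefix helper names by `proj_c_`.
-/

namespace Vale.Agent.P231

open Matrix Real Filter Topology Set

variable {m k : ℕ}

variable {J J' Q0 : Mat m}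

theorem proj_c_z (h : Adm J Q0) (hQ : IsPr Q0 k) :
    (1 - mv J Q0) * J = 0 ∧ Jᵀ * (1 - mv J Q0) = 0 ∧ Jᵀ * mv J Q0 = Jᵀ := by
  have e : Jᵀ * mv J Q0 = Jᵀ := by
    rw [← (h.isPr hQ).symm, ← transpose_mul, h.mv_mul hQ]
  refine ⟨?_, ?_, e⟩
  · rw [Matrix.sub_mul, Matrix.one_mul, h.mv_mul hQ, sub_self]
  · rw [Matrix.mul_sub, Matrix.mul_one, e, sub_self]

theorem red_det (h : Adm J Q0) (h' : Adm J' Q0) (hQ : IsPr Q0 k) {A : Mat m} (hA : A.det ≠ 0)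
    {c : ℝ} (hc : c ≠ 0)
    (hd : ((1 - mv J Q0) * A * (1 - mv J' Q0) + c • (J * J'ᵀ)).det ≠ 0) :
    2 * Real.log ((1 - mv J Q0) * A * (1 - mv J' Q0) + c • (J * J'ᵀ)).det -
      Real.log (1 - mv J Q0 + J * Jᵀ).det - Real.log (1 - mv J' Q0 + J' * J'ᵀ).det ≤
        2 * (k * Real.log c) + Real.log (cmp (mv J Q0) (A * Aᵀ)).det := by
  have p := h.isPr hQ
  have p' := h'.isPr hQ
  have hg := h.posDef_g hQ
  have hg' := h'.posDef_g hQ
  obtain ⟨z1, z2, z3⟩ := proj_c_z h hQ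
  obtain ⟨y1, y2, -⟩ := proj_c_z h' hQ
  have w1 := h.mv_mul hQ
  obtain ⟨-, -, k3⟩ := proj_b_key h' hQ
  obtain ⟨c1, c2, c3, c4⟩ := schur_hb_c p.symm p.idem
  obtain ⟨d1, d2, -, -⟩ := schur_hb_c p'.symm p'.idem
  have hAA : (A * Aᵀ).PosDef := by simpa using schur_ha_conj PosDef.one hA
  have hM := cmp_posDef p hAA
  set Q := mv J Q0
  set Q' := mv J' Q0
  set N' := (J'ᵀ * J' + (1 - Q0))⁻¹
  set g' := 1 - Q' + J' * J'ᵀ with hg'd
  set B := (1 - Q) * A * (1 - Q') + c • (J * J'ᵀ) with hB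
  have hu := isUnit_iff_ne_zero.2 hg'.det_pos.ne'
  have e1 : g'⁻¹ * Bᵀ = (1 - Q') * Aᵀ * (1 - Q) + c • (J' * N' * Jᵀ) := by
    have : Bᵀ = g' * ((1 - Q') * Aᵀ * (1 - Q) + c • (J' * N' * Jᵀ)) := by
      have a1 : g' * (1 - Q') = 1 - Q' := by
        rw [hg'd, Matrix.add_mul, d2, Matrix.mul_assoc, y2, Matrix.mul_zero, add_zero]
      have a2 : g' * (J' * N') = J' := by
        rw [hg'd, Matrix.add_mul, ← Matrix.mul_assoc, y1, Matrix.zero_mul, zero_add,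
          Matrix.mul_assoc, ← Matrix.mul_assoc J'ᵀ, k3, h'.mul]
      rw [Matrix.mul_add, Matrix.mul_smul, ← Matrix.mul_assoc, ← Matrix.mul_assoc, a1,
        ← Matrix.mul_assoc, a2, hB, transpose_add, transpose_smul, transpose_mul, transpose_mul,
        transpose_mul, c1, d1, transpose_transpose, Matrix.mul_assoc]
    rw [this, ← Matrix.mul_assoc, nonsing_inv_mul _ hu, Matrix.one_mul]
  have e2 : B * g'⁻¹ * Bᵀ = (1 - Q) * A * (1 - Q') * Aᵀ * (1 - Q) + c ^ 2 • (J * Jᵀ) := by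
    have a1 : (1 - Q) * A * (1 - Q') * ((1 - Q') * Aᵀ * (1 - Q)) =
        (1 - Q) * A * (1 - Q') * Aᵀ * (1 - Q) := by
      rw [← Matrix.mul_assoc, ← Matrix.mul_assoc, Matrix.mul_assoc _ (1 - Q') (1 - Q'), d2]
    have a2 : (1 - Q) * A * (1 - Q') * (J' * N' * Jᵀ) = 0 := by
      rw [← Matrix.mul_assoc, ← Matrix.mul_assoc, Matrix.mul_assoc _ (1 - Q') J', y1]; simp
    have a3 : J * J'ᵀ * ((1 - Q') * Aᵀ * (1 - Q)) = 0 := by
      rw [← Matrix.mul_assoc, ← Matrix.mul_assoc, Matrix.mul_assoc J, y2]; simp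
    have a4 : J * J'ᵀ * (J' * N' * Jᵀ) = J * Jᵀ := by
      rw [← Matrix.mul_assoc, Matrix.mul_assoc J, ← Matrix.mul_assoc J'ᵀ, k3, h.mul]
    rw [Matrix.mul_assoc, e1, hB, Matrix.add_mul, Matrix.mul_add, Matrix.mul_add, Matrix.mul_smul,
      Matrix.mul_smul, Matrix.smul_mul, Matrix.smul_mul, a1, a2, a3, a4, smul_smul, smul_zero,
      add_zero, zero_add, sq]
  have e3 : cmp Q (A * Aᵀ) * (1 - Q + J * Jᵀ) * (c ^ 2 • Q + (1 - Q)) =
      (1 - Q) * (A * Aᵀ) * (1 - Q) + c ^ 2 • (J * Jᵀ) := by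
    have a1 : (1 - Q + J * Jᵀ) * (c ^ 2 • Q + (1 - Q)) = 1 - Q + c ^ 2 • (J * Jᵀ) := by
      rw [Matrix.add_mul, Matrix.mul_add, Matrix.mul_add, Matrix.mul_smul, Matrix.mul_smul, c4, c2,
        Matrix.mul_assoc, Matrix.mul_assoc, z3, z2]
      simp
    rw [Matrix.mul_assoc, a1, cmp, Matrix.add_mul, Matrix.mul_add, Matrix.mul_add, c3,
      Matrix.mul_smul, Matrix.mul_smul, ← Matrix.mul_assoc Q, w1,
      Matrix.mul_assoc _ (1 - Q) (1 - Q), c2, Matrix.mul_assoc _ (1 - Q) (J * Jᵀ),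
      ← Matrix.mul_assoc (1 - Q) J, z1]
    simp [add_comm]
  have hX := schur_ha_conj hg'.inv hd
  have hY : (cmp Q (A * Aᵀ) * (1 - Q + J * Jᵀ) * (c ^ 2 • Q + (1 - Q)) -
      B * g'⁻¹ * Bᵀ).PosSemidef := by
    have := posSemidef_self_mul_conjTranspose ((1 - Q) * A * Q')
    rw [conjTranspose_eq_transpose_of_trivial, transpose_mul, transpose_mul, c1, p'.symm,
      ← Matrix.mul_assoc, Matrix.mul_assoc _ Q' Q', p'.idem] at this
    have a : (1 - Q) * (A * Aᵀ) * (1 - Q) + c ^ 2 • (J * Jᵀ) -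
        ((1 - Q) * A * (1 - Q') * Aᵀ * (1 - Q) + c ^ 2 • (J * Jᵀ)) =
        (1 - Q) * A * Q' * (Aᵀ * (1 - Q)) := by
      rw [Matrix.mul_sub ((1 - Q) * A) 1 Q', Matrix.sub_mul _ _ Aᵀ, Matrix.sub_mul _ _ (1 - Q)]
      simp only [Matrix.mul_assoc, Matrix.mul_one]
      abel
    rwa [e2, e3, a]
  have h1 := Real.log_le_log hX.det_pos (det_mono hX hY)
  rw [det_mul, det_mul, det_mul, det_mul, det_transpose, det_scale p, det_nonsing_inv,
    Ring.inverse_eq_inv', Real.log_mul (mul_ne_zero hd (inv_ne_zero hg'.det_pos.ne')) hd,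
    Real.log_mul hd (inv_ne_zero hg'.det_pos.ne'), Real.log_inv,
    Real.log_mul (mul_ne_zero hM.det_pos.ne' hg.det_pos.ne') (pow_ne_zero _ (pow_ne_zero _ hc)),
    Real.log_mul hM.det_pos.ne' hg.det_pos.ne', Real.log_pow, Real.log_pow] at h1
  push_cast at h1
  linarith

end Vale.Agent.P231
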