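import Vale.Agent.P231.M.Calc
import Vale.Agent.P231.M.Schur

/-!
# Projectors: onto a kernel, onto a moving range; a determinant inequality  (TASK)

`exists_pr`: take an orthonormal basis `b : Fin k → EuclideanSpace ℝ (Fin m)` of the kernel (`stdOrthonormalBasis` of the kernel of `toEuclideanLin B`, or
`Submodule.starProjection` and `LinearMap.toMatrix`, `LinearMap.IsProj.trace`), `Q = ∑ i, vecMulVec (b i) (b i)`.
`mv J Q0 = J N⁻¹ Jᵀ` with `N = Jᵀ J + (1 - Q0)`; `N` is positive definite (`x ⬝ N x = |J x|² + |(1 - Q0) x|²`), commutes with `Q0` (`J Q0 = J`), `Jᵀ J = N Q0`,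
so `N⁻¹ Jᵀ J = Q0`; this gives idempotence, `mv J = J`, trace `tr (N⁻¹ Jᵀ J) = k`.
`det_scale`: `det (c Q + (1 - Q)) = c ^ k` (eigenvalues of `Q` are `0, 1`; or `Matrix.det_one_add_mul_comm` with a rank factorisation; or induction-free via the
spectral theorem `IsHermitian.spectral_theorem`).  `det_mono`: `0 < X ≤ Y` gives `det X ≤ det Y` (write `X = Bᵀ B`, eigenvalues of `B⁻¹ᵀ Y B⁻¹` are `≥ 1`).
`red_det`: `Q, Q'` the moving projectors of `J, J'`, `g = (1 - Q) + J Jᵀ`, `g' = (1 - Q') + J' J'ᵀ`, `Â = (1-Q) A (1-Q') + c J J'ᵀ`.  `g'⁻¹ (1 - Q') = 1 - Q'` and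
`J'ᵀ g'⁻¹ J' = Q0` (since `g' (J' N'⁻¹) = J'`, i.e. `g'⁻¹ J' = J' N'⁻¹`), so `Â g'⁻¹ Âᵀ = (1-Q) A (1-Q') Aᵀ (1-Q) + c² J Jᵀ ≤ (1-Q) A Aᵀ (1-Q) + c² J Jᵀ
= cmp Q (A Aᵀ) * g * (c² Q + (1 - Q))`; take determinants (`det_mono`, `det_scale`, `cmp_posDef`) and logarithms.  This file holds one portion of the plan above.  Prefix helper names by `proj_a_`.
-/

namespace Vale.Agent.P231

open Matrix Real Filter Topology Set

variable {m k : ℕ}

/-- The orthogonal projector onto the range of `J`. -/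
noncomputable def mv (J Q0 : Mat m) : Mat m := J * (Jᵀ * J + (1 - Q0))⁻¹ * Jᵀ

/-- `J` vanishes exactly on the kernel of the projector `Q0`. -/
structure Adm (J Q0 : Mat m) : Prop where
  mul : J * Q0 = J
  inj : ∀ z, J *ᵥ z = 0 → Q0 *ᵥ z = 0

theorem exists_pr (B : Mat m) : ∃ Q, IsPr Q (nul B) ∧ ∀ z, Q *ᵥ z = z ↔ B *ᵥ z = 0 := by
  have hH : (Bᴴ * B).IsHermitian := isHermitian_conjTranspose_mul_self B
  obtain ⟨U, hU, hU', e⟩ := schur_ha_diag hH
  set d := hH.eigenvalues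
  set E : Mat m := diagonal fun i => if d i = 0 then 1 else 0 with hE
  have inj : ∀ x y : Fin m → ℝ, U *ᵥ x = U *ᵥ y ↔ x = y := fun x y =>
    ⟨fun h => by simpa [mulVec_mulVec, hU'] using congrArg (Uᵀ *ᵥ ·) h, fun h => h ▸ rfl⟩
  have hi : U * E * Uᵀ * (U * E * Uᵀ) = U * E * Uᵀ := by
    have : E * E = E := by
      rw [hE, diagonal_mul_diagonal]; congr 1; ext i; split_ifs <;> simp
    rw [Matrix.mul_assoc, ← Matrix.mul_assoc Uᵀ, ← Matrix.mul_assoc Uᵀ, hU', Matrix.one_mul,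
      ← Matrix.mul_assoc, Matrix.mul_assoc U, this]
  have hz : ∀ z, (U * E * Uᵀ) *ᵥ z = z ↔ B *ᵥ z = 0 := by
    intro z
    rw [← conjTranspose_mul_self_mulVec_eq_zero, e, ← mulVec_mulVec, ← mulVec_mulVec,
      ← mulVec_mulVec, ← mulVec_mulVec, ← mulVec_zero U, inj]
    nth_rewrite 2 [← one_mulVec z]
    rw [← hU, ← mulVec_mulVec, inj]
    simp only [hE, funext_iff, mulVec_diagonal, Pi.zero_apply]
    refine forall_congr' fun i => ?_
    split_ifs with h <;> simp [h, eq_comm]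
  refine ⟨U * E * Uᵀ, ⟨?_, hi, ?_⟩, hz⟩
  · rw [transpose_mul, transpose_mul, transpose_transpose, hE, diagonal_transpose,
      Matrix.mul_assoc]
  · have hp : LinearMap.IsProj (LinearMap.ker B.mulVecLin) (toLin' (U * E * Uᵀ)) :=
      ⟨fun x => (hz _).1 (by rw [toLin'_apply, mulVec_mulVec, hi]), fun x hx => (hz x).2 hx⟩
    rw [← trace_toLin'_eq, hp.trace, nul]

theorem proj_a_spec {Q : Mat m} (h : IsPr Q k) : k ≤ m ∧ ∀ c : ℝ,
    (c • Q + (1 - Q)).det = c ^ k := by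
  obtain ⟨d, hd, ht, e⟩ := schur_ha_spec h.symm h.idem
  have e1 : ∑ i, d i = ∑ i, if d i = 1 then (1 : ℝ) else 0 :=
    Finset.sum_congr rfl fun i _ => by rcases hd i with h | h <;> simp [h]
  rw [h.tr, e1, Finset.sum_boole, Nat.cast_inj] at ht
  refine ⟨ht ▸ (Finset.card_filter_le _ _).trans (by simp), fun c => ?_⟩
  have e2 := e c 1
  rw [one_smul] at e2
  rw [e2, ht, ← Finset.prod_const, Finset.prod_filter]
  exact Finset.prod_congr rfl fun i _ => by rcases hd i with h | h <;> simp [h]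

theorem IsPr.le {Q : Mat m} (h : IsPr Q k) : k ≤ m := (proj_a_spec h).1

theorem det_scale {Q : Mat m} (h : IsPr Q k) (c : ℝ) : (c • Q + (1 - Q)).det = c ^ k :=
  (proj_a_spec h).2 c

theorem det_mono {X Y : Mat m} (hX : X.PosDef) (h : (Y - X).PosSemidef) : X.det ≤ Y.det := by
  have hY : Y.PosDef := by simpa using hX.add_posSemidef h
  obtain ⟨B, hB, e⟩ := schur_ha_sqrt hY.inv
  have h1 := trace_mul_ge hX hY.inv one_pos
  have h2 : 0 ≤ ((Y - X) * Y⁻¹).trace := by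
    have := (h.mul_mul_conjTranspose_same B).trace_nonneg
    rw [conjTranspose_eq_transpose_of_trivial] at this
    rwa [e, ← Matrix.mul_assoc, trace_mul_cycle]
  rw [Matrix.sub_mul, trace_sub, mul_nonsing_inv _ (isUnit_iff_ne_zero.2 hY.det_pos.ne'),
    trace_one, Fintype.card_fin] at h2
  rw [det_nonsing_inv, Ring.inverse_eq_inv', Real.log_inv, Real.log_one] at h1
  exact (Real.log_le_log_iff hX.det_pos hY.det_pos).1 (by linarith)

end Vale.Agent.P231
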