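import Vale.Agent.P231.M.ProjA

/-!
# Projectors: onto a kernel, onto a moving range; a determinant inequality  (TASK)

`exists_pr`: take an orthonormal basis `b : Fin k → EuclideanSpace ℝ (Fin m)` of the kernel (`stdOrthonormalBasis` of the kernel of `toEuclideanLin B`, or
`Submodule.starProjection` and `LinearMap.toMatrix`, `LinearMap.IsProj.trace`), `Q = ∑ i, vecMulVec (b i) (b i)`.
`mv J Q0 = J N⁻¹ Jᵀ` with `N = Jᵀ J + (1 - Q0)`; `N` is positive definite (`x ⬝ N x = |J x|² + |(1 - Q0) x|²`), commutes with `Q0` (`J Q0 = J`), `Jᵀ J = N Q0`,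
so `N⁻¹ Jᵀ J = Q0`; this gives idempotence, `mv J = J`, trace `tr (N⁻¹ Jᵀ J) = k`.
`det_scale`: `det (c Q + (1 - Q)) = c ^ k` (eigenvalues of `Q` are `0, 1`; or `Matrix.det_one_add_mul_comm` with a rank factorisation; or induction-free via the
spectral theorem `IsHermitian.spectral_theorem`).  `det_mono`: `0 < X ≤ Y` gives `det X ≤ det Y` (write `X = Bᵀ B`, eigenvalues of `B⁻¹ᵀ Y B⁻¹` are `≥ 1`).
`red_det`: `Q, Q'` the moving projectors of `J, J'`, `g = (1 - Q) + J Jᵀ`, `g' = (1 - Q') + J' J'ᵀ`, `Â = (1-Q) A (1-Q') + c J J'ᵀ`.  `g'⁻¹ (1 - Q') = 1 - Q'` and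
`J'ᵀ g'⁻¹ J' = Q0` (since `g' (J' N'⁻¹) = J'`, i.e. `g'⁻¹ J' = J' N'⁻¹`), so `Â g'⁻¹ Âᵀ = (1-Q) A (1-Q') Aᵀ (1-Q) + c² J Jᵀ ≤ (1-Q) A Aᵀ (1-Q) + c² J Jᵀ
= cmp Q (A Aᵀ) * g * (c² Q + (1 - Q))`; take determinants (`det_mono`, `det_scale`, `cmp_posDef`) and logarithms.  This file holds one portion of the plan above.  Prefix helper names by `proj_b_`.
-/

namespace Vale.Agent.P231

open Matrix Real Filter Topology Set

variable {m k : ℕ}

variable {J J' Q0 : Mat m}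

theorem proj_b_pd {P A : Mat m} (hs : Pᵀ = P) (hi : P * P = P)
    (h : ∀ x, A *ᵥ x = 0 → P *ᵥ x = 0 → x = 0) : (Aᵀ * A + P).PosDef := by
  refine PosDef.of_dotProduct_mulVec_pos ?_ fun x hx0 => ?_
  · simp only [IsHermitian, conjTranspose_eq_transpose_of_trivial, transpose_add, transpose_mul,
      transpose_transpose, hs]
  · have e1 : x ⬝ᵥ P *ᵥ x = (P *ᵥ x) ⬝ᵥ (P *ᵥ x) := by
      rw [dotProduct_mulVec (P *ᵥ x), ← mulVec_transpose, hs, mulVec_mulVec, hi, dotProduct_comm]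
    have e2 : x ⬝ᵥ (Aᵀ * A) *ᵥ x = (A *ᵥ x) ⬝ᵥ (A *ᵥ x) := by
      rw [← mulVec_mulVec, dotProduct_mulVec x, vecMul_transpose]
    rw [star_trivial, add_mulVec, dotProduct_add, e1, e2]
    have n1 : 0 ≤ (P *ᵥ x) ⬝ᵥ (P *ᵥ x) := Finset.sum_nonneg fun i _ => mul_self_nonneg _
    have n2 : 0 ≤ (A *ᵥ x) ⬝ᵥ (A *ᵥ x) := Finset.sum_nonneg fun i _ => mul_self_nonneg _
    refine lt_of_le_of_ne (add_nonneg n2 n1) fun e => hx0 (h x ?_ ?_)
    · exact dotProduct_self_eq_zero.1 (by linarith)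
    · exact dotProduct_self_eq_zero.1 (by linarith)

theorem Adm.posDef_N (h : Adm J Q0) (hQ : IsPr Q0 k) : (Jᵀ * J + (1 - Q0)).PosDef := by
  obtain ⟨c1, c2, -, -⟩ := schur_hb_c hQ.symm hQ.idem
  refine proj_b_pd c1 c2 fun x h1 h2 => ?_
  rwa [sub_mulVec, one_mulVec, h.inj x h1, sub_zero] at h2

theorem proj_b_key (h : Adm J Q0) (hQ : IsPr Q0 k) :
    Q0 * Jᵀ = Jᵀ ∧ (Jᵀ * J + (1 - Q0))⁻¹ * (Jᵀ * J) = Q0 ∧
      Jᵀ * J * (Jᵀ * J + (1 - Q0))⁻¹ = Q0 := by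
  obtain ⟨-, -, c3, c4⟩ := schur_hb_c hQ.symm hQ.idem
  have hu := isUnit_iff_ne_zero.2 (h.posDef_N hQ).det_pos.ne'
  have e0 : Q0 * Jᵀ = Jᵀ := by
    rw [← hQ.symm, ← transpose_mul, h.mul]
  have e1 : (Jᵀ * J + (1 - Q0)) * Q0 = Jᵀ * J := by
    rw [Matrix.add_mul, c4, add_zero, Matrix.mul_assoc, h.mul]
  have e2 : Q0 * (Jᵀ * J + (1 - Q0)) = Jᵀ * J := by
    rw [Matrix.mul_add, c3, add_zero, ← Matrix.mul_assoc, e0]
  refine ⟨e0, ?_, ?_⟩
  · nth_rewrite 2 [← e1]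
    rw [← Matrix.mul_assoc, nonsing_inv_mul _ hu, Matrix.one_mul]
  · nth_rewrite 1 [← e2]
    rw [Matrix.mul_assoc, mul_nonsing_inv _ hu, Matrix.mul_one]

theorem Adm.mv_mul (h : Adm J Q0) (hQ : IsPr Q0 k) : mv J Q0 * J = J := by
  rw [mv, Matrix.mul_assoc, Matrix.mul_assoc, (proj_b_key h hQ).2.1, h.mul]

theorem Adm.isPr (h : Adm J Q0) (hQ : IsPr Q0 k) : IsPr (mv J Q0) k := by
  refine ⟨?_, ?_, ?_⟩
  · have e : (Jᵀ * J + (1 - Q0))ᵀ = Jᵀ * J + (1 - Q0) := by simpa using (h.posDef_N hQ).1.eq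
    rw [mv, transpose_mul, transpose_mul, transpose_transpose, transpose_nonsing_inv, e,
      Matrix.mul_assoc]
  · nth_rewrite 2 [mv]
    rw [← Matrix.mul_assoc, ← Matrix.mul_assoc, h.mv_mul hQ, mv]
  · rw [mv, trace_mul_cycle, (proj_b_key h hQ).2.2, hQ.tr]

theorem Adm.posDef_g (h : Adm J Q0) (hQ : IsPr Q0 k) : (1 - mv J Q0 + J * Jᵀ).PosDef := by
  obtain ⟨c1, c2, -, -⟩ := schur_hb_c (h.isPr hQ).symm (h.isPr hQ).idem
  have := proj_b_pd (A := Jᵀ) c1 c2 fun x h1 h2 => by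
    rwa [sub_mulVec, one_mulVec, mv, ← mulVec_mulVec, h1, mulVec_zero, sub_zero] at h2
  rwa [transpose_transpose, add_comm] at this

theorem mv_orth {W : Mat m} (hW : W * Wᵀ = 1) (J Q0 : Mat m) :
    mv (W * J) Q0 = W * mv J Q0 * Wᵀ := by
  have e : (W * J)ᵀ * (W * J) = Jᵀ * J := by
    rw [transpose_mul, Matrix.mul_assoc, ← Matrix.mul_assoc Wᵀ, mul_eq_one_comm.1 hW,
      Matrix.one_mul]
  rw [mv, mv, e, transpose_mul]
  simp only [Matrix.mul_assoc]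

theorem mv_smul (hQ : IsPr Q0 k) {c : ℝ} (hc : c ≠ 0) : mv (c • Q0) Q0 = Q0 := by
  have h : Adm (c • Q0) Q0 := ⟨by rw [Matrix.smul_mul, hQ.idem], fun z hz => by
    rw [smul_mulVec] at hz; exact (smul_eq_zero.1 hz).resolve_left hc⟩
  have e1 := h.mv_mul hQ
  rw [Matrix.mul_smul] at e1
  have e2 := smul_right_injective _ hc e1
  have e2' : mv (c • Q0) Q0 * Q0 = Q0 := e2
  have e3 : (c • Q0)ᵀ * Q0 = (c • Q0)ᵀ := by
    rw [transpose_smul, hQ.symm, Matrix.smul_mul, hQ.idem]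
  rwa [mv, Matrix.mul_assoc, e3] at e2'

theorem exists_mv_deriv {J J1 : ℝ → Mat m} (hQ : IsPr Q0 k) (h : ∀ t, Adm (J t) Q0)
    (hd : ∀ t, MD J (J1 t) t) (hc : Continuous J1) :
    ∃ Q1 : ℝ → Mat m, (∀ t, MD (fun s => mv (J s) Q0) (Q1 t) t) ∧ Continuous Q1 := by
  have cJ : Continuous J := continuous_iff_continuousAt.2 fun t => (hd t).continuousAt
  have hN := fun t => ((h t).posDef_N hQ).det_pos.ne'
  have cN : Continuous fun t => ((J t)ᵀ * J t + (1 - Q0))⁻¹ :=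
    continuous_iff_continuousAt.2 fun t => continuousAt_inv_mat
      ((cJ.matrix_transpose.matrix_mul cJ).add continuous_const).continuousAt (hN t)
  refine ⟨_, fun t => (((hd t).mul (MD.inv (((hd t).transpose.mul (hd t)).add
    (MD.const (1 - Q0) t)) (hN t))).mul (hd t).transpose), ?_⟩
  exact (((hc.matrix_mul cN).add (cJ.matrix_mul ((cN.matrix_mul
    (((hc.matrix_transpose.matrix_mul cJ).add (cJ.matrix_transpose.matrix_mul hc)).add
      continuous_const)).matrix_mul cN).neg)).matrix_mul cJ.matrix_transpose).add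
    ((cJ.matrix_mul cN).matrix_mul hc.matrix_transpose)

end Vale.Agent.P231
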