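import Vale.Agent.P231.M.RealC

/-!
# One-variable analysis: parametric integrals, maximum principle, division by `sin 2t`  (TASK)

`par_deriv`: `intervalIntegral.hasDerivAt_integral_of_dominated_loc_of_deriv_le` on a small ball around `τ` whose closure lies in `Ioo a b`;
the bound is a constant (`IsCompact.exists_bound_of_continuousOn` on `closedBall τ ε ×ˢ uIcc c d`).
`par_cont`: `intervalIntegral.continuousWithinAt_of_dominated_interval`-type lemma, or extend `F` by `F (max 0 (min τ (δ/2)))` and use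
`intervalIntegral.continuous_parametric_intervalIntegral_of_continuous'`.
`max_principle`: if `w τ₀ < 0` choose `a' < τ₀ < b'` in `Ioo a b` with `w a', w b' > w τ₀`; a minimum point `p` of `w` on `[a', b']` is interior with
`w p < 0`, so `w1 p = 0` (`IsLocalMin.hasDerivAt_eq_zero`) and `w2 p < 0`; then `w1 < 0` just right of `p` (slope of `w1` at `p`), so `w` decreases
there (`strictAntiOn_of_deriv_neg` or the mean value theorem), contradiction.
`exists_div`: near a zero `p = j π / 2` write `f t = (t - p) F t` with `F t = ∫ r in 0..1, f1 (p + r (t - p))`, which is `C¹` with derivative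
`∫ r in 0..1, r * f2 (p + r (t - p))` (`par_deriv`), and `sin (2 t) = (t - p) G t` likewise with `G ≠ 0` on `|t - p| < π / 2`.  Define
`h t = if sin (2 t) = 0 then f1 t / (2 cos (2 t)) else f t / sin (2 t)`; it equals `F / G` near `p` and `f / sin (2 ·)` near other points, so it is
locally `C¹` (`ContDiffAt ℝ 1`), take `h1 = deriv h`.  This file holds one portion of the plan above.  Prefix helper names by `real_d_`.
-/

namespace Vale.Agent.P231

open Real Filter Topology Set

/-- Shifting the period interval. -/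
theorem per_shift {f : ℝ → ℝ} (hf : ∀ t, f (t + π) = f t) (τ : ℝ) :
    ∫ t in (0 : ℝ)..π, f (t + τ) = ∫ t in (0 : ℝ)..π, f t := by
  have h := Function.Periodic.intervalIntegral_add_eq (f := f) (T := π) hf τ 0
  rw [intervalIntegral.integral_comp_add_right, zero_add, add_comm π τ, h, zero_add]

/-- If `H' = -h` near `π / 2` and `H (π / 2 - ε) ≥ -K (1 / ε + ρ ε)` then `cos² h` is frequently below `K + δ`
(otherwise `H + (K + δ) / (π / 2 - τ)` is antitone because `cos τ ≤ π / 2 - τ`, which contradicts the lower bound as `ε → 0`). -/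
theorem blow_freq {H h : ℝ → ℝ} {K ρ : ℝ} (hd : ∀ τ ∈ Ioo 0 (π / 2), HasDerivAt H (-h τ) τ)
    (hb : ∀ ε ∈ Ioo 0 (π / 2), -(K * (1 / ε + ρ * ε)) ≤ H (π / 2 - ε)) {δ : ℝ} (hδ : 0 < δ)
    (hK : 0 ≤ K) : ∃ᶠ τ in 𝓝[<] (π / 2), cos τ ^ 2 * h τ < K + δ := by
  by_contra hn
  rw [not_frequently] at hn
  obtain ⟨a, ha, hs⟩ := (mem_nhdsLT_iff_exists_Ioo_subset).1
    (hn.and (Ioo_mem_nhdsLT Real.pi_div_two_pos))
  obtain ⟨b, hb1, hb2⟩ := exists_between (show a < π / 2 from ha)
  have hanti : AntitoneOn (fun τ => H τ + (K + δ) / (π / 2 - τ)) (Ioo a (π / 2)) := by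
    have key : ∀ τ ∈ Ioo a (π / 2), HasDerivAt (fun τ => H τ + (K + δ) / (π / 2 - τ))
        (-h τ + (K + δ) / (π / 2 - τ) ^ 2) τ := fun τ hτ => by
      have h1 : π / 2 - τ ≠ 0 := (sub_pos.2 hτ.2).ne'
      refine (hd τ (hs hτ).2).fun_add (((hasDerivAt_const τ (K + δ)).fun_div
        ((hasDerivAt_id τ).const_sub (π / 2)) h1).congr_deriv ?_)
      simp
    refine antitoneOn_of_deriv_nonpos (convex_Ioo _ _)
      (fun τ hτ => (key τ hτ).continuousAt.continuousWithinAt)
      (fun τ hτ => (key τ (interior_subset hτ)).differentiableAt.differentiableWithinAt)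
      fun τ hτ => ?_
    rw [interior_Ioo] at hτ
    rw [(key τ hτ).deriv]
    have h1 := not_lt.1 (hs hτ).1
    have h2 : 0 < π / 2 - τ := sub_pos.2 hτ.2
    have h3 : 0 < cos τ := cos_pos_of_mem_Ioo ⟨by linarith [(hs hτ).2.1, pi_pos], hτ.2⟩
    have h4 : cos τ ≤ π / 2 - τ := by
      rw [← sin_pi_div_two_sub]
      exact sin_le h2.le
    have h5 : 0 < h τ := by
      by_contra h6
      nlinarith [sq_nonneg (cos τ)]
    have h6 : K + δ ≤ h τ * (π / 2 - τ) ^ 2 := by
      nlinarith [pow_le_pow_left₀ h3.le h4 2]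
    have h7 := (div_le_iff₀ (pow_pos h2 2)).2 h6
    linarith
  set B := H b + (K + δ) / (π / 2 - b) with hB
  have h0b := (hs ⟨hb1, hb2⟩).2.1
  have hev : ∀ᶠ ε in 𝓝[>] (0 : ℝ), δ ≤ ε * (B + K * ρ * ε) := by
    filter_upwards [Ioo_mem_nhdsGT (sub_pos.2 hb2)] with ε hε
    have h1 := hanti ⟨hb1, hb2⟩ (show π / 2 - ε ∈ Ioo a (π / 2) from
      ⟨by linarith [hε.2], by linarith [hε.1]⟩) (by linarith [hε.2])
    have h2 := hb ε ⟨hε.1, by linarith [hε.2]⟩
    simp only [sub_sub_cancel] at h1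
    have h3 : δ / ε ≤ B + K * ρ * ε := by
      have h4 : (K + δ) / ε = K * (1 / ε) + δ / ε := by ring
      linarith
    rw [div_le_iff₀ hε.1] at h3
    linarith
  have ht : Tendsto (fun ε : ℝ => ε * (B + K * ρ * ε)) (𝓝[>] 0) (𝓝 (0 * (B + K * ρ * 0))) :=
    (Continuous.tendsto (by fun_prop) 0).mono_left nhdsWithin_le_nhds
  have := ge_of_tendsto ht hev
  linarith

end Vale.Agent.P231
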