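import Mathlib

/-!
# One-variable analysis: parametric integrals, maximum principle, division by `sin 2t`  (TASK)

`par_deriv`: `intervalIntegral.hasDerivAt_integral_of_dominated_loc_of_deriv_le` on a small ball around `τ` whose closure lies in `Ioo a b`;
the bound is a constant (`IsCompact.exists_bound_of_continuousOn` on `closedBall τ ε ×ˢ uIcc c d`).
`par_cont`: `intervalIntegral.continuousWithinAt_of_dominated_interval`-type lemma, or extend `F` by `F (max 0 (min τ (δ/2)))` and use
`intervalIntegral.continuous_parametric_intervalIntegral_of_continuous'`.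
`max_principle`: if `w τ₀ < 0` choose `a' < τ₀ < b'` in `Ioo a b` with `w a', w b' > w τ₀`; a minimum point `p` of `w` on `[a', b']` is interior with
`w p < 0`, so `w1 p = 0` (`IsLocalMin.hasDerivAt_eq_zero`) and `w2 p < 0`; then `w1 < 0` just right of `p` (slope of `w1` at `p`), so `w` decreases
there (`strictAntiOn_of_deriv_neg` or the mean value theorem), contradiction.
`exists_div`: near a zero `p = j π / 2` write `f t = (t - p) F t` with `F t = ∫ r in 0..1, f1 (p + r (t - p))`, which is `C¹` with derivative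
`∫ r in 0..1, r * f2 (p + r (t - p))` (`par_deriv`), and `sin (2 t) = (t - p) G t` likewise with `G ≠ 0` on `|t - p| < π / 2`.  Define
`h t = if sin (2 t) = 0 then f1 t / (2 cos (2 t)) else f t / sin (2 t)`; it equals `F / G` near `p` and `f / sin (2 ·)` near other points, so it is
locally `C¹` (`ContDiffAt ℝ 1`), take `h1 = deriv h`.  This file holds one portion of the plan above.  Prefix helper names by `real_a_`.
-/

namespace Vale.Agent.P231

open Real Filter Topology Set

theorem par_deriv {f f' : ℝ → ℝ → ℝ} {a b c d τ : ℝ} (hτ : τ ∈ Ioo a b)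
    (hf : ContinuousOn (fun p : ℝ × ℝ => f p.1 p.2) (Ioo a b ×ˢ univ))
    (hf' : ContinuousOn (fun p : ℝ × ℝ => f' p.1 p.2) (Ioo a b ×ˢ univ))
    (hd : ∀ x ∈ Ioo a b, ∀ t, HasDerivAt (fun y => f y t) (f' x t) x) :
    HasDerivAt (fun x => ∫ t in c..d, f x t) (∫ t in c..d, f' τ t) τ := by
  obtain ⟨ε, hε, hb⟩ := Metric.nhds_basis_closedBall.mem_iff.1 (isOpen_Ioo.mem_nhds hτ)
  have hc : ∀ {F : ℝ → ℝ → ℝ}, ContinuousOn (fun p : ℝ × ℝ => F p.1 p.2) (Ioo a b ×ˢ univ) →
      ∀ x ∈ Ioo a b, Continuous (F x) := fun h x hx =>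
    h.comp_continuous (f := fun t => (x, t)) (Continuous.prodMk_right x) fun t => ⟨hx, mem_univ t⟩
  obtain ⟨K, hK⟩ := ((isCompact_closedBall τ ε).prod (isCompact_uIcc (a := c) (b := d))).exists_bound_of_continuousOn
    (hf'.mono (prod_mono hb (subset_univ _)))
  refine (intervalIntegral.hasDerivAt_integral_of_dominated_loc_of_deriv_le
    (s := Metric.closedBall τ ε) (bound := fun _ => K) (Metric.closedBall_mem_nhds τ hε) ?_
    ((hc hf τ hτ).intervalIntegrable c d) (hc hf' τ hτ).aestronglyMeasurable ?_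
    intervalIntegrable_const ?_).2
  · filter_upwards [isOpen_Ioo.mem_nhds hτ] with x hx
    exact (hc hf x hx).aestronglyMeasurable
  · exact Eventually.of_forall fun t ht x hx => hK (x, t) ⟨hx, uIoc_subset_uIcc ht⟩
  · exact Eventually.of_forall fun t _ x hx => hd x (hb hx) t

theorem par_cont {F : ℝ → ℝ → ℝ} {δ c d : ℝ} (hδ : 0 < δ)
    (hF : ContinuousOn (fun p : ℝ × ℝ => F p.1 p.2) (Ico 0 δ ×ˢ univ)) :
    Tendsto (fun x => ∫ t in c..d, F x t) (𝓝[>] 0) (𝓝 (∫ t in c..d, F 0 t)) := by
  have h1 : Continuous fun p : ℝ × ℝ => F (max 0 (min p.1 (δ / 2))) p.2 :=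
    hF.comp_continuous (f := fun p : ℝ × ℝ => (max 0 (min p.1 (δ / 2)), p.2)) (by fun_prop)
      fun p => ⟨⟨le_max_left _ _, max_lt hδ ((min_le_right _ _).trans_lt (by linarith))⟩, mem_univ _⟩
  have h2 := (intervalIntegral.continuous_parametric_intervalIntegral_of_continuous'
    (μ := MeasureTheory.volume) (f := fun x t => F (max 0 (min x (δ / 2))) t) h1 c d).tendsto 0
  rw [min_eq_left (by linarith), max_self] at h2
  refine (h2.mono_left nhdsWithin_le_nhds).congr' ?_
  filter_upwards [Ioo_mem_nhdsGT (half_pos hδ)] with x hx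
  rw [min_eq_left hx.2.le, max_eq_right hx.1.le]

end Vale.Agent.P231
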