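import Vale.Agent.P231.M.RealA

/-!
# One-variable analysis: parametric integrals, maximum principle, division by `sin 2t`  (TASK)

`par_deriv`: `intervalIntegral.hasDerivAt_integral_of_dominated_loc_of_deriv_le` on a small ball around `τ` whose closure lies in `Ioo a b`;
the bound is a constant (`IsCompact.exists_bound_of_continuousOn` on `closedBall τ ε ×ˢ uIcc c d`).
`par_cont`: `intervalIntegral.continuousWithinAt_of_dominated_interval`-type lemma, or extend `F` by `F (max 0 (min τ (δ/2)))` and use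
`intervalIntegral.continuous_parametric_intervalIntegral_of_continuous'`.
`max_principle`: if `w τ₀ < 0` choose `a' < τ₀ < b'` in `Ioo a b` with `w a', w b' > w τ₀`; a minimum point `p` of `w` on `[a', b']` is interior with
`w p < 0`, so `w1 p = 0` (`IsLocalMin.hasDerivAt_eq_zero`) and `w2 p < 0`; then `w1 < 0` just right of `p` (slope of `w1` at `p`), so `w` decreases
there (`strictAntiOn_of_deriv_neg` or the mean value theorem), contradiction.
`exists_div`: near a zero `p = j π / 2` write `f t = (t - p) F t` with `F t = ∫ r in 0..1, f1 (p + r (t - p))`, which is `C¹` with derivative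
`∫ r in 0..1, r * f2 (p + r (t - p))` (`par_deriv`), and `sin (2 t) = (t - p) G t` likewise with `G ≠ 0` on `|t - p| < π / 2`.  Define
`h t = if sin (2 t) = 0 then f1 t / (2 cos (2 t)) else f t / sin (2 t)`; it equals `F / G` near `p` and `f / sin (2 ·)` near other points, so it is
locally `C¹` (`ContDiffAt ℝ 1`), take `h1 = deriv h`.  This file holds one portion of the plan above.  Prefix helper names by `real_b_`.
-/

namespace Vale.Agent.P231

open Real Filter Topology Set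

theorem max_principle {w w1 w2 c : ℝ → ℝ} {a b : ℝ}
    (h1 : ∀ τ ∈ Ioo a b, HasDerivAt w (w1 τ) τ) (h2 : ∀ τ ∈ Ioo a b, HasDerivAt w1 (w2 τ) τ)
    (hc : ∀ τ ∈ Ioo a b, 0 < c τ) (hw : ∀ τ ∈ Ioo a b, w2 τ ≤ c τ * w τ)
    (ha : ∀ ε > 0, ∃ᶠ τ in 𝓝[>] a, -ε < w τ) (hb : ∀ ε > 0, ∃ᶠ τ in 𝓝[<] b, -ε < w τ) :
    ∀ τ ∈ Ioo a b, 0 ≤ w τ := by
  intro τ₀ hτ₀
  by_contra hn
  rw [not_le] at hn
  obtain ⟨a', ha1, ha2⟩ := ((ha (-w τ₀) (by linarith)).and_eventually (Ioo_mem_nhdsGT hτ₀.1)).exists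
  obtain ⟨b', hb1, hb2⟩ := ((hb (-w τ₀) (by linarith)).and_eventually (Ioo_mem_nhdsLT hτ₀.2)).exists
  rw [neg_neg] at ha1 hb1
  have hsub : Icc a' b' ⊆ Ioo a b := fun x hx => ⟨ha2.1.trans_le hx.1, hx.2.trans_lt hb2.2⟩
  obtain ⟨p, hp, hmin⟩ := isCompact_Icc.exists_isMinOn ⟨τ₀, ha2.2.le, hb2.1.le⟩
    (fun x hx => (h1 x (hsub hx)).continuousAt.continuousWithinAt : ContinuousOn w (Icc a' b'))
  have hp0 : w p ≤ w τ₀ := hmin ⟨ha2.2.le, hb2.1.le⟩
  have hpa : a' < p := lt_of_le_of_ne hp.1 fun h => by rw [← h] at hp0; linarith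
  have hpb : p < b' := lt_of_le_of_ne hp.2 fun h => by rw [h] at hp0; linarith
  have h3 : w1 p = 0 :=
    (hmin.isLocalMin (Icc_mem_nhds hpa hpb)).hasDerivAt_eq_zero (h1 p (hsub hp))
  have h4 : w2 p < 0 :=
    (hw p (hsub hp)).trans_lt (mul_neg_of_pos_of_neg (hc p (hsub hp)) (hp0.trans_lt hn))
  have h5 : ∀ᶠ x in 𝓝[>] p, w1 x < 0 := by
    have h6 := (hasDerivAt_iff_tendsto_slope.1 (h2 p (hsub hp))).mono_left
      (nhdsGT_le_nhdsNE p) |>.eventually (gt_mem_nhds h4)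
    filter_upwards [h6, self_mem_nhdsWithin] with x hx hx'
    rw [slope_def_field, h3, sub_zero] at hx
    exact (div_neg_iff.1 hx).elim (fun h => absurd h.2 (by simpa using hx'.le)) fun h => h.1
  obtain ⟨q, hq, hq'⟩ := (mem_nhdsGT_iff_exists_Ioo_subset).1 (h5.and (Ioo_mem_nhdsGT hpb))
  obtain ⟨r, hr1, hr2⟩ := exists_between (show p < q from hq)
  have hrb : r < b' := (hq' ⟨hr1, hr2⟩).2.2
  have hs : Icc p r ⊆ Ioo a b := fun x hx => hsub ⟨hp.1.trans hx.1, hx.2.trans hrb.le⟩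
  obtain ⟨ξ, hξ, e⟩ := exists_hasDerivAt_eq_slope w w1 hr1
    (fun x hx => (h1 x (hs hx)).continuousAt.continuousWithinAt)
    fun x hx => h1 x (hs (Ioo_subset_Icc_self hx))
  have h7 := (hq' ⟨hξ.1, hξ.2.trans hr2⟩).1
  have h8 : w p ≤ w r := hmin ⟨hp.1.trans hr1.le, hrb.le⟩
  rw [e] at h7
  exact absurd h7 (not_lt.2 (div_nonneg (by linarith) (by linarith)))

end Vale.Agent.P231
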