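import Vale.Agent.P231.M.RealB

/-!
# One-variable analysis: parametric integrals, maximum principle, division by `sin 2t`  (TASK)

`par_deriv`: `intervalIntegral.hasDerivAt_integral_of_dominated_loc_of_deriv_le` on a small ball around `τ` whose closure lies in `Ioo a b`;
the bound is a constant (`IsCompact.exists_bound_of_continuousOn` on `closedBall τ ε ×ˢ uIcc c d`).
`par_cont`: `intervalIntegral.continuousWithinAt_of_dominated_interval`-type lemma, or extend `F` by `F (max 0 (min τ (δ/2)))` and use
`intervalIntegral.continuous_parametric_intervalIntegral_of_continuous'`.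
`max_principle`: if `w τ₀ < 0` choose `a' < τ₀ < b'` in `Ioo a b` with `w a', w b' > w τ₀`; a minimum point `p` of `w` on `[a', b']` is interior with
`w p < 0`, so `w1 p = 0` (`IsLocalMin.hasDerivAt_eq_zero`) and `w2 p < 0`; then `w1 < 0` just right of `p` (slope of `w1` at `p`), so `w` decreases
there (`strictAntiOn_of_deriv_neg` or the mean value theorem), contradiction.
`exists_div`: near a zero `p = j π / 2` write `f t = (t - p) F t` with `F t = ∫ r in 0..1, f1 (p + r (t - p))`, which is `C¹` with derivative
`∫ r in 0..1, r * f2 (p + r (t - p))` (`par_deriv`), and `sin (2 t) = (t - p) G t` likewise with `G ≠ 0` on `|t - p| < π / 2`.  Define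
`h t = if sin (2 t) = 0 then f1 t / (2 cos (2 t)) else f t / sin (2 t)`; it equals `F / G` near `p` and `f / sin (2 ·)` near other points, so it is
locally `C¹` (`ContDiffAt ℝ 1`), take `h1 = deriv h`.  This file holds one portion of the plan above.  Prefix helper names by `real_c_`.
-/

namespace Vale.Agent.P231

open Real Filter Topology Set

theorem real_c_one {f f1 : ℝ → ℝ} (h1 : ∀ t, HasDerivAt f (f1 t) t) (hc : Continuous f1) :
    ContDiff ℝ 1 f := by
  have e : deriv f = f1 := funext fun t => (h1 t).deriv
  exact contDiff_one_iff_deriv.2 ⟨fun t => (h1 t).differentiableAt, e ▸ hc⟩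

theorem real_c_had {f f1 f2 : ℝ → ℝ} (h1 : ∀ t, HasDerivAt f (f1 t) t)
    (h2 : ∀ t, HasDerivAt f1 (f2 t) t) (hc : Continuous f2) (p : ℝ) :
    ∃ F : ℝ → ℝ, ContDiff ℝ 1 F ∧ F p = f1 p ∧ ∀ t, f t - f p = (t - p) * F t := by
  have c1 : Continuous f1 := continuous_iff_continuousAt.2 fun t => (h2 t).continuousAt
  refine ⟨fun t => ∫ r in (0 : ℝ)..1, f1 (p + r * (t - p)), real_c_one
    (f1 := fun t => ∫ r in (0 : ℝ)..1, f2 (p + r * (t - p)) * r) (fun t => ?_) ?_, by simp,
    fun t => ?_⟩
  · refine par_deriv (f := fun t r => f1 (p + r * (t - p)))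
      (f' := fun t r => f2 (p + r * (t - p)) * r) (a := t - 1) (b := t + 1)
      ⟨by linarith, by linarith⟩ (Continuous.continuousOn (by fun_prop))
      (Continuous.continuousOn (by fun_prop)) fun x _ r => ?_
    have h3 : HasDerivAt (fun y : ℝ => p + r * (y - p)) r x :=
      ((((hasDerivAt_id x).sub_const p).const_mul r).const_add p).congr_deriv (mul_one r)
    exact (h2 _).comp x h3
  · exact intervalIntegral.continuous_parametric_intervalIntegral_of_continuous'
      (f := fun t r => f2 (p + r * (t - p)) * r) (by unfold Function.uncurry; fun_prop) 0 1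
  · have h4 := intervalIntegral.integral_eq_sub_of_hasDerivAt (a := 0) (b := 1)
      (f := fun r => f (p + r * (t - p))) (f' := fun r => f1 (p + r * (t - p)) * (t - p))
      (fun r _ => (h1 _).comp r
        ((((hasDerivAt_id r).mul_const (t - p)).const_add p).congr_deriv (one_mul _)))
      (Continuous.intervalIntegrable (by fun_prop) _ _)
    rw [intervalIntegral.integral_mul_const] at h4
    simp only [one_mul, zero_mul, add_zero, add_sub_cancel] at h4
    rw [← h4, mul_comm]

theorem exists_div {f f1 f2 : ℝ → ℝ} (h1 : ∀ t, HasDerivAt f (f1 t) t)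
    (h2 : ∀ t, HasDerivAt f1 (f2 t) t) (hc : Continuous f2)
    (h0 : ∀ t, sin (2 * t) = 0 → f t = 0) : ∃ h h1 : ℝ → ℝ, (∀ t, HasDerivAt h (h1 t) t) ∧
      Continuous h1 ∧ ∀ t, f t = sin (2 * t) * h t := by
  classical
  have hf : ContDiff ℝ 1 f := real_c_one h1
    (continuous_iff_continuousAt.2 fun t => (h2 t).continuousAt)
  have s1 : ∀ t : ℝ, HasDerivAt (fun t => sin (2 * t)) (2 * cos (2 * t)) t := fun t =>
    (((hasDerivAt_id t).const_mul 2).sin).congr_deriv (by simp [mul_comm])
  have s2 : ∀ t : ℝ, HasDerivAt (fun t => 2 * cos (2 * t)) (-4 * sin (2 * t)) t := fun t =>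
    ((((hasDerivAt_id t).const_mul 2).cos).const_mul 2).congr_deriv (by simp; ring)
  have hs : ContDiff ℝ 1 fun t : ℝ => sin (2 * t) := by fun_prop
  set h : ℝ → ℝ := fun t => if sin (2 * t) = 0 then f1 t / (2 * cos (2 * t)) else
    f t / sin (2 * t) with hh
  have key : ContDiff ℝ 1 h := by
    refine contDiff_iff_contDiffAt.2 fun p => ?_
    by_cases hp : sin (2 * p) = 0
    · obtain ⟨F, F1, F2, F3⟩ := real_c_had h1 h2 hc p
      obtain ⟨G, G1, G2, G3⟩ := real_c_had s1 s2 (by fun_prop) p
      have hG : G p ≠ 0 := by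
        rw [G2]
        have := sin_sq_add_cos_sq (2 * p)
        intro h
        have h' : cos (2 * p) = 0 := by linarith
        rw [hp, h'] at this
        norm_num at this
      refine (F1.contDiffAt.div G1.contDiffAt hG).congr_of_eventuallyEq ?_
      filter_upwards [G1.continuous.continuousAt.eventually_ne hG] with t ht
      by_cases htp : t = p
      · subst htp
        simp only [hh, hp, if_true, Pi.div_apply, F2, G2]
      · have e1 := F3 t
        have e2 := G3 t
        rw [h0 p hp, sub_zero] at e1
        rw [hp, sub_zero] at e2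
        have e3 : t - p ≠ 0 := sub_ne_zero.2 htp
        have e4 : sin (2 * t) ≠ 0 := by
          rw [e2]
          exact mul_ne_zero e3 ht
        simp only [hh, e4, if_false, Pi.div_apply]
        rw [e1, e2, mul_div_mul_left _ _ e3]
    · refine (hf.contDiffAt.div hs.contDiffAt hp).congr_of_eventuallyEq ?_
      filter_upwards [hs.continuous.continuousAt.eventually_ne hp] with t ht
      simp only [hh, ht, if_false, Pi.div_apply]
  obtain ⟨k1, k2⟩ := contDiff_one_iff_deriv.1 key
  refine ⟨h, deriv h, fun t => (k1 t).hasDerivAt, k2, fun t => ?_⟩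
  by_cases ht : sin (2 * t) = 0
  · rw [h0 t ht, ht, zero_mul]
  · simp only [hh, ht, if_false]
    field_simp

end Vale.Agent.P231
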