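import Vale.Agent.P231.M.RedB

/-!
# The reduced loop  (TASK)

`exists_J`: `Q0` projects onto `ker S(π/2)`.  The entries of `S(t) Q0` are `C²` (`dS`, `dS1`, `cR`) and vanish where `sin 2t = 0` (`t = j π / 2`: `S 0 = 0`,
`S(π/2) Q0 = 0`, `SPer`, integer induction in both directions, `P` invertible); `exists_div` entrywise gives `J`.  `J Q0 = J` and `J(t+π) = P J(t)` hold where `sin 2t ≠ 0`, hence
everywhere (continuity, density; or differentiate `S Q0 = sin (2t) J` at the zeros: `S1 Q0 = 2 cos (2t) J` there).  Injectivity: where `sin 2t ≠ 0`, `S t` is invertible (`tv_S` and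
periodicity, reduce `t` mod `π`); at the zeros `J z = 0` gives `S Q0 z = 0 = S1 Q0 z`, so `Q0 z = 0` by `wCS`.  `J 0 = (1/2) Q0` from `S1 0 = 1`.
`red_pr`: expand `om`; with `Q = mv (J t) Q0`: `(1 - Q) J = 0`, `(1 - Q) S(t) Q0 = 0`, `J (1 - Q0) = 0`, `cos`/`sin` addition formula.
`red_loop`: derivatives by `exists_mv_deriv`, `MD.*`; `gm` is the `t`-derivative of `pr` at `s = t` (`MD.om`, `MD.unique` with `red_pr`), equal to `(1-Q) + J Jᵀ` because
`pr C S t t = 0`, `gm C S = 1`; `per` with `W = P (1 - 2 Q(t))` (`mv_orth`); `perg`: conjugation by `P`.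
`red_tv`: if `Â(t,0) y = 0`, multiply by `Q(t)` and `1 - Q(t)`: `sin t • J(t) J(0)ᵀ y = 0` gives `Q0 y = 0`, and `S(t) y = J(t) z` for some `z`.  For `t ≠ π/2`:
`S(t) (y - Q0 z / sin 2t) = 0`, so `y = Q0 y = 0`.  For `t = π / 2`: `J = -(1/2) S1 Q0`, `|S y|² = (S y) ⬝ J z = 0` by `wS` and `S Q0 = 0`, so `Q0 y = y`.
This file holds one portion of the plan above.  Prefix helper names by `red_hc_`.
-/

namespace Vale.Agent.P231

open Matrix Real Filter Topology Set

variable {m k : ℕ} {R C S C1 S1 J J1 : ℝ → Mat m} {P Q0 : Mat m}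

theorem red_tv (h : Sys R C S C1 S1) (hP : SPer C S P) (hT : Tv C S (π / 2))
    (hK : KD S J J1 P Q0 k) (t : ℝ) (h0 : 0 < t) (h1 : t < π) :
    (pr (redC C J Q0) (redS S J Q0) t 0).det ≠ 0 := by
  have hs : sin t ≠ 0 := (sin_pos_of_pos_of_lt_pi h0 h1).ne'
  have hQ := (hK.adm t).isPr hK.pr0
  have e : pr (redC C J Q0) (redS S J Q0) t 0 =
      (1 - mv (J t) Q0) * S t + (sin t * (1 / 2)) • J t := by
    rw [red_pr hK, h.pr_zero, hK.zero, mv_smul hK.pr0 (by norm_num), red_hb_ESF hK, sub_zero,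
      transpose_smul, hK.pr0.symm, Matrix.mul_smul, (hK.adm t).mul, smul_smul]
  rw [e]
  intro hd
  obtain ⟨y, hy0, hy⟩ := exists_mulVec_eq_zero_iff.2 hd
  have q1 : mv (J t) Q0 * (1 - mv (J t) Q0) = 0 := by
    rw [Matrix.mul_sub, Matrix.mul_one, hQ.idem, sub_self]
  have hJ : J t *ᵥ y = 0 := by
    have := congrArg (fun z => mv (J t) Q0 *ᵥ z) hy
    simp only [mulVec_mulVec, Matrix.mul_add, ← Matrix.mul_assoc, q1, Matrix.zero_mul, zero_add,
      Matrix.mul_smul, (hK.adm t).mv_mul hK.pr0, smul_mulVec, mulVec_zero] at this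
    exact (smul_eq_zero.1 this).resolve_left (mul_ne_zero hs (by norm_num))
  have hQy : Q0 *ᵥ y = 0 := (hK.adm t).inj y hJ
  obtain ⟨z, hz⟩ : ∃ z, S t *ᵥ y = J t *ᵥ z := by
    rw [add_mulVec, smul_mulVec, hJ, smul_zero, add_zero, ← mulVec_mulVec, sub_mulVec, one_mulVec,
      sub_eq_zero] at hy
    refine ⟨(((J t)ᵀ * J t + (1 - Q0))⁻¹ * (J t)ᵀ) *ᵥ (S t *ᵥ y), ?_⟩
    rw [mulVec_mulVec (S t *ᵥ y), ← Matrix.mul_assoc]
    exact hy
  by_cases ht : t = π / 2
  · have hs2 : sin (2 * t) = 0 := by rw [ht, mul_div_cancel₀ _ two_ne_zero, sin_pi]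
    have hc2 : cos (2 * t) = -1 := by rw [ht, mul_div_cancel₀ _ two_ne_zero, cos_pi]
    have d := red_ha_der h hK.dJ hK.eq t
    rw [hs2, hc2, zero_smul, add_zero] at d
    have e0 : S t * Q0 = 0 := by rw [hK.eq, hs2, zero_smul]
    have e1 : (S t)ᵀ * J t = 0 := by
      have : (2 * -1 : ℝ) • ((S t)ᵀ * J t) = 0 := by
        rw [← Matrix.mul_smul, ← d, ← Matrix.mul_assoc, h.wS, Matrix.mul_assoc, e0,
          Matrix.mul_zero]
      exact (smul_eq_zero.1 this).resolve_left (by norm_num)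
    have e2 : S t *ᵥ y = 0 := by
      refine dotProduct_self_eq_zero.1 ?_
      nth_rewrite 2 [hz]
      rw [dotProduct_mulVec, ← vecMul_transpose, vecMul_vecMul, e1]
      simp
    rw [ht] at e2
    exact hy0 (by rw [← (hK.ker y).2 e2, hQy])
  · have hd2 := h.tv_S hP hT h0 h1 ht
    have hs2 : sin (2 * t) ≠ 0 := by
      rw [sin_two_mul]
      refine mul_ne_zero (mul_ne_zero two_ne_zero hs) fun hc => ht ?_
      exact injOn_cos ⟨h0.le, h1.le⟩ ⟨by positivity, by linarith [pi_pos]⟩ (by rw [hc, cos_pi_div_two])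
    have e1 : Q0 *ᵥ z - sin (2 * t) • y = 0 := by
      refine eq_zero_of_mulVec_eq_zero hd2 ?_
      rw [mulVec_sub, mulVec_mulVec, hK.eq, smul_mulVec, mulVec_smul, hz, sub_self]
    have e2 := congrArg (fun z => Q0 *ᵥ z) e1
    simp only [mulVec_sub, mulVec_mulVec, hK.pr0.idem, mulVec_smul, hQy, smul_zero, sub_zero,
      mulVec_zero] at e2
    rw [e2, zero_sub, neg_eq_zero] at e1
    exact hy0 ((smul_eq_zero.1 e1).resolve_left hs2)

end Vale.Agent.P231
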