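import Vale.Agent.P231.M.Sys
import Vale.Agent.P231.M.Proj
import Vale.Agent.P231.M.Real

/-!
# The reduced loop  (TASK)

`exists_J`: `Q0` projects onto `ker S(π/2)`.  The entries of `S(t) Q0` are `C²` (`dS`, `dS1`, `cR`) and vanish where `sin 2t = 0` (`t = j π / 2`: `S 0 = 0`,
`S(π/2) Q0 = 0`, `SPer`, integer induction in both directions, `P` invertible); `exists_div` entrywise gives `J`.  `J Q0 = J` and `J(t+π) = P J(t)` hold where `sin 2t ≠ 0`, hence
everywhere (continuity, density; or differentiate `S Q0 = sin (2t) J` at the zeros: `S1 Q0 = 2 cos (2t) J` there).  Injectivity: where `sin 2t ≠ 0`, `S t` is invertible (`tv_S` and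
periodicity, reduce `t` mod `π`); at the zeros `J z = 0` gives `S Q0 z = 0 = S1 Q0 z`, so `Q0 z = 0` by `wCS`.  `J 0 = (1/2) Q0` from `S1 0 = 1`.
`red_pr`: expand `om`; with `Q = mv (J t) Q0`: `(1 - Q) J = 0`, `(1 - Q) S(t) Q0 = 0`, `J (1 - Q0) = 0`, `cos`/`sin` addition formula.
`red_loop`: derivatives by `exists_mv_deriv`, `MD.*`; `gm` is the `t`-derivative of `pr` at `s = t` (`MD.om`, `MD.unique` with `red_pr`), equal to `(1-Q) + J Jᵀ` because
`pr C S t t = 0`, `gm C S = 1`; `per` with `W = P (1 - 2 Q(t))` (`mv_orth`); `perg`: conjugation by `P`.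
`red_tv`: if `Â(t,0) y = 0`, multiply by `Q(t)` and `1 - Q(t)`: `sin t • J(t) J(0)ᵀ y = 0` gives `Q0 y = 0`, and `S(t) y = J(t) z` for some `z`.  For `t ≠ π/2`:
`S(t) (y - Q0 z / sin 2t) = 0`, so `y = Q0 y = 0`.  For `t = π / 2`: `J = -(1/2) S1 Q0`, `|S y|² = (S y) ⬝ J z = 0` by `wS` and `S Q0 = 0`, so `Q0 y = y`.
This file holds one portion of the plan above.  Prefix helper names by `red_ha_`.
-/

namespace Vale.Agent.P231

open Matrix Real Filter Topology Set

variable {m k : ℕ} {R C S C1 S1 J J1 : ℝ → Mat m} {P Q0 : Mat m}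

/-- The normalised fields of the kernel. -/
structure KD (S J J1 : ℝ → Mat m) (P Q0 : Mat m) (k : ℕ) : Prop where
  pr0 : IsPr Q0 k
  ker : ∀ z, Q0 *ᵥ z = z ↔ S (π / 2) *ᵥ z = 0
  dJ : ∀ t, MD J (J1 t) t
  cJ1 : Continuous J1
  eq : ∀ t, S t * Q0 = sin (2 * t) • J t
  adm : ∀ t, Adm (J t) Q0
  per : ∀ t, J (t + π) = P * J t
  zero : J 0 = (1 / 2 : ℝ) • Q0

/-- First half of the reduced frame. -/
noncomputable def redC (C J : ℝ → Mat m) (Q0 : Mat m) (t : ℝ) : Mat m :=
  (1 - mv (J t) Q0) * C t * (1 - Q0) + cos t • J t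

/-- Second half of the reduced frame. -/
noncomputable def redS (S J : ℝ → Mat m) (Q0 : Mat m) (t : ℝ) : Mat m :=
  (1 - mv (J t) Q0) * S t * (1 - Q0) + sin t • J t

theorem red_ha_shift (hP : SPer C S P) (n : ℤ) :
    ∃ W : Mat m, W.det ≠ 0 ∧ ∀ t, S (t + n * π) = W * S t := by
  have hd : P.det ≠ 0 := by
    intro h0
    have := det_sq_of_orth hP.1
    simp [h0] at this
  have hP' : Pᵀ * P = 1 := mul_eq_one_comm.1 hP.1
  induction n using Int.induction_on with
  | zero => exact ⟨1, by simp, fun t => by simp⟩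
  | succ n ih =>
    obtain ⟨W, hW, h⟩ := ih
    refine ⟨P * W, by simp [hd, hW], fun t => ?_⟩
    rw [Matrix.mul_assoc, ← h t, ← (hP.2 _).2]
    congr 1
    push_cast
    ring
  | pred n ih =>
    obtain ⟨W, hW, h⟩ := ih
    refine ⟨Pᵀ * W, by simp [hd, hW], fun t => ?_⟩
    rw [Matrix.mul_assoc, ← h t]
    have e : t + ((-(n : ℤ) : ℤ) : ℝ) * π = t + ((-(n : ℤ) - 1 : ℤ) : ℝ) * π + π := by
      push_cast
      ring
    rw [e, (hP.2 _).2, ← Matrix.mul_assoc, hP', Matrix.one_mul]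

theorem red_ha_ext {A : Mat m} (h : ∀ z, A *ᵥ z = 0) : A = 0 := by
  ext i j
  simpa using congrFun (h (Pi.single j 1)) i

theorem red_ha_zero (h : Sys R C S C1 S1) (hP : SPer C S P) (h0 : S (π / 2) * Q0 = 0) {t : ℝ}
    (ht : sin (2 * t) = 0) : S t * Q0 = 0 := by
  obtain ⟨n, hn⟩ := sin_eq_zero_iff.1 ht
  obtain ⟨j, hj | hj⟩ := Int.even_or_odd' n
  · obtain ⟨W, -, hW⟩ := red_ha_shift hP j
    have e : t = 0 + j * π := by
      rw [hj] at hn
      push_cast at hn
      linarith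
    rw [e, hW, h.S0, Matrix.mul_zero, Matrix.zero_mul]
  · obtain ⟨W, -, hW⟩ := red_ha_shift hP j
    have e : t = π / 2 + j * π := by
      rw [hj] at hn
      push_cast at hn
      linarith
    rw [e, hW, Matrix.mul_assoc, h0, Matrix.mul_zero]

theorem red_ha_det (h : Sys R C S C1 S1) (hP : SPer C S P) (hT : Tv C S (π / 2)) {t : ℝ}
    (ht : sin (2 * t) ≠ 0) : (S t).det ≠ 0 := by
  obtain ⟨W, hW, hS⟩ := red_ha_shift hP ⌊t / π⌋
  have h1 : (⌊t / π⌋ : ℝ) * π ≤ t := (le_div_iff₀ pi_pos).1 (Int.floor_le _)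
  have h2 : t < (⌊t / π⌋ + 1) * π := (div_lt_iff₀ pi_pos).1 (Int.lt_floor_add_one _)
  have e : sin (2 * t) = sin (2 * (t - ⌊t / π⌋ * π)) := by
    rw [← sin_add_int_mul_two_pi (2 * (t - ⌊t / π⌋ * π)) ⌊t / π⌋]
    congr 1
    ring
  have h3 := hS (t - ⌊t / π⌋ * π)
  rw [sub_add_cancel] at h3
  rw [h3, det_mul]
  refine mul_ne_zero hW (h.tv_S hP hT (lt_of_le_of_ne (by linarith) fun h0 => ht ?_) (by linarith)
    fun h0 => ht ?_)
  · rw [e, ← h0, mul_zero, sin_zero]
  · rw [e, h0, mul_div_cancel₀ _ two_ne_zero, sin_pi]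

theorem red_ha_dense {A B : ℝ → Mat m} (hA : Continuous A) (hB : Continuous B)
    (h : ∀ t, sin (2 * t) ≠ 0 → A t = B t) (t : ℝ) : A t = B t := by
  have hc : {t : ℝ | sin (2 * t) = 0}.Countable := by
    refine (countable_range fun n : ℤ => (n : ℝ) * π / 2).mono fun t ht => ?_
    obtain ⟨n, hn⟩ := sin_eq_zero_iff.1 ht
    exact ⟨n, by linarith⟩
  exact congrFun (Continuous.ext_on (hc.dense_compl ℝ) hA hB fun t ht => h t ht) t

theorem red_ha_der (h : Sys R C S C1 S1) (hd : ∀ t, MD J (J1 t) t)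
    (he : ∀ t, S t * Q0 = sin (2 * t) • J t) (t : ℝ) :
    S1 t * Q0 = (2 * cos (2 * t)) • J t + sin (2 * t) • J1 t := by
  have d1 := (h.dS t).mul (MD.const Q0 t)
  have hs : HasDerivAt (fun s : ℝ => sin (2 * s)) (2 * cos (2 * t)) t := by
    have := ((hasDerivAt_id t).const_mul 2).sin
    simpa [mul_comm] using this
  have d2 := MD.smul hs (hd t)
  simp only [he] at d1
  simpa using d1.unique d2

theorem exists_J (h : Sys R C S C1 S1) (hP : SPer C S P) (hT : Tv C S (π / 2)) :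
    ∃ J J1 Q0, KD S J J1 P Q0 (nul (S (π / 2))) := by
  obtain ⟨Q0, hQ, hk⟩ := exists_pr (S (π / 2))
  have h0 : S (π / 2) * Q0 = 0 := red_ha_ext fun z => by
    rw [← mulVec_mulVec]
    exact (hk _).1 (by rw [mulVec_mulVec, hQ.idem])
  have cS : Continuous S := continuous_iff_continuousAt.2 fun t => (h.dS t).continuousAt
  have c2 : Continuous fun t => -(R t * S t) * Q0 := (h.cR.mul cS).neg.mul continuous_const
  have hex : ∀ i j, ∃ f f1 : ℝ → ℝ, (∀ t, HasDerivAt f (f1 t) t) ∧ Continuous f1 ∧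
      ∀ t, (S t * Q0) i j = sin (2 * t) * f t := fun i j =>
    exists_div (f1 := fun t => (S1 t * Q0) i j) (f2 := fun t => (-(R t * S t) * Q0) i j)
      (fun t => ((h.dS t).mul (MD.const Q0 t)).congr (B' := S1 t * Q0) (by simp) i j)
      (fun t => ((h.dS1 t).mul (MD.const Q0 t)).congr (B' := -(R t * S t) * Q0) (by simp) i j)
      (c2.matrix_elem i j) fun t ht => by rw [red_ha_zero h hP h0 ht]; rfl
  choose f f1 hf hc he using hex
  obtain ⟨J, J1, hd, hc1, heq⟩ : ∃ J J1 : ℝ → Mat m, (∀ t, MD J (J1 t) t) ∧ Continuous J1 ∧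
      ∀ t, S t * Q0 = sin (2 * t) • J t := by
    refine ⟨fun t => Matrix.of fun i j => f i j t, fun t => Matrix.of fun i j => f1 i j t,
      fun t i j => hf i j t, continuous_matrix fun i j => hc i j, fun t => ?_⟩
    ext i j
    simpa using he i j t
  have cJ : Continuous J := continuous_iff_continuousAt.2 fun t => (hd t).continuousAt
  have hder := red_ha_der h hd heq
  refine ⟨J, J1, Q0, hQ, hk, hd, hc1, heq, fun t => ⟨?_, fun z hz => ?_⟩, ?_, ?_⟩
  · refine red_ha_dense (A := fun t => J t * Q0) (cJ.mul continuous_const) cJ (fun t ht => ?_) t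
    refine smul_right_injective _ ht ?_
    simp only [← Matrix.smul_mul, ← heq, Matrix.mul_assoc, hQ.idem]
  · have e1 : S t *ᵥ (Q0 *ᵥ z) = 0 := by rw [mulVec_mulVec, heq, smul_mulVec, hz, smul_zero]
    by_cases ht : sin (2 * t) = 0
    · have e2 : S1 t *ᵥ (Q0 *ᵥ z) = 0 := by
        rw [mulVec_mulVec, hder, ht, zero_smul, add_zero, smul_mulVec, hz, smul_zero]
      rw [← one_mulVec (Q0 *ᵥ z), ← h.wCS t, sub_mulVec, ← mulVec_mulVec, ← mulVec_mulVec, e1, e2]
      simp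
    · exact eq_zero_of_mulVec_eq_zero (red_ha_det h hP hT ht) e1
  · refine red_ha_dense (A := fun t => J (t + π)) (cJ.comp (continuous_add_const π))
      (continuous_const.mul cJ) fun t ht => ?_
    refine smul_right_injective _ ht ?_
    have e : sin (2 * (t + π)) = sin (2 * t) := by
      rw [mul_add, sin_add_two_pi]
    have h1 := heq (t + π)
    rw [e, (hP.2 t).2, Matrix.mul_assoc, heq, Matrix.mul_smul] at h1
    exact h1.symm
  · have h1 := hder 0
    rw [h.S10, Matrix.one_mul, mul_zero, sin_zero, cos_zero, zero_smul, add_zero] at h1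
    rw [h1, smul_smul]
    norm_num

end Vale.Agent.P231
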