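import Vale.Agent.P231.M.RedA

/-!
# The reduced loop  (TASK)

`exists_J`: `Q0` projects onto `ker S(π/2)`.  The entries of `S(t) Q0` are `C²` (`dS`, `dS1`, `cR`) and vanish where `sin 2t = 0` (`t = j π / 2`: `S 0 = 0`,
`S(π/2) Q0 = 0`, `SPer`, integer induction in both directions, `P` invertible); `exists_div` entrywise gives `J`.  `J Q0 = J` and `J(t+π) = P J(t)` hold where `sin 2t ≠ 0`, hence
everywhere (continuity, density; or differentiate `S Q0 = sin (2t) J` at the zeros: `S1 Q0 = 2 cos (2t) J` there).  Injectivity: where `sin 2t ≠ 0`, `S t` is invertible (`tv_S` and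
periodicity, reduce `t` mod `π`); at the zeros `J z = 0` gives `S Q0 z = 0 = S1 Q0 z`, so `Q0 z = 0` by `wCS`.  `J 0 = (1/2) Q0` from `S1 0 = 1`.
`red_pr`: expand `om`; with `Q = mv (J t) Q0`: `(1 - Q) J = 0`, `(1 - Q) S(t) Q0 = 0`, `J (1 - Q0) = 0`, `cos`/`sin` addition formula.
`red_loop`: derivatives by `exists_mv_deriv`, `MD.*`; `gm` is the `t`-derivative of `pr` at `s = t` (`MD.om`, `MD.unique` with `red_pr`), equal to `(1-Q) + J Jᵀ` because
`pr C S t t = 0`, `gm C S = 1`; `per` with `W = P (1 - 2 Q(t))` (`mv_orth`); `perg`: conjugation by `P`.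
`red_tv`: if `Â(t,0) y = 0`, multiply by `Q(t)` and `1 - Q(t)`: `sin t • J(t) J(0)ᵀ y = 0` gives `Q0 y = 0`, and `S(t) y = J(t) z` for some `z`.  For `t ≠ π/2`:
`S(t) (y - Q0 z / sin 2t) = 0`, so `y = Q0 y = 0`.  For `t = π / 2`: `J = -(1/2) S1 Q0`, `|S y|² = (S y) ⬝ J z = 0` by `wS` and `S Q0 = 0`, so `Q0 y = y`.
This file holds one portion of the plan above.  Prefix helper names by `red_hb_`.
-/

namespace Vale.Agent.P231

open Matrix Real Filter Topology Set

variable {m k : ℕ} {R C S C1 S1 J J1 : ℝ → Mat m} {P Q0 : Mat m}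

theorem red_hb_EJ (hK : KD S J J1 P Q0 k) (t : ℝ) : (1 - mv (J t) Q0) * J t = 0 := by
  rw [Matrix.sub_mul, Matrix.one_mul, (hK.adm t).mv_mul hK.pr0, sub_self]

theorem red_hb_JF (hK : KD S J J1 P Q0 k) (t : ℝ) : J t * (1 - Q0) = 0 := by
  rw [Matrix.mul_sub, Matrix.mul_one, (hK.adm t).mul, sub_self]

theorem red_hb_ESF (hK : KD S J J1 P Q0 k) (t : ℝ) :
    (1 - mv (J t) Q0) * S t * (1 - Q0) = (1 - mv (J t) Q0) * S t := by
  rw [Matrix.mul_sub, Matrix.mul_one, Matrix.mul_assoc _ (S t) Q0, hK.eq, Matrix.mul_smul,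
    red_hb_EJ hK, smul_zero, sub_zero]

theorem red_hb_sym {Q : Mat m} (h : IsPr Q k) : (1 - Q)ᵀ = 1 - Q := by
  rw [transpose_sub, transpose_one, h.symm]

theorem red_hb_idem {Q : Mat m} (h : IsPr Q k) : (1 - Q) * (1 - Q) = 1 - Q := by
  rw [Matrix.sub_mul, Matrix.one_mul, Matrix.mul_sub, Matrix.mul_one, h.idem, sub_self, sub_zero]

theorem red_hb_alg {E E' F C S C' S' J J' : Mat m} {a b a' b' : ℝ} (e1 : E'ᵀ = E') (e2 : Fᵀ = F)
    (h1 : F * F = F) (h2 : J * F = 0) (h3 : J' * F = 0) (h4 : E * S * F = E * S)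
    (h5 : E' * S' * F = E' * S') :
    om (E * C * F + a • J) (E * S * F + b • J) (E' * C' * F + a' • J') (E' * S' * F + b' • J') =
      E * om C S C' S' * E' + (b * a' - a * b') • (J * J'ᵀ) := by
  have g1 : ∀ X, F * (F * X) = F * X := fun X => by rw [← Matrix.mul_assoc, h1]
  have g2 : ∀ X, J * (F * X) = 0 := fun X => by rw [← Matrix.mul_assoc, h2, Matrix.zero_mul]
  have g3 : F * J'ᵀ = 0 := by rw [← e2, ← transpose_mul, h3, transpose_zero]
  have g4 : ∀ X, E * (S * (F * X)) = E * (S * X) := fun X => by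
    rw [← Matrix.mul_assoc, ← Matrix.mul_assoc, h4, Matrix.mul_assoc]
  have g5 : F * (S'ᵀ * E') = S'ᵀ * E' := by
    have := congrArg transpose h5
    simpa [transpose_mul, e1, e2] using this
  simp only [om, transpose_add, transpose_smul, transpose_mul, e1, e2, Matrix.add_mul,
    Matrix.mul_add, Matrix.mul_assoc, Matrix.mul_smul, Matrix.smul_mul, g1, g2, g3,
    Matrix.mul_zero, smul_zero, add_zero, zero_add, Matrix.sub_mul, Matrix.mul_sub, smul_smul]
  rw [g4, g5, sub_smul, mul_comm a' b, mul_comm b' a]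
  abel

theorem red_pr (hK : KD S J J1 P Q0 k) (t s : ℝ) :
    pr (redC C J Q0) (redS S J Q0) t s =
      (1 - mv (J t) Q0) * pr C S t s * (1 - mv (J s) Q0) + sin (t - s) • (J t * (J s)ᵀ) := by
  rw [sin_sub]
  exact red_hb_alg (red_hb_sym ((hK.adm s).isPr hK.pr0)) (red_hb_sym hK.pr0) (red_hb_idem hK.pr0)
    (red_hb_JF hK t) (red_hb_JF hK s) (red_hb_ESF hK t) (red_hb_ESF hK s)

theorem red_hb_per (hP : SPer C S P) (hK : KD S J J1 P Q0 k) (t : ℝ) (X : Mat m) (c : ℝ) :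
    (1 - mv (J (t + π)) Q0) * (P * X) * (1 - Q0) + (-c) • J (t + π) =
      P * (1 - (2 : ℝ) • mv (J t) Q0) * ((1 - mv (J t) Q0) * X * (1 - Q0) + c • J t) := by
  have hP' : Pᵀ * P = 1 := mul_eq_one_comm.1 hP.1
  have hQ := (hK.adm t).isPr hK.pr0
  have e1 : (1 - mv (J (t + π)) Q0) * P = P * (1 - mv (J t) Q0) := by
    rw [hK.per, mv_orth hP.1, Matrix.sub_mul, Matrix.one_mul, Matrix.mul_assoc _ Pᵀ, hP',
      Matrix.mul_one, Matrix.mul_sub, Matrix.mul_one]
  have e2 : (1 - (2 : ℝ) • mv (J t) Q0) * (1 - mv (J t) Q0) = 1 - mv (J t) Q0 := by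
    rw [Matrix.sub_mul, Matrix.one_mul, Matrix.smul_mul, Matrix.mul_sub, Matrix.mul_one, hQ.idem,
      sub_self, smul_zero, sub_zero]
  have e3 : (1 - (2 : ℝ) • mv (J t) Q0) * J t = -J t := by
    rw [Matrix.sub_mul, Matrix.one_mul, Matrix.smul_mul, (hK.adm t).mv_mul hK.pr0, two_smul]
    abel
  rw [← Matrix.mul_assoc _ P X, e1, hK.per, Matrix.mul_assoc P (1 - (2 : ℝ) • mv (J t) Q0),
    Matrix.mul_add, Matrix.mul_smul, e3, ← Matrix.mul_assoc, ← Matrix.mul_assoc, e2,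
    Matrix.mul_add, Matrix.mul_smul]
  simp only [Matrix.mul_assoc, Matrix.mul_neg, neg_smul, smul_neg]

theorem red_loop (h : Sys R C S C1 S1) (hP : SPer C S P) (hK : KD S J J1 P Q0 k) :
    ∃ D1 T1, Loop (redC C J Q0) (redS S J Q0) D1 T1 ∧
      ∀ t, gm (redC C J Q0) (redS S J Q0) D1 T1 t = 1 - mv (J t) Q0 + J t * (J t)ᵀ := by
  obtain ⟨Q1, hd, hc⟩ := exists_mv_deriv hK.pr0 hK.adm hK.dJ hK.cJ1
  have dE : ∀ t, MD (fun s => 1 - mv (J s) Q0) (-Q1 t) t := fun t =>
    ((MD.const 1 t).sub (hd t)).congr (zero_sub _)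
  have cE : Continuous fun s => 1 - mv (J s) Q0 :=
    continuous_iff_continuousAt.2 fun t => (dE t).continuousAt
  have cJ : Continuous J := continuous_iff_continuousAt.2 fun t => (hK.dJ t).continuousAt
  have L := h.loop hP
  have cC : Continuous C := continuous_iff_continuousAt.2 fun t => (h.dC t).continuousAt
  have cS : Continuous S := continuous_iff_continuousAt.2 fun t => (h.dS t).continuousAt
  obtain ⟨D1, dD, cD⟩ : ∃ D1 : ℝ → Mat m, (∀ t, MD (redC C J Q0) (D1 t) t) ∧ Continuous D1 :=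
    ⟨_, fun t => (((dE t).mul (h.dC t)).mul (MD.const (1 - Q0) t)).add
      (MD.smul (hasDerivAt_cos t) (hK.dJ t)),
      ((((hc.neg.mul cC).add (cE.mul L.cC1)).mul continuous_const).add
        ((cE.mul cC).mul continuous_const)).add
        ((continuous_sin.neg.smul cJ).add (continuous_cos.smul hK.cJ1))⟩
  obtain ⟨T1, dT, cT⟩ : ∃ T1 : ℝ → Mat m, (∀ t, MD (redS S J Q0) (T1 t) t) ∧ Continuous T1 :=
    ⟨_, fun t => (((dE t).mul (h.dS t)).mul (MD.const (1 - Q0) t)).add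
      (MD.smul (hasDerivAt_sin t) (hK.dJ t)),
      ((((hc.neg.mul cS).add (cE.mul L.cS1)).mul continuous_const).add
        ((cE.mul cS).mul continuous_const)).add
        ((continuous_cos.smul cJ).add (continuous_sin.smul hK.cJ1))⟩
  have hg : ∀ t, gm (redC C J Q0) (redS S J Q0) D1 T1 t = 1 - mv (J t) Q0 + J t * (J t)ᵀ := by
    intro t
    have d1 := MD.om (dD t) (dT t) (MD.const (redC C J Q0 t) t) (MD.const (redS S J Q0 t) t)
    have hs : HasDerivAt (fun r : ℝ => sin (r - t)) 1 t := by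
      simpa using ((hasDerivAt_id t).sub_const t).sin
    have d2 := (((dE t).mul (sys_b_dA h t t)).mul (MD.const (1 - mv (J t) Q0) t)).add
      (MD.smul hs ((hK.dJ t).mul (MD.const (J t)ᵀ t)))
    have e := (d1.congr_ev (Eventually.of_forall fun r => (red_pr hK r t).symm)).unique d2
    have hgm : om (C1 t) (S1 t) (C t) (S t) = 1 := h.gm_eq t
    rw [h.lag, hgm] at e
    simpa [om, gm, red_hb_idem ((hK.adm t).isPr hK.pr0)] using e
  refine ⟨D1, T1, ⟨dD, dT, cD, cT, fun t => ?_, fun t => ?_, fun t => ?_, fun t => ?_⟩, hg⟩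
  · simp [red_pr hK, h.lag]
  · rw [hg]
    exact (hK.adm t).posDef_g hK.pr0
  · have hQ := (hK.adm t).isPr hK.pr0
    refine ⟨P * (1 - (2 : ℝ) • mv (J t) Q0), ?_, ?_, ?_⟩
    · have e : (1 - (2 : ℝ) • mv (J t) Q0) * (1 - (2 : ℝ) • mv (J t) Q0)ᵀ = 1 := by
        simp only [transpose_sub, transpose_one, transpose_smul, hQ.symm, Matrix.sub_mul,
          Matrix.mul_sub, Matrix.one_mul, Matrix.mul_one, Matrix.smul_mul, Matrix.mul_smul,
          hQ.idem]
        module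
      rw [transpose_mul, Matrix.mul_assoc, ← Matrix.mul_assoc _ _ Pᵀ, e, Matrix.one_mul, hP.1]
    · rw [redC, redC, (hP.2 t).1, cos_add_pi, red_hb_per hP hK]
    · rw [redS, redS, (hP.2 t).2, sin_add_pi, red_hb_per hP hK]
  · have e : 1 - mv (J (t + π)) Q0 + J (t + π) * (J (t + π))ᵀ =
        P * (1 - mv (J t) Q0 + J t * (J t)ᵀ) * Pᵀ := by
      rw [hK.per, mv_orth hP.1, Matrix.mul_add, Matrix.mul_sub, Matrix.add_mul, Matrix.sub_mul,
        Matrix.mul_one, hP.1, transpose_mul]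
      simp only [Matrix.mul_assoc]
    have e2 : P.det * Pᵀ.det = 1 := by rw [← det_mul, hP.1, det_one]
    rw [hg, hg, e, det_mul, det_mul, mul_right_comm, e2, one_mul]

end Vale.Agent.P231
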