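import Vale.Agent.P231.M.Defs

/-!
# Trace versus determinant, with a projector  (TASK)

`trace_ge`: eigenvalues `λ_i > 0` of `X` (`PosDef.eigenvalues_pos`, `IsHermitian.trace_eq_sum_eigenvalues`, `det_eq_prod_eigenvalues`) and
`log x ≤ x - 1` applied to `λ_i / β` (`Real.log_le_sub_one_of_pos`, strict unless `x = 1`: `Real.log_lt_sub_one_of_pos`); equality gives all
`λ_i = β`, so `X = β • 1` by the spectral theorem.  State and prove these two for a general finite index type (needed for the blocks).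
`trace_mul_ge`: `Y = Bᵀ B` with `B` invertible (`Matrix.posDef_iff_eq_conjTranspose_mul_self` or the square root), `tr (X Y) = tr (B X Bᵀ)`.
`pr_blocks`-type reduction for `schur_*`: the symmetric idempotent `Q` has eigenvalues in `{0, 1}`; conjugate by the eigenvector unitary `U` and reindex along
`Equiv.sumCompl (fun i => eigenvalue i = 1)`, so that `Q = fromBlocks 1 0 0 0` with `k` = card of the first block (trace), `G = fromBlocks A B Bᵀ D`.
With the Schur complement `T = D - Bᵀ A⁻¹ B` (positive definite; `det_fromBlocks₁₁`, `PosDef.fromBlocks₁₁` or directly) one has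
`det G = det A det T`, the lower right block of `G⁻¹` is `T⁻¹` (`inv_fromBlocks`-type formula, or check the product), so `det (cmp Q G⁻¹) = (det T)⁻¹`;
`tr G = tr A + tr T + tr (Bᵀ A⁻¹ B)`, `tr (Q G) = tr A`.  Apply `trace_ge` to `A` with `α` and to `T` with `β`.  Equality forces `A = α`, `T = β`,
`tr (Bᵀ B) = 0`, so `B = 0`.  A basis-free proof is also fine.  This file holds one portion of the plan above.  Prefix helper names by `schur_ha_`.
-/

namespace Vale.Agent.P231

open Matrix Real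

variable {m : ℕ}

theorem schur_ha_diag {n : Type*} [Fintype n] [DecidableEq n] {X : Matrix n n ℝ}
    (hX : X.IsHermitian) : ∃ U : Matrix n n ℝ, U * Uᵀ = 1 ∧ Uᵀ * U = 1 ∧
      X = U * diagonal hX.eigenvalues * Uᵀ := by
  have e : star (hX.eigenvectorUnitary : Matrix n n ℝ) = (hX.eigenvectorUnitary : Matrix n n ℝ)ᵀ :=
    conjTranspose_eq_transpose_of_trivial _
  refine ⟨hX.eigenvectorUnitary, ?_, ?_, ?_⟩
  · rw [← e]; exact Unitary.coe_mul_star_self _
  · rw [← e]; exact Unitary.coe_star_mul_self _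
  · have := hX.spectral_theorem
    rw [Unitary.conjStarAlgAut_apply, e] at this
    simpa using this

theorem schur_ha_sum {n : Type*} [Fintype n] [DecidableEq n] {X : Matrix n n ℝ} (hX : X.PosDef)
    {β : ℝ} (hβ : 0 < β) : X.trace - (Fintype.card n * β + β * (Real.log X.det -
      Fintype.card n * Real.log β)) =
      ∑ i, β * (hX.1.eigenvalues i / β - 1 - Real.log (hX.1.eigenvalues i / β)) := by
  have h1 : X.trace = ∑ i, hX.1.eigenvalues i := by simpa using hX.1.trace_eq_sum_eigenvalues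
  have h2 : X.det = ∏ i, hX.1.eigenvalues i := by simpa using hX.1.det_eq_prod_eigenvalues
  have h3 : ∀ i, β * (hX.1.eigenvalues i / β - 1 - Real.log (hX.1.eigenvalues i / β)) =
      hX.1.eigenvalues i - β - β * Real.log (hX.1.eigenvalues i) + β * Real.log β := fun i => by
    rw [Real.log_div (hX.eigenvalues_pos i).ne' hβ.ne']
    field_simp
    ring
  rw [h1, h2, Real.log_prod fun i _ => (hX.eigenvalues_pos i).ne']
  simp only [h3, Finset.sum_add_distrib, Finset.sum_sub_distrib, Finset.sum_const,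
    Finset.card_univ, nsmul_eq_mul, ← Finset.mul_sum]
  ring

theorem schur_ha_nn {β x : ℝ} (hβ : 0 < β) (hx : 0 < x) :
    0 ≤ β * (x / β - 1 - Real.log (x / β)) :=
  mul_nonneg hβ.le (by linarith [Real.log_le_sub_one_of_pos (div_pos hx hβ)])

theorem trace_ge {n : Type*} [Fintype n] [DecidableEq n] {X : Matrix n n ℝ} (hX : X.PosDef)
    {β : ℝ} (hβ : 0 < β) : Fintype.card n * β + β * (Real.log X.det -
      Fintype.card n * Real.log β) ≤ X.trace := by
  rw [← sub_nonneg, schur_ha_sum hX hβ]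
  exact Finset.sum_nonneg fun i _ => schur_ha_nn hβ (hX.eigenvalues_pos i)

theorem trace_eq {n : Type*} [Fintype n] [DecidableEq n] {X : Matrix n n ℝ} (hX : X.PosDef)
    {β : ℝ} (hβ : 0 < β) (h : X.trace ≤ Fintype.card n * β + β * (Real.log X.det -
      Fintype.card n * Real.log β)) : X = β • (1 : Matrix n n ℝ) := by
  have h0 := le_antisymm (sub_nonpos.2 h) (sub_nonneg.2 (trace_ge hX hβ))
  rw [schur_ha_sum hX hβ, Finset.sum_eq_zero_iff_of_nonneg
    fun i _ => schur_ha_nn hβ (hX.eigenvalues_pos i)] at h0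
  have h1 : ∀ i, hX.1.eigenvalues i = β := fun i => by
    by_contra hne
    have h2 := Real.log_lt_sub_one_of_pos (div_pos (hX.eigenvalues_pos i) hβ)
      (fun e => hne ((div_eq_one_iff_eq hβ.ne').1 e))
    have h3 := (mul_eq_zero.1 (h0 i (Finset.mem_univ i))).resolve_left hβ.ne'
    linarith
  obtain ⟨U, hU, -, e⟩ := schur_ha_diag hX.1
  have e2 : diagonal hX.1.eigenvalues = β • (1 : Matrix n n ℝ) := by
    rw [smul_one_eq_diagonal]; congr 1; exact funext h1
  rw [e, e2, Matrix.mul_smul, Matrix.mul_one, Matrix.smul_mul, hU]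

theorem schur_ha_sqrt {Y : Mat m} (hY : Y.PosDef) : ∃ B : Mat m, B.det ≠ 0 ∧ Y = Bᵀ * B := by
  obtain ⟨U, hU, -, e⟩ := schur_ha_diag hY.1
  have e1 : Y = (diagonal (fun i => √(hY.1.eigenvalues i)) * Uᵀ)ᵀ *
      (diagonal (fun i => √(hY.1.eigenvalues i)) * Uᵀ) := by
    rw [transpose_mul, transpose_transpose, diagonal_transpose, Matrix.mul_assoc,
      ← Matrix.mul_assoc (diagonal _) (diagonal _), diagonal_mul_diagonal, ← Matrix.mul_assoc]
    simp only [Real.mul_self_sqrt (hY.eigenvalues_pos _).le]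
    exact e
  refine ⟨_, fun h0 => hY.det_pos.ne' ?_, e1⟩
  rw [e1, det_mul, h0, mul_zero]

theorem schur_ha_conj {X B : Mat m} (hX : X.PosDef) (hB : B.det ≠ 0) : (B * X * Bᵀ).PosDef := by
  have := hX.mul_mul_conjTranspose_same (B := B)
    (vecMul_injective_iff_isUnit.2 ((isUnit_iff_isUnit_det B).2 (isUnit_iff_ne_zero.2 hB)))
  rwa [conjTranspose_eq_transpose_of_trivial] at this

theorem schur_ha_red {X B : Mat m} (hX : X.PosDef) (hB : B.det ≠ 0) :
    (X * (Bᵀ * B)).trace = (B * X * Bᵀ).trace ∧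
      Real.log X.det + Real.log (Bᵀ * B).det = Real.log (B * X * Bᵀ).det := by
  refine ⟨by rw [← Matrix.mul_assoc, trace_mul_cycle], ?_⟩
  rw [← Real.log_mul hX.det_pos.ne' (by rw [det_mul, det_transpose]; exact mul_ne_zero hB hB)]
  simp only [det_mul, det_transpose]
  congr 1
  ring

theorem trace_mul_ge {X Y : Mat m} (hX : X.PosDef) (hY : Y.PosDef) {β : ℝ} (hβ : 0 < β) :
    m * β + β * (Real.log X.det + Real.log Y.det - m * Real.log β) ≤ (X * Y).trace := by
  obtain ⟨B, hB, rfl⟩ := schur_ha_sqrt hY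
  obtain ⟨e1, e2⟩ := schur_ha_red hX hB
  rw [e1, e2]
  simpa using trace_ge (schur_ha_conj hX hB) hβ

theorem schur_ha_mul_eq {X Y : Mat m} (hX : X.PosDef) (hY : Y.PosDef) {β : ℝ} (hβ : 0 < β)
    (h : (X * Y).trace ≤ m * β + β * (Real.log X.det + Real.log Y.det - m * Real.log β)) :
    X * Y = β • (1 : Mat m) := by
  obtain ⟨B, hB, rfl⟩ := schur_ha_sqrt hY
  obtain ⟨e1, e2⟩ := schur_ha_red hX hB
  rw [e1, e2] at h
  have h1 := trace_eq (schur_ha_conj hX hB) hβ (by simpa using h)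
  have h2 : B⁻¹ * B = 1 := nonsing_inv_mul _ (isUnit_iff_ne_zero.2 hB)
  calc X * (Bᵀ * B) = B⁻¹ * (B * X * Bᵀ) * B := by
        rw [← Matrix.mul_assoc B⁻¹, ← Matrix.mul_assoc B⁻¹, h2, Matrix.one_mul, Matrix.mul_assoc]
    _ = _ := by rw [h1, Matrix.mul_smul, Matrix.mul_one, Matrix.smul_mul, h2]

theorem schur_ha_cmp {Q X : Mat m} (hs : Qᵀ = Q) (hi : Q * Q = Q) (hX : X.PosDef) {a : ℝ}
    (ha : 0 < a) : (a • Q + (1 - Q) * X * (1 - Q)).PosDef := by
  have hs' : (1 - Q)ᵀ = 1 - Q := by rw [transpose_sub, transpose_one, hs]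
  have hx : Xᵀ = X := by simpa using hX.1.eq
  refine PosDef.of_dotProduct_mulVec_pos ?_ fun x hx0 => ?_
  · simp only [IsHermitian, conjTranspose_eq_transpose_of_trivial, transpose_add, transpose_smul,
      transpose_mul, hs, hs', hx, Matrix.mul_assoc]
  · have e1 : x ⬝ᵥ Q *ᵥ x = (Q *ᵥ x) ⬝ᵥ (Q *ᵥ x) := by
      rw [dotProduct_mulVec (Q *ᵥ x), ← mulVec_transpose, hs, mulVec_mulVec, hi, dotProduct_comm]
    have e2 : x ⬝ᵥ ((1 - Q) * X * (1 - Q)) *ᵥ x = ((1 - Q) *ᵥ x) ⬝ᵥ X *ᵥ ((1 - Q) *ᵥ x) := by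
      rw [← mulVec_mulVec, ← mulVec_mulVec, dotProduct_mulVec x, ← mulVec_transpose, hs']
    simp only [star_trivial, add_mulVec, smul_mulVec, dotProduct_add, dotProduct_smul, smul_eq_mul]
    rw [e1, e2]
    have n1 : 0 ≤ (Q *ᵥ x) ⬝ᵥ (Q *ᵥ x) := Finset.sum_nonneg fun i _ => mul_self_nonneg _
    by_cases hz : (1 - Q) *ᵥ x = 0
    · have e3 : Q *ᵥ x = x := by
        rw [sub_mulVec, one_mulVec, sub_eq_zero] at hz; exact hz.symm
      rw [hz, e3, zero_dotProduct, add_zero]
      exact mul_pos ha (by simpa using dotProduct_star_self_pos_iff.2 hx0)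
    · have := hX.dotProduct_mulVec_pos hz
      rw [star_trivial] at this
      exact add_pos_of_nonneg_of_pos (mul_nonneg ha.le n1) this

theorem cmp_posDef {Q X : Mat m} {k : ℕ} (hQ : IsPr Q k) (hX : X.PosDef) : (cmp Q X).PosDef := by
  simpa [cmp] using schur_ha_cmp hQ.symm hQ.idem hX one_pos

theorem schur_ha_spec {Q : Mat m} (hs : Qᵀ = Q) (hi : Q * Q = Q) : ∃ d : Fin m → ℝ,
    (∀ i, d i = 0 ∨ d i = 1) ∧ Q.trace = ∑ i, d i ∧
      ∀ a b : ℝ, (a • Q + b • (1 - Q)).det = ∏ i, (a * d i + b * (1 - d i)) := by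
  have hH : Q.IsHermitian := by simpa [IsHermitian] using hs
  obtain ⟨U, hU, hU', e⟩ := schur_ha_diag hH
  set d := hH.eigenvalues
  have e1 : diagonal d = Uᵀ * Q * U := by
    rw [e]
    simp only [← Matrix.mul_assoc, hU', Matrix.one_mul]
    rw [Matrix.mul_assoc, hU', Matrix.mul_one]
  refine ⟨d, fun i => ?_, by simpa using hH.trace_eq_sum_eigenvalues, fun a b => ?_⟩
  · have e2 : diagonal d * diagonal d = diagonal d := by
      rw [e1, Matrix.mul_assoc, ← Matrix.mul_assoc U, ← Matrix.mul_assoc U, hU, Matrix.one_mul,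
        ← Matrix.mul_assoc, Matrix.mul_assoc Uᵀ, hi]
    rw [diagonal_mul_diagonal] at e2
    have e3 : d i * d i = d i := congrFun (diagonal_injective e2) i
    rcases eq_or_ne (d i) 0 with h0 | h0
    · exact Or.inl h0
    · exact Or.inr (mul_left_cancel₀ h0 (by rw [e3, mul_one]))
  · have e2 : Uᵀ * (a • Q + b • (1 - Q)) * U = diagonal fun i => a * d i + b * (1 - d i) := by
      simp only [Matrix.mul_add, Matrix.add_mul, Matrix.mul_smul, Matrix.smul_mul, Matrix.mul_sub,
        Matrix.sub_mul, Matrix.mul_one, hU', ← e1]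
      ext i j
      by_cases hij : i = j <;> simp [hij, diagonal, one_apply]
    have e3 := congrArg det hU'
    rw [← det_diagonal, ← e2, det_mul, det_mul, mul_right_comm, ← det_mul, e3, det_one, one_mul]

end Vale.Agent.P231
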