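import Vale.Agent.P231.M.SecondB

/-!
# The averaged log-determinant: second derivative and behaviour at `0`  (TASK)

Write `A(t,s) = pr C S t s`, `A_s = om (C t) (S t) (C1 s) (S1 s)`, `A_t = om (C1 t) (S1 t) (C s) (S s)`, `A_ts = om (C1 t) (S1 t) (C1 s) (S1 s)`
(`MD.om`, `MD.const`), `L = log det A`, `L_s = tr (A⁻¹ A_s)` (`MD.logdet`), all jointly continuous where `det A ≠ 0`
(`continuous_om`, `continuousAt_inv_mat`, `continuousAt_logdet`; `C`, `S` are continuous by `MD.continuousAt`).
`Loop.second`: `par_deriv` gives `avL' τ = -∫ L_s (t, t - τ) dt`.  `L (t+π, s+π) = L (t, s)` (`abs_det_shift`, `Real.log_abs`), hence the same for `L_s`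
(uniqueness of derivatives), so `avL' τ = -∫ L_s (s + τ, s) ds` (`per_shift`) `=: I1 τ`.  `par_deriv` again, with
`∂_t L_s = tr (A⁻¹ A_ts - A⁻¹ A_t A⁻¹ A_s) = tr (A⁻¹ g(t) A⁻¹ᵀ g(s))` (`MD.inv`, `MD.mul`, `MD.trace`, `om_complete` with `X = (C1 t, S1 t)`,
`Y = (C1 s, S1 s)`, `om_transpose`, `g` symmetric since `PosDef`); shift back with `per_shift` (the integrand is again periodic as a derivative of a
periodic function).
`Loop.zero`: `A(t, t - τ) = τ • B(τ, t)` with `B(τ,t) i j = -∫ r in 0..1, A_s (t, t - r τ) i j` (fundamental theorem of calculus, `lag`), `B` jointly continuous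
(`intervalIntegral.continuous_parametric_intervalIntegral_of_continuous'`), `B(0,t) = g(t)ᵀ`; `det A = τ ^ m det B`, `det B ≠ 0` on `Ico 0 T`;
apply `par_cont` to `log det B`.  This file holds one portion of the plan above.  Prefix helper names by `second_c_`.
-/

namespace Vale.Agent.P231

open Matrix Real Filter Topology Set

variable {m : ℕ} {C S C1 S1 : ℝ → Mat m} {T : ℝ}

/-- The quotient `A(t, t - τ) / τ`. -/
noncomputable def second_c_B (C S C1 S1 : ℝ → Mat m) (τ t : ℝ) : Mat m :=
  Matrix.of fun i j => ∫ r in (0 : ℝ)..1, -om (C t) (S t) (C1 (t - r * τ)) (S1 (t - r * τ)) i j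

theorem second_c_in (h : Loop C S C1 S1) : Continuous fun q : (ℝ × ℝ) × ℝ =>
    om (C q.1.2) (S q.1.2) (C1 (q.1.2 - q.2 * q.1.1)) (S1 (q.1.2 - q.2 * q.1.1)) :=
  continuous_om (h.second_a_cC.comp (by fun_prop)) (h.second_a_cS.comp (by fun_prop))
    (h.cC1.comp (by fun_prop)) (h.cS1.comp (by fun_prop))

theorem second_c_cont (h : Loop C S C1 S1) :
    Continuous fun p : ℝ × ℝ => second_c_B C S C1 S1 p.1 p.2 := by
  refine continuous_matrix fun i j => ?_
  exact intervalIntegral.continuous_parametric_intervalIntegral_of_continuous'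
    (f := fun (p : ℝ × ℝ) (r : ℝ) =>
      -om (C p.2) (S p.2) (C1 (p.2 - r * p.1)) (S1 (p.2 - r * p.1)) i j)
    ((second_c_in h).matrix_elem i j).neg 0 1

theorem second_c_eq (h : Loop C S C1 S1) (τ t : ℝ) :
    pr C S t (t - τ) = τ • second_c_B C S C1 S1 τ t := by
  ext i j
  have hd : ∀ r : ℝ, HasDerivAt (fun r => pr C S t (t - r * τ) i j)
      (τ * -om (C t) (S t) (C1 (t - r * τ)) (S1 (t - r * τ)) i j) r := by
    intro r
    have hA : MD (fun x => pr C S t x) (om (C t) (S t) (C1 (t - r * τ)) (S1 (t - r * τ)))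
        (t - r * τ) :=
      (MD.om (MD.const (C t) _) (MD.const (S t) _) (h.dC _) (h.dS _)).congr (by simp [om])
    have hφ : HasDerivAt (fun r : ℝ => t - r * τ) (-τ) r := by
      simpa using ((hasDerivAt_id r).mul_const τ).const_sub t
    refine (MD.comp (φ := fun r : ℝ => t - r * τ) hA hφ i j).congr_deriv ?_
    simp
  have hc : Continuous fun r : ℝ =>
      τ * -om (C t) (S t) (C1 (t - r * τ)) (S1 (t - r * τ)) i j :=
    continuous_const.mul (((second_c_in h).matrix_elem i j).neg.comp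
      (f := fun r : ℝ => ((τ, t), r)) (by fun_prop))
  have e := intervalIntegral.integral_eq_sub_of_hasDerivAt (fun r _ => hd r)
    (hc.intervalIntegrable 0 1)
  rw [intervalIntegral.integral_const_mul] at e
  simp only [one_mul, zero_mul, sub_zero, h.lag t, Matrix.zero_apply] at e
  rw [← e]
  rfl

theorem second_c_zero (C S C1 S1 : ℝ → Mat m) (t : ℝ) :
    (second_c_B C S C1 S1 0 t).det = (gm C S C1 S1 t).det := by
  rw [← Matrix.det_transpose (gm C S C1 S1 t), gm, om_transpose]
  congr 1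
  ext i j
  simp [second_c_B]

theorem Loop.zero (h : Loop C S C1 S1) (hT : Tv C S T) (h0 : 0 < T) :
    Tendsto (fun τ => avL C S τ - π * (m * Real.log τ)) (𝓝[>] 0)
      (𝓝 (∫ t in (0 : ℝ)..π, Real.log (gm C S C1 S1 t).det)) := by
  have hdet : ∀ τ t, (pr C S t (t - τ)).det = τ ^ m * (second_c_B C S C1 S1 τ t).det := by
    intro τ t
    rw [second_c_eq h, Matrix.det_smul, Fintype.card_fin]
  have hne : ∀ τ ∈ Ico 0 T, ∀ t, (second_c_B C S C1 S1 τ t).det ≠ 0 := by
    intro τ hτ t
    rcases hτ.1.eq_or_lt with e | e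
    · rw [← e, second_c_zero]; exact (h.pos t).det_pos.ne'
    · intro e0
      exact hT t (t - τ) (by linarith) (by linarith [hτ.2]) (by rw [hdet, e0, mul_zero])
  have hc : ∀ p : ℝ × ℝ, p.1 ∈ Ico 0 T →
      ContinuousAt (fun q : ℝ × ℝ => Real.log (second_c_B C S C1 S1 q.1 q.2).det) p :=
    fun p hp => continuousAt_logdet (second_c_cont h).continuousAt (hne p.1 hp p.2)
  have hl := par_cont (c := 0) (d := π)
    (F := fun τ t => Real.log (second_c_B C S C1 S1 τ t).det) h0
    (fun p hp => (hc p hp.1).continuousWithinAt)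
  simp only [second_c_zero] at hl
  refine hl.congr' ?_
  filter_upwards [Ioo_mem_nhdsGT h0] with τ hτ
  have hi : Continuous fun t => Real.log (second_c_B C S C1 S1 τ t).det :=
    continuous_iff_continuousAt.2 fun t => ContinuousAt.comp (f := fun t : ℝ => (τ, t))
      (hc (τ, t) ⟨hτ.1.le, hτ.2⟩) (by fun_prop)
  have e : ∀ t, Real.log (pr C S t (t - τ)).det =
      m * Real.log τ + Real.log (second_c_B C S C1 S1 τ t).det := fun t => by
    rw [hdet, Real.log_mul (pow_ne_zero _ hτ.1.ne') (hne τ ⟨hτ.1.le, hτ.2⟩ t), Real.log_pow]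
  simp only [avL, e]
  rw [intervalIntegral.integral_add intervalIntegrable_const (hi.intervalIntegrable _ _)]
  simp only [intervalIntegral.integral_const, sub_zero, smul_eq_mul]
  ring

end Vale.Agent.P231
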