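import Vale.Agent.P231.M.Ident
import Vale.Agent.P231.M.Real

/-!
# The averaged log-determinant: second derivative and behaviour at `0`  (TASK)

Write `A(t,s) = pr C S t s`, `A_s = om (C t) (S t) (C1 s) (S1 s)`, `A_t = om (C1 t) (S1 t) (C s) (S s)`, `A_ts = om (C1 t) (S1 t) (C1 s) (S1 s)`
(`MD.om`, `MD.const`), `L = log det A`, `L_s = tr (A⁻¹ A_s)` (`MD.logdet`), all jointly continuous where `det A ≠ 0`
(`continuous_om`, `continuousAt_inv_mat`, `continuousAt_logdet`; `C`, `S` are continuous by `MD.continuousAt`).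
`Loop.second`: `par_deriv` gives `avL' τ = -∫ L_s (t, t - τ) dt`.  `L (t+π, s+π) = L (t, s)` (`abs_det_shift`, `Real.log_abs`), hence the same for `L_s`
(uniqueness of derivatives), so `avL' τ = -∫ L_s (s + τ, s) ds` (`per_shift`) `=: I1 τ`.  `par_deriv` again, with
`∂_t L_s = tr (A⁻¹ A_ts - A⁻¹ A_t A⁻¹ A_s) = tr (A⁻¹ g(t) A⁻¹ᵀ g(s))` (`MD.inv`, `MD.mul`, `MD.trace`, `om_complete` with `X = (C1 t, S1 t)`,
`Y = (C1 s, S1 s)`, `om_transpose`, `g` symmetric since `PosDef`); shift back with `per_shift` (the integrand is again periodic as a derivative of a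
periodic function).
`Loop.zero`: `A(t, t - τ) = τ • B(τ, t)` with `B(τ,t) i j = -∫ r in 0..1, A_s (t, t - r τ) i j` (fundamental theorem of calculus, `lag`), `B` jointly continuous
(`intervalIntegral.continuous_parametric_intervalIntegral_of_continuous'`), `B(0,t) = g(t)ᵀ`; `det A = τ ^ m det B`, `det B ≠ 0` on `Ico 0 T`;
apply `par_cont` to `log det B`.  This file holds one portion of the plan above.  Prefix helper names by `second_a_`.
-/

namespace Vale.Agent.P231

open Matrix Real Filter Topology Set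

variable {m : ℕ} {C S C1 S1 : ℝ → Mat m} {T : ℝ}

/-- The mixed derivative of `log det A` at `(t, t - τ)`. -/
noncomputable def mix (C S C1 S1 : ℝ → Mat m) (τ t : ℝ) : ℝ :=
  ((pr C S t (t - τ))⁻¹ * gm C S C1 S1 t * ((pr C S t (t - τ))⁻¹)ᵀ * gm C S C1 S1 (t - τ)).trace

theorem Loop.second_a_cC (h : Loop C S C1 S1) : Continuous C :=
  continuous_iff_continuousAt.2 fun t => (h.dC t).continuousAt

theorem Loop.second_a_cS (h : Loop C S C1 S1) : Continuous S :=
  continuous_iff_continuousAt.2 fun t => (h.dS t).continuousAt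

theorem Loop.continuous_pr (h : Loop C S C1 S1) :
    Continuous fun p : ℝ × ℝ => pr C S p.1 p.2 :=
  continuous_om (h.second_a_cC.comp continuous_fst) (h.second_a_cS.comp continuous_fst)
    (h.second_a_cC.comp continuous_snd) (h.second_a_cS.comp continuous_snd)

theorem Loop.continuous_gm (h : Loop C S C1 S1) : Continuous (gm C S C1 S1) :=
  continuous_om h.cC1 h.cS1 h.second_a_cC h.second_a_cS

theorem Loop.second_a_pr (h : Loop C S C1 S1) (τ : ℝ) :
    Continuous fun t : ℝ => pr C S t (t - τ) :=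
  h.continuous_pr.comp (f := fun t : ℝ => (t, t - τ)) (by fun_prop)

theorem Loop.continuous_log (h : Loop C S C1 S1) (hT : Tv C S T) {τ : ℝ} (hτ : τ ∈ Ioo 0 T) :
    Continuous fun t => Real.log (pr C S t (t - τ)).det :=
  continuous_iff_continuousAt.2 fun t => continuousAt_logdet (h.second_a_pr τ).continuousAt
    (hT t (t - τ) (by linarith [hτ.1]) (by linarith [hτ.2]))

theorem Loop.continuous_mix (h : Loop C S C1 S1) (hT : Tv C S T) {τ : ℝ} (hτ : τ ∈ Ioo 0 T) :
    Continuous (mix C S C1 S1 τ) := by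
  have hi : Continuous fun t => (pr C S t (t - τ))⁻¹ :=
    continuous_iff_continuousAt.2 fun t => continuousAt_inv_mat (h.second_a_pr τ).continuousAt
      (hT t (t - τ) (by linarith [hτ.1]) (by linarith [hτ.2]))
  exact (((hi.matrix_mul h.continuous_gm).matrix_mul hi.matrix_transpose).matrix_mul
    (h.continuous_gm.comp (continuous_sub_right τ))).matrix_trace

end Vale.Agent.P231
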