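import Vale.Agent.P231.M.SecondA

/-!
# The averaged log-determinant: second derivative and behaviour at `0`  (TASK)

Write `A(t,s) = pr C S t s`, `A_s = om (C t) (S t) (C1 s) (S1 s)`, `A_t = om (C1 t) (S1 t) (C s) (S s)`, `A_ts = om (C1 t) (S1 t) (C1 s) (S1 s)`
(`MD.om`, `MD.const`), `L = log det A`, `L_s = tr (A⁻¹ A_s)` (`MD.logdet`), all jointly continuous where `det A ≠ 0`
(`continuous_om`, `continuousAt_inv_mat`, `continuousAt_logdet`; `C`, `S` are continuous by `MD.continuousAt`).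
`Loop.second`: `par_deriv` gives `avL' τ = -∫ L_s (t, t - τ) dt`.  `L (t+π, s+π) = L (t, s)` (`abs_det_shift`, `Real.log_abs`), hence the same for `L_s`
(uniqueness of derivatives), so `avL' τ = -∫ L_s (s + τ, s) ds` (`per_shift`) `=: I1 τ`.  `par_deriv` again, with
`∂_t L_s = tr (A⁻¹ A_ts - A⁻¹ A_t A⁻¹ A_s) = tr (A⁻¹ g(t) A⁻¹ᵀ g(s))` (`MD.inv`, `MD.mul`, `MD.trace`, `om_complete` with `X = (C1 t, S1 t)`,
`Y = (C1 s, S1 s)`, `om_transpose`, `g` symmetric since `PosDef`); shift back with `per_shift` (the integrand is again periodic as a derivative of a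
periodic function).
`Loop.zero`: `A(t, t - τ) = τ • B(τ, t)` with `B(τ,t) i j = -∫ r in 0..1, A_s (t, t - r τ) i j` (fundamental theorem of calculus, `lag`), `B` jointly continuous
(`intervalIntegral.continuous_parametric_intervalIntegral_of_continuous'`), `B(0,t) = g(t)ᵀ`; `det A = τ ^ m det B`, `det B ≠ 0` on `Ico 0 T`;
apply `par_cont` to `log det B`.  This file holds one portion of the plan above.  Prefix helper names by `second_b_`.
-/

namespace Vale.Agent.P231

open Matrix Real Filter Topology Set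

variable {m : ℕ} {C S C1 S1 : ℝ → Mat m} {T : ℝ}

/-- The derivative of `log det A(t, s)` in `s`. -/
noncomputable def second_b_Ls (C S C1 S1 : ℝ → Mat m) (t s : ℝ) : ℝ :=
  ((pr C S t s)⁻¹ * om (C t) (S t) (C1 s) (S1 s)).trace

/-- The mixed derivative of `log det A(t, s)`. -/
noncomputable def second_b_Mx (C S C1 S1 : ℝ → Mat m) (t s : ℝ) : ℝ :=
  ((pr C S t s)⁻¹ * gm C S C1 S1 t * ((pr C S t s)⁻¹)ᵀ * gm C S C1 S1 s).trace

theorem second_b_ds (h : Loop C S C1 S1) {t s : ℝ} (hd : (pr C S t s).det ≠ 0) :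
    HasDerivAt (fun x => Real.log (pr C S t x).det) (second_b_Ls C S C1 S1 t s) s := by
  have hA : MD (fun x => pr C S t x) (om (C t) (S t) (C1 s) (S1 s)) s :=
    (MD.om (MD.const (C t) s) (MD.const (S t) s) (h.dC s) (h.dS s)).congr (by simp [om])
  exact hA.logdet hd

theorem second_b_dt (h : Loop C S C1 S1) {t s : ℝ} (hd : (pr C S t s).det ≠ 0) :
    HasDerivAt (fun x => second_b_Ls C S C1 S1 x s) (second_b_Mx C S C1 S1 t s) t := by
  have hA : MD (fun x => pr C S x s) (om (C1 t) (S1 t) (C s) (S s)) t :=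
    (MD.om (h.dC t) (h.dS t) (MD.const (C s) t) (MD.const (S s) t)).congr (by simp [om])
  have hB : MD (fun x => om (C x) (S x) (C1 s) (S1 s)) (om (C1 t) (S1 t) (C1 s) (S1 s)) t :=
    (MD.om (h.dC t) (h.dS t) (MD.const (C1 s) t) (MD.const (S1 s) t)).congr (by simp [om])
  refine ((hA.inv hd).mul hB).trace.congr_deriv ?_
  have e := om_complete (h.lag t) (h.lag s) hd (C1 t) (S1 t) (C1 s) (S1 s)
  have hs : om (C s) (S s) (C1 s) (S1 s) = -gm C S C1 S1 s := by
    have e1 : (gm C S C1 S1 s)ᵀ = gm C S C1 S1 s := by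
      simpa using (h.pos s).isHermitian.eq
    rw [← e1, gm, om_transpose, neg_neg]
  rw [e, hs, second_b_Mx]
  congr 1
  simp only [pr, gm, Matrix.mul_sub, Matrix.mul_neg, Matrix.neg_mul, Matrix.mul_assoc]
  abel

theorem second_b_L (h : Loop C S C1 S1) (t s : ℝ) :
    Real.log (pr C S (t + π) (s + π)).det = Real.log (pr C S t s).det := by
  rw [← Real.log_abs, h.abs_det_shift, Real.log_abs]

theorem second_b_ne (h : Loop C S C1 S1) {t s : ℝ} (hd : (pr C S t s).det ≠ 0) :
    (pr C S (t + π) (s + π)).det ≠ 0 := fun e =>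
  hd (abs_eq_zero.1 (by rw [← h.abs_det_shift, e, abs_zero]))

theorem second_b_perL (h : Loop C S C1 S1) {t s : ℝ} (hd : (pr C S t s).det ≠ 0) :
    second_b_Ls C S C1 S1 (t + π) (s + π) = second_b_Ls C S C1 S1 t s := by
  have h1 := (second_b_ds h (second_b_ne h hd)).comp_add_const s π
  simp only [second_b_L h] at h1
  exact h1.unique (second_b_ds h hd)

theorem second_b_perM (h : Loop C S C1 S1) {t s : ℝ} (hd : (pr C S t s).det ≠ 0) :
    second_b_Mx C S C1 S1 (t + π) (s + π) = second_b_Mx C S C1 S1 t s := by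
  have h1 := (second_b_dt h (second_b_ne h hd)).comp_add_const t π
  have hc : Continuous fun x => (pr C S x s).det :=
    (h.continuous_pr.comp (f := fun x : ℝ => (x, s)) (by fun_prop)).matrix_det
  have hev : (fun x => second_b_Ls C S C1 S1 x s) =ᶠ[𝓝 t]
      fun x => second_b_Ls C S C1 S1 (x + π) (s + π) :=
    (hc.continuousAt.eventually_ne hd).mono fun x hx => (second_b_perL h hx).symm
  exact (h1.congr_of_eventuallyEq hev).unique (second_b_dt h hd)

theorem second_b_cont (h : Loop C S C1 S1) {p : ℝ × ℝ} (hd : (pr C S p.1 p.2).det ≠ 0) :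
    ContinuousAt (fun q : ℝ × ℝ => Real.log (pr C S q.1 q.2).det) p ∧
    ContinuousAt (fun q : ℝ × ℝ => second_b_Ls C S C1 S1 q.1 q.2) p ∧
    ContinuousAt (fun q : ℝ × ℝ => second_b_Mx C S C1 S1 q.1 q.2) p := by
  have hi := continuousAt_inv_mat h.continuous_pr.continuousAt hd
  have hit : ContinuousAt (fun q : ℝ × ℝ => ((pr C S q.1 q.2)⁻¹)ᵀ) p :=
    (continuous_id.matrix_transpose (A := fun X : Mat m => X)).continuousAt.comp hi
  have htr : Continuous fun X : Mat m => X.trace := continuous_id.matrix_trace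
  have ho : Continuous fun q : ℝ × ℝ => om (C q.1) (S q.1) (C1 q.2) (S1 q.2) :=
    continuous_om (h.second_a_cC.comp continuous_fst) (h.second_a_cS.comp continuous_fst)
      (h.cC1.comp continuous_snd) (h.cS1.comp continuous_snd)
  have g1 : Continuous fun q : ℝ × ℝ => gm C S C1 S1 q.1 := h.continuous_gm.comp continuous_fst
  have g2 : Continuous fun q : ℝ × ℝ => gm C S C1 S1 q.2 := h.continuous_gm.comp continuous_snd
  exact ⟨continuousAt_logdet h.continuous_pr.continuousAt hd,
    htr.continuousAt.comp (hi.mul ho.continuousAt),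
    htr.continuousAt.comp (((hi.mul g1.continuousAt).mul hit).mul g2.continuousAt)⟩

theorem Loop.second (h : Loop C S C1 S1) (hT : Tv C S T) : ∃ I1 : ℝ → ℝ, ∀ τ ∈ Ioo 0 T,
    HasDerivAt (avL C S) (I1 τ) τ ∧
      HasDerivAt I1 (-∫ t in (0 : ℝ)..π, mix C S C1 S1 τ t) τ := by
  have n1 : ∀ x ∈ Ioo 0 T, ∀ t, (pr C S t (t - x)).det ≠ 0 := fun x hx t =>
    hT t (t - x) (by linarith [hx.1]) (by linarith [hx.2])
  have n2 : ∀ x ∈ Ioo 0 T, ∀ s, (pr C S (s + x) s).det ≠ 0 := fun x hx s =>
    hT (s + x) s (by linarith [hx.1]) (by linarith [hx.2])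
  have c1 : Continuous fun p : ℝ × ℝ => (p.2, p.2 - p.1) := by fun_prop
  have c2 : Continuous fun p : ℝ × ℝ => (p.2 + p.1, p.2) := by fun_prop
  refine ⟨fun τ => ∫ s in (0 : ℝ)..π, -second_b_Ls C S C1 S1 (s + τ) s, fun τ hτ => ⟨?_, ?_⟩⟩
  · have hd := par_deriv (c := 0) (d := π) (f := fun x t => Real.log (pr C S t (t - x)).det)
      (f' := fun x t => -second_b_Ls C S C1 S1 t (t - x)) hτ
      (fun p hp => (ContinuousAt.comp (f := fun p : ℝ × ℝ => (p.2, p.2 - p.1))
        (second_b_cont h (n1 p.1 hp.1 p.2)).1 c1.continuousAt).continuousWithinAt)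
      (fun p hp => (ContinuousAt.comp (f := fun p : ℝ × ℝ => (p.2, p.2 - p.1))
        (second_b_cont h (n1 p.1 hp.1 p.2)).2.1 c1.continuousAt).neg.continuousWithinAt)
      (fun x hx t => (second_b_ds h (n1 x hx t)).comp_const_sub t x)
    refine hd.congr_deriv ?_
    rw [← per_shift (f := fun t => -second_b_Ls C S C1 S1 t (t - τ)) (fun t => by
      rw [show t + π - τ = t - τ + π by ring, second_b_perL h (n1 τ hτ t)]) τ]
    simp only [add_sub_cancel_right]
  · have hd := par_deriv (c := 0) (d := π) (f := fun x s => -second_b_Ls C S C1 S1 (s + x) s)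
      (f' := fun x s => -second_b_Mx C S C1 S1 (s + x) s) hτ
      (fun p hp => (ContinuousAt.comp (f := fun p : ℝ × ℝ => (p.2 + p.1, p.2))
        (second_b_cont h (n2 p.1 hp.1 p.2)).2.1 c2.continuousAt).neg.continuousWithinAt)
      (fun p hp => (ContinuousAt.comp (f := fun p : ℝ × ℝ => (p.2 + p.1, p.2))
        (second_b_cont h (n2 p.1 hp.1 p.2)).2.2 c2.continuousAt).neg.continuousWithinAt)
      (fun x hx s => ((second_b_dt h (n2 x hx s)).comp_const_add s x).neg)
    refine hd.congr_deriv ?_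
    have e : ∀ t, mix C S C1 S1 τ t = second_b_Mx C S C1 S1 t (t - τ) := fun t => rfl
    rw [intervalIntegral.integral_neg, ← per_shift (f := mix C S C1 S1 τ) (fun t => by
      rw [e, e, show t + π - τ = t - τ + π by ring, second_b_perM h (n1 τ hτ t)]) τ]
    simp only [e, add_sub_cancel_right]

end Vale.Agent.P231
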