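import Vale.Agent.P231.M.SysA

/-!
# Jacobi systems: Wronskians, the propagator, the Riccati bound  (TASK)

Wronskians: `Cᵀ C1 - C1ᵀ C`, `Sᵀ S1 - S1ᵀ S`, `Cᵀ S1 - C1ᵀ S` have derivative `0` (`R` symmetric), so they are `0, 0, 1` (`MD.const_of`).  Hence
`Φ = fromBlocks C S C1 S1` has the left inverse `fromBlocks S1ᵀ (-Sᵀ) (-C1ᵀ) Cᵀ`, which is also a right inverse (`Matrix.mul_eq_one_comm`); its blocks give
`lag`, `gm_eq` and `C1 S1ᵀ = S1 C1ᵀ`.  `Sys.sol`: for a vector solution `y` the vectors `S1ᵀ y - Sᵀ y1` and `Cᵀ y1 - C1ᵀ y` are constant; multiply by `Φ`.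
`Sys.sol_pr`: the same constants evaluated at `s`.  `Sys.tv_S`: `t < π / 2` from `Tv`; for `t > π / 2`, `|det A(t,0)| = |det A(t - π, 0)| = |det A(0, t - π)|`.
`Sys.sig_symm`: `A_tᵀ A - Aᵀ A_t` is constant in `t` and vanishes at `t = s`.  `Sys.sig_deriv`: `MD.inv`, `om_complete` as in `M/Second`.
`Sys.ric`: for fixed `s`, `Σ' = -R - Σ²` in `t`.  For `0 < ε' < ε` put `φ r = (t + ε' - r) / ε'`, `F r = φ² x ⬝ Σ(r,s) x` on `[t, t + ε']`;
`F' = 2 φ φ' x⬝Σx - φ² (|Σx|² + x⬝Rx) ≤ (1 / ε'² + ρ) |x|²` (Cauchy-Schwarz or `|φ Σ x - φ' x|² ≥ 0`), so `-F t ≤ (1 / ε' + ρ ε') |x|²`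
(`image_sub_le_mul_sub_of_deriv_le` or monotonicity); let `ε' → ε`.  This file holds one portion of the plan above.  Prefix helper names by `sys_b_`.
-/

namespace Vale.Agent.P231

open Matrix Real Filter Topology Set

variable {m : ℕ} {R C S C1 S1 : ℝ → Mat m} {P : Mat m}

theorem sys_b_dA (h : Sys R C S C1 S1) (s t : ℝ) :
    MD (fun x => pr C S x s) (om (C1 t) (S1 t) (C s) (S s)) t :=
  (MD.om (h.dC t) (h.dS t) (MD.const (C s) t) (MD.const (S s) t)).congr (by simp [om])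

theorem sys_b_dA1 (h : Sys R C S C1 S1) (s t : ℝ) :
    MD (fun x => om (C1 x) (S1 x) (C s) (S s)) (-(R t * pr C S t s)) t :=
  (MD.om (h.dC1 t) (h.dS1 t) (MD.const (C s) t) (MD.const (S s) t)).congr (by
    simp only [om, pr, transpose_zero, Matrix.mul_zero, sub_zero, add_zero, Matrix.neg_mul,
      Matrix.mul_sub, Matrix.mul_assoc]
    abel)

theorem Sys.sig_symm (h : Sys R C S C1 S1) {t s : ℝ} (hd : (pr C S t s).det ≠ 0) :
    (sig C S C1 S1 t s)ᵀ = sig C S C1 S1 t s := by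
  have h1 := sys_a_w h.symm (sys_b_dA h s) (sys_b_dA h s) (sys_b_dA1 h s) (sys_b_dA1 h s) t
  have h2 := sys_a_w h.symm (sys_b_dA h s) (sys_b_dA h s) (sys_b_dA1 h s) (sys_b_dA1 h s) s
  rw [← h2, h.lag s, transpose_zero, Matrix.zero_mul, Matrix.mul_zero, sub_zero,
    sub_eq_zero] at h1
  have hAB : pr C S t s * (pr C S t s)⁻¹ = 1 := mul_nonsing_inv _ (isUnit_iff_ne_zero.2 hd)
  have hT : ((pr C S t s)⁻¹)ᵀ * (pr C S t s)ᵀ = 1 := by rw [← transpose_mul, hAB, transpose_one]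
  rw [sig, transpose_mul]
  calc ((pr C S t s)⁻¹)ᵀ * (om (C1 t) (S1 t) (C s) (S s))ᵀ
      = ((pr C S t s)⁻¹)ᵀ * ((om (C1 t) (S1 t) (C s) (S s))ᵀ * pr C S t s) * (pr C S t s)⁻¹ := by
        rw [Matrix.mul_assoc, Matrix.mul_assoc, hAB, Matrix.mul_one]
    _ = _ := by rw [← h1, ← Matrix.mul_assoc, hT, Matrix.one_mul]

theorem Sys.sig_deriv (h : Sys R C S C1 S1) {t s : ℝ} (hd : (pr C S t s).det ≠ 0) :
    MD (fun r => sig C S C1 S1 t r) (((pr C S t s)⁻¹)ᵀ * (pr C S t s)⁻¹) s := by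
  have hA : MD (fun x => pr C S t x) (om (C t) (S t) (C1 s) (S1 s)) s :=
    (MD.om (MD.const (C t) s) (MD.const (S t) s) (h.dC s) (h.dS s)).congr (by simp [om])
  have hB : MD (fun x => om (C1 t) (S1 t) (C x) (S x)) (om (C1 t) (S1 t) (C1 s) (S1 s)) s :=
    (MD.om (MD.const (C1 t) s) (MD.const (S1 t) s) (h.dC s) (h.dS s)).congr (by simp [om])
  refine (hB.mul (hA.inv hd)).congr ?_
  have e := om_complete (h.lag t) (h.lag s) hd (C1 t) (S1 t) (C1 s) (S1 s)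
  have g1 : om (C1 t) (S1 t) (C t) (S t) = 1 := h.gm_eq t
  have g2 : om (C s) (S s) (C1 s) (S1 s) = -1 := by
    have := om_transpose (C1 s) (S1 s) (C s) (S s)
    rw [show om (C1 s) (S1 s) (C s) (S s) = 1 from h.gm_eq s, transpose_one] at this
    rw [this, neg_neg]
  rw [e, g1, g2]
  simp only [pr, Matrix.sub_mul, Matrix.mul_neg, Matrix.neg_mul, Matrix.mul_assoc, Matrix.one_mul,
    Matrix.mul_one]
  abel

theorem Sys.continuousAt_sig (h : Sys R C S C1 S1) {p : ℝ × ℝ} (hd : (pr C S p.1 p.2).det ≠ 0) :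
    ContinuousAt (fun q : ℝ × ℝ => sig C S C1 S1 q.1 q.2) p := by
  have cC : Continuous C := continuous_iff_continuousAt.2 fun t => (h.dC t).continuousAt
  have cS : Continuous S := continuous_iff_continuousAt.2 fun t => (h.dS t).continuousAt
  have cC1 : Continuous C1 := continuous_iff_continuousAt.2 fun t => (h.dC1 t).continuousAt
  have cS1 : Continuous S1 := continuous_iff_continuousAt.2 fun t => (h.dS1 t).continuousAt
  have h1 : Continuous fun q : ℝ × ℝ => pr C S q.1 q.2 :=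
    continuous_om (cC.comp continuous_fst) (cS.comp continuous_fst) (cC.comp continuous_snd)
      (cS.comp continuous_snd)
  have h2 : Continuous fun q : ℝ × ℝ => om (C1 q.1) (S1 q.1) (C q.2) (S q.2) :=
    continuous_om (cC1.comp continuous_fst) (cS1.comp continuous_fst) (cC.comp continuous_snd)
      (cS.comp continuous_snd)
  exact h2.continuousAt.mul (continuousAt_inv_mat h1.continuousAt hd)

theorem Sys.exists_bound (h : Sys R C S C1 S1) (a b : ℝ) :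
    ∃ ρ : ℝ, 0 ≤ ρ ∧ ∀ r ∈ Icc a b, ∀ x, -(ρ * (x ⬝ᵥ x)) ≤ x ⬝ᵥ R r *ᵥ x := by
  have hc : Continuous fun r => ∑ i, ∑ j, |R r i j| :=
    continuous_finsetSum _ fun i _ => continuous_finsetSum _ fun j _ => (h.cR.matrix_elem i j).abs
  obtain ⟨M, hM⟩ := isCompact_Icc.bddAbove_image (K := Icc a b) hc.continuousOn
  refine ⟨max M 0, le_max_right _ _, fun r hr x => ?_⟩
  have hx : ∀ i, x i * x i ≤ x ⬝ᵥ x := fun i =>
    Finset.single_le_sum (f := fun i => x i * x i) (fun i _ => mul_self_nonneg _)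
      (Finset.mem_univ i)
  have h0 : 0 ≤ x ⬝ᵥ x := Finset.sum_nonneg fun i _ => mul_self_nonneg _
  have h1 : (∑ i, ∑ j, |R r i j|) ≤ max M 0 := (hM ⟨r, hr, rfl⟩).trans (le_max_left _ _)
  have h2 : -((∑ i, ∑ j, |R r i j|) * (x ⬝ᵥ x)) ≤ x ⬝ᵥ R r *ᵥ x := by
    have e0 : x ⬝ᵥ R r *ᵥ x = ∑ i, ∑ j, x i * (R r i j * x j) := by
      simp only [mulVec, dotProduct, Finset.mul_sum]
    rw [e0, Finset.sum_mul, ← Finset.sum_neg_distrib]
    refine Finset.sum_le_sum fun i _ => ?_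
    rw [Finset.sum_mul, ← Finset.sum_neg_distrib]
    refine Finset.sum_le_sum fun j _ => ?_
    have e1 : |x i * x j| ≤ x ⬝ᵥ x := abs_le.2 ⟨by nlinarith [hx i, hx j, sq_nonneg (x i + x j)],
      by nlinarith [hx i, hx j, sq_nonneg (x i - x j)]⟩
    have e2 : |x i * (R r i j * x j)| ≤ |R r i j| * (x ⬝ᵥ x) := by
      rw [mul_left_comm, abs_mul]; exact mul_le_mul_of_nonneg_left e1 (abs_nonneg _)
    exact (abs_le.1 e2).1
  nlinarith [mul_le_mul_of_nonneg_right h1 h0]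

theorem sys_b_ric (h : Sys R C S C1 S1) {t s : ℝ} (hd : (pr C S t s).det ≠ 0) (x : Fin m → ℝ) :
    HasDerivAt (fun r => x ⬝ᵥ sig C S C1 S1 r s *ᵥ x)
      (-(x ⬝ᵥ R t *ᵥ x) - (sig C S C1 S1 t s *ᵥ x) ⬝ᵥ (sig C S C1 S1 t s *ᵥ x)) t := by
  have hAB : pr C S t s * (pr C S t s)⁻¹ = 1 := mul_nonsing_inv _ (isUnit_iff_ne_zero.2 hd)
  have h1 : MD (fun r => sig C S C1 S1 r s) (-R t - sig C S C1 S1 t s * sig C S C1 S1 t s) t := by
    refine ((sys_b_dA1 h s t).mul ((sys_b_dA h s t).inv hd)).congr ?_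
    rw [Matrix.neg_mul, Matrix.mul_assoc, hAB, Matrix.mul_one, sig]
    simp only [Matrix.mul_neg, Matrix.mul_assoc]
    abel
  refine ((VD.const x t).dot (h1.mulVec (VD.const x t))).congr_deriv ?_
  rw [zero_dotProduct, zero_add, mulVec_zero, add_zero, sub_mulVec, neg_mulVec, dotProduct_sub,
    dotProduct_neg, ← mulVec_mulVec, dotProduct_mulVec x (sig C S C1 S1 t s),
    ← mulVec_transpose, h.sig_symm hd]

theorem Sys.ric (h : Sys R C S C1 S1) {t s ε ρ : ℝ} (hε : 0 < ε) (hρ : 0 ≤ ρ)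
    (hd : ∀ r ∈ Ico t (t + ε), (pr C S r s).det ≠ 0)
    (hR : ∀ r ∈ Icc t (t + ε), ∀ x, -(ρ * (x ⬝ᵥ x)) ≤ x ⬝ᵥ R r *ᵥ x) (x : Fin m → ℝ) :
    -((1 / ε + ρ * ε) * (x ⬝ᵥ x)) ≤ x ⬝ᵥ sig C S C1 S1 t s *ᵥ x := by
  have h0 : 0 ≤ x ⬝ᵥ x := Finset.sum_nonneg fun i _ => mul_self_nonneg _
  have main : ∀ e ∈ Ioo 0 ε, -((1 / e + ρ * e) * (x ⬝ᵥ x)) ≤ x ⬝ᵥ sig C S C1 S1 t s *ᵥ x := by
    intro e he
    have hD : ∀ r ∈ Icc t (t + e), ∃ d, d ≤ (1 + ρ * e ^ 2) * (x ⬝ᵥ x) ∧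
        HasDerivAt (fun r => (t + e - r) ^ 2 * (x ⬝ᵥ sig C S C1 S1 r s *ᵥ x)) d r := by
      intro r hr
      have hφ : HasDerivAt (fun r : ℝ => (t + e - r) ^ 2) (-(2 * (t + e - r))) r := by
        simpa using ((hasDerivAt_id r).const_sub (t + e)).fun_pow 2
      refine ⟨_, ?_, hφ.mul (sys_b_ric h (hd r ⟨hr.1, by linarith [hr.2, he.2]⟩) x)⟩
      have h1 := hR r ⟨hr.1, by linarith [hr.2, he.2]⟩ x
      set y := sig C S C1 S1 r s *ᵥ x
      set φ := t + e - r with hφd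
      have h2 : 0 ≤ (φ • y + x) ⬝ᵥ (φ • y + x) := Finset.sum_nonneg fun i _ => mul_self_nonneg _
      simp only [add_dotProduct, dotProduct_add, smul_dotProduct, dotProduct_smul, smul_eq_mul,
        dotProduct_comm y x] at h2
      have h3 : φ ^ 2 ≤ e ^ 2 := pow_le_pow_left₀ (by linarith [hr.2]) (by linarith [hr.1]) 2
      have h4 : φ ^ 2 * (ρ * (x ⬝ᵥ x)) ≤ e ^ 2 * (ρ * (x ⬝ᵥ x)) :=
        mul_le_mul_of_nonneg_right h3 (mul_nonneg hρ h0)
      nlinarith [mul_le_mul_of_nonneg_left h1 (sq_nonneg φ)]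
    have hc : ContinuousOn (fun r => (t + e - r) ^ 2 * (x ⬝ᵥ sig C S C1 S1 r s *ᵥ x))
        (Icc t (t + e)) := fun r hr => (hD r hr).choose_spec.2.continuousAt.continuousWithinAt
    have h5 := (convex_Icc t (t + e)).image_sub_le_mul_sub_of_deriv_le hc
      (fun r hr => (hD r (interior_subset hr)).choose_spec.2.differentiableAt.differentiableWithinAt)
      (fun r hr => by
        obtain ⟨d, h1, h2⟩ := hD r (interior_subset hr)
        rw [h2.deriv]; exact h1)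
      t ⟨le_rfl, by linarith [he.1]⟩ (t + e) ⟨by linarith [he.1], le_rfl⟩ (by linarith [he.1])
    simp only [sub_self, add_sub_cancel_left] at h5
    have he0 := he.1
    have e1 : (1 / e + ρ * e) * (x ⬝ᵥ x) = (1 + ρ * e ^ 2) * (x ⬝ᵥ x) * e / e ^ 2 := by
      field_simp
    rw [e1, neg_le, le_div_iff₀ (by positivity)]
    linarith
  have hl : Tendsto (fun e : ℝ => -((1 / e + ρ * e) * (x ⬝ᵥ x))) (𝓝[<] ε)
      (𝓝 (-((1 / ε + ρ * ε) * (x ⬝ᵥ x)))) := by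
    have : ContinuousAt (fun e : ℝ => -((1 / e + ρ * e) * (x ⬝ᵥ x))) ε := by
      fun_prop (disch := exact hε.ne')
    exact this.tendsto.mono_left nhdsWithin_le_nhds
  exact le_of_tendsto hl (mem_of_superset (Ioo_mem_nhdsLT hε) main)

end Vale.Agent.P231
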