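import Vale.Agent.P231.M.Ident

/-!
# Jacobi systems: Wronskians, the propagator, the Riccati bound  (TASK)

Wronskians: `Cᵀ C1 - C1ᵀ C`, `Sᵀ S1 - S1ᵀ S`, `Cᵀ S1 - C1ᵀ S` have derivative `0` (`R` symmetric), so they are `0, 0, 1` (`MD.const_of`).  Hence
`Φ = fromBlocks C S C1 S1` has the left inverse `fromBlocks S1ᵀ (-Sᵀ) (-C1ᵀ) Cᵀ`, which is also a right inverse (`Matrix.mul_eq_one_comm`); its blocks give
`lag`, `gm_eq` and `C1 S1ᵀ = S1 C1ᵀ`.  `Sys.sol`: for a vector solution `y` the vectors `S1ᵀ y - Sᵀ y1` and `Cᵀ y1 - C1ᵀ y` are constant; multiply by `Φ`.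
`Sys.sol_pr`: the same constants evaluated at `s`.  `Sys.tv_S`: `t < π / 2` from `Tv`; for `t > π / 2`, `|det A(t,0)| = |det A(t - π, 0)| = |det A(0, t - π)|`.
`Sys.sig_symm`: `A_tᵀ A - Aᵀ A_t` is constant in `t` and vanishes at `t = s`.  `Sys.sig_deriv`: `MD.inv`, `om_complete` as in `M/Second`.
`Sys.ric`: for fixed `s`, `Σ' = -R - Σ²` in `t`.  For `0 < ε' < ε` put `φ r = (t + ε' - r) / ε'`, `F r = φ² x ⬝ Σ(r,s) x` on `[t, t + ε']`;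
`F' = 2 φ φ' x⬝Σx - φ² (|Σx|² + x⬝Rx) ≤ (1 / ε'² + ρ) |x|²` (Cauchy-Schwarz or `|φ Σ x - φ' x|² ≥ 0`), so `-F t ≤ (1 / ε' + ρ ε') |x|²`
(`image_sub_le_mul_sub_of_deriv_le` or monotonicity); let `ε' → ε`.  This file holds one portion of the plan above.  Prefix helper names by `sys_a_`.
-/

namespace Vale.Agent.P231

open Matrix Real Filter Topology Set

variable {m : ℕ} {R C S C1 S1 : ℝ → Mat m} {P : Mat m}

/-- The Riccati solution `A_t A⁻¹`. -/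
noncomputable def sig (C S C1 S1 : ℝ → Mat m) (t s : ℝ) : Mat m :=
  om (C1 t) (S1 t) (C s) (S s) * (pr C S t s)⁻¹

theorem sys_a_w {A B A1 B1 : ℝ → Mat m} (hR : ∀ t, (R t)ᵀ = R t) (dA : ∀ t, MD A (A1 t) t)
    (dB : ∀ t, MD B (B1 t) t) (dA1 : ∀ t, MD A1 (-(R t * A t)) t)
    (dB1 : ∀ t, MD B1 (-(R t * B t)) t) (t : ℝ) :
    (A t)ᵀ * B1 t - (A1 t)ᵀ * B t = (A 0)ᵀ * B1 0 - (A1 0)ᵀ * B 0 := by
  refine MD.const_of (A := fun t => (A t)ᵀ * B1 t - (A1 t)ᵀ * B t) (fun t => ?_) t 0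
  refine (((dA t).transpose.mul (dB1 t)).sub ((dA1 t).transpose.mul (dB t))).congr ?_
  rw [transpose_neg, transpose_mul, hR, Matrix.mul_neg, Matrix.neg_mul, Matrix.mul_assoc]
  abel

theorem Sys.wS (h : Sys R C S C1 S1) (t : ℝ) : (S t)ᵀ * S1 t = (S1 t)ᵀ * S t := by
  have h1 := sys_a_w h.symm h.dS h.dS h.dS1 h.dS1 t
  rw [h.S0, transpose_zero, Matrix.zero_mul, Matrix.mul_zero, sub_zero] at h1
  exact sub_eq_zero.1 h1

theorem sys_a_wC (h : Sys R C S C1 S1) (t : ℝ) : (C t)ᵀ * C1 t = (C1 t)ᵀ * C t := by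
  have h1 := sys_a_w h.symm h.dC h.dC h.dC1 h.dC1 t
  rw [h.C10, transpose_zero, Matrix.zero_mul, Matrix.mul_zero, sub_zero] at h1
  exact sub_eq_zero.1 h1

theorem Sys.wCS (h : Sys R C S C1 S1) (t : ℝ) : (C t)ᵀ * S1 t - (C1 t)ᵀ * S t = 1 := by
  have h1 := sys_a_w h.symm h.dC h.dS h.dC1 h.dS1 t
  rwa [h.S0, h.C0, h.S10, transpose_one, Matrix.mul_one, Matrix.mul_zero, sub_zero] at h1

theorem sys_a_blocks (h : Sys R C S C1 S1) (t : ℝ) :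
    C t * (S1 t)ᵀ - S t * (C1 t)ᵀ = 1 ∧ S t * (C t)ᵀ - C t * (S t)ᵀ = 0 ∧
      C1 t * (S1 t)ᵀ - S1 t * (C1 t)ᵀ = 0 ∧ S1 t * (C t)ᵀ - C1 t * (S t)ᵀ = 1 := by
  have h1 : fromBlocks (S1 t)ᵀ (-(S t)ᵀ) (-(C1 t)ᵀ) (C t)ᵀ * fromBlocks (C t) (S t) (C1 t) (S1 t) =
      1 := by
    have h2 := congrArg transpose (h.wCS t)
    rw [transpose_sub, transpose_mul, transpose_mul, transpose_transpose, transpose_transpose,
      transpose_one] at h2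
    rw [fromBlocks_multiply, ← fromBlocks_one]
    simp only [Matrix.neg_mul]
    rw [← sub_eq_add_neg, h2, h.wS, add_neg_cancel, sys_a_wC h, neg_add_cancel, neg_add_eq_sub,
      h.wCS]
  have h3 := mul_eq_one_comm.1 h1
  rw [fromBlocks_multiply, ← fromBlocks_one, fromBlocks_inj] at h3
  simp only [Matrix.mul_neg, ← sub_eq_add_neg, neg_add_eq_sub] at h3
  exact h3

theorem Sys.lag (h : Sys R C S C1 S1) (t : ℝ) : pr C S t t = 0 := (sys_a_blocks h t).2.1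

theorem Sys.gm_eq (h : Sys R C S C1 S1) (t : ℝ) : gm C S C1 S1 t = 1 := (sys_a_blocks h t).2.2.2

theorem Sys.pr_zero (h : Sys R C S C1 S1) (t : ℝ) : pr C S t 0 = S t := by
  rw [pr, om, h.C0, h.S0, transpose_one, transpose_zero, Matrix.mul_one, Matrix.mul_zero, sub_zero]

theorem Sys.loop (h : Sys R C S C1 S1) (hP : SPer C S P) : Loop C S C1 S1 where
  dC := h.dC
  dS := h.dS
  cC1 := continuous_iff_continuousAt.2 fun t => (h.dC1 t).continuousAt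
  cS1 := continuous_iff_continuousAt.2 fun t => (h.dS1 t).continuousAt
  lag := h.lag
  pos t := by
    rw [h.gm_eq]
    exact PosDef.one
  per t := ⟨P, hP.1, hP.2 t⟩
  perg t := by rw [h.gm_eq, h.gm_eq]

theorem sys_a_v {A A1 : ℝ → Mat m} (hR : ∀ t, (R t)ᵀ = R t) (dA : ∀ t, MD A (A1 t) t)
    (dA1 : ∀ t, MD A1 (-(R t * A t)) t) {y y1 : ℝ → Fin m → ℝ} (h1 : ∀ t, VD y (y1 t) t)
    (h2 : ∀ t, VD y1 (-(R t *ᵥ y t)) t) (t s : ℝ) :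
    (A t)ᵀ *ᵥ y1 t - (A1 t)ᵀ *ᵥ y t = (A s)ᵀ *ᵥ y1 s - (A1 s)ᵀ *ᵥ y s := by
  refine VD.const_of (y := fun t => (A t)ᵀ *ᵥ y1 t - (A1 t)ᵀ *ᵥ y t) (fun t i => ?_) t s
  refine (((dA t).transpose.mulVec (h2 t) i).sub ((dA1 t).transpose.mulVec (h1 t) i)).congr_deriv ?_
  rw [transpose_neg, transpose_mul, hR, mulVec_neg, neg_mulVec, mulVec_mulVec]
  simp only [Pi.add_apply, Pi.neg_apply, Pi.zero_apply]
  ring

theorem sys_a_sol (h : Sys R C S C1 S1) {y y1 : ℝ → Fin m → ℝ} (h1 : ∀ t, VD y (y1 t) t)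
    (h2 : ∀ t, VD y1 (-(R t *ᵥ y t)) t) (t s : ℝ) :
    y t = S t *ᵥ ((C s)ᵀ *ᵥ y1 s - (C1 s)ᵀ *ᵥ y s) - C t *ᵥ ((S s)ᵀ *ᵥ y1 s - (S1 s)ᵀ *ᵥ y s) := by
  obtain ⟨b1, b2, -, -⟩ := sys_a_blocks h t
  rw [← sys_a_v h.symm h.dC h.dC1 h1 h2 t s, ← sys_a_v h.symm h.dS h.dS1 h1 h2 t s]
  have e : y t = (C t * (S1 t)ᵀ - S t * (C1 t)ᵀ) *ᵥ y t +
      (S t * (C t)ᵀ - C t * (S t)ᵀ) *ᵥ y1 t := by rw [b1, b2, one_mulVec, zero_mulVec, add_zero]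
  refine e.trans ?_
  simp only [mulVec_sub, sub_mulVec, mulVec_mulVec]
  abel

theorem Sys.sol (h : Sys R C S C1 S1) {y y1 : ℝ → Fin m → ℝ} (h1 : ∀ t, VD y (y1 t) t)
    (h2 : ∀ t, VD y1 (-(R t *ᵥ y t)) t) (t : ℝ) : y t = C t *ᵥ y 0 + S t *ᵥ y1 0 := by
  rw [sys_a_sol h h1 h2 t 0, h.C0, h.S0, h.C10, h.S10]
  simp only [transpose_one, transpose_zero, one_mulVec, zero_mulVec, sub_zero, zero_sub,
    mulVec_neg, sub_neg_eq_add, add_comm]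

theorem Sys.sol_pr (h : Sys R C S C1 S1) {y y1 : ℝ → Fin m → ℝ} (h1 : ∀ t, VD y (y1 t) t)
    (h2 : ∀ t, VD y1 (-(R t *ᵥ y t)) t) {s : ℝ} (h0 : y s = 0) (t : ℝ) :
    y t = pr C S t s *ᵥ y1 s := by
  rw [sys_a_sol h h1 h2 t s, h0, pr, om]
  simp only [mulVec_zero, sub_zero, sub_mulVec, mulVec_mulVec]

theorem Sys.tv_S (h : Sys R C S C1 S1) (hP : SPer C S P) (hT : Tv C S (π / 2)) {t : ℝ}
    (h0 : 0 < t) (h1 : t < π) (h2 : t ≠ π / 2) : (S t).det ≠ 0 := by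
  rw [← h.pr_zero]
  rcases lt_or_gt_of_ne h2 with h3 | h3
  · exact hT t 0 h0 (by rwa [zero_add])
  · have h4 := (h.loop hP).abs_det_left (t - π) 0
    rw [sub_add_cancel, abs_det_swap C S (t - π)] at h4
    rw [← abs_ne_zero, h4, abs_ne_zero]
    exact hT 0 (t - π) (by linarith) (by linarith)

end Vale.Agent.P231
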